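import Mathlib.Analysis.Normed.Operator.Extend
import Mathlib.Analysis.InnerProductSpace.Basic
import Mathlib.Analysis.InnerProductSpace.Continuous

/-! Abstract part of the density argument. -/

namespace Vale.Agent.P223.H191

open scoped InnerProductSpace Topology
open Filter

variable {F H : Type*} [AddCommGroup F] [Module ℂ F] [NormedAddCommGroup H]
  [InnerProductSpace ℂ H]

theorem tendsto_dense {e : F →ₗ[ℂ] H} (he : DenseRange e) {C : ℝ} (T : ℝ → H →L[ℂ] H)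
    (L : H →L[ℂ] H) (hT : ∀ ε, 0 < ε → ε ≤ 1 → ∀ u, ‖T ε u‖ ≤ C * ‖u‖)
    (hl : ∀ φ, Tendsto (fun ε => T ε (e φ)) (𝓝[>] (0 : ℝ)) (𝓝 (L (e φ)))) (u : H) :
    Tendsto (fun ε => T ε u) (𝓝[>] (0 : ℝ)) (𝓝 (L u)) := by
  rw [Metric.tendsto_nhds]
  intro δ hδ
  set B : ℝ := |C| + ‖L‖ + 1 with hB
  have hB0 : 0 < B := by positivity
  obtain ⟨φ, hφ⟩ := he.exists_dist_lt u (show 0 < δ / (2 * B) by positivity)
  have h1 := (Metric.tendsto_nhds.1 (hl φ)) (δ / 2) (by positivity)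
  have h2 : ∀ᶠ ε in 𝓝[>] (0 : ℝ), 0 < ε ∧ ε ≤ 1 := by
    filter_upwards [Ioc_mem_nhdsGT (show (0 : ℝ) < 1 by norm_num)] with ε hε
    exact hε
  filter_upwards [h1, h2] with ε k1 k2
  have e1 : T ε u - L u = T ε (u - e φ) + (T ε (e φ) - L (e φ)) - L (u - e φ) := by
    rw [map_sub, map_sub]; abel
  rw [dist_eq_norm] at k1 hφ ⊢
  have k3 := hT ε k2.1 k2.2 (u - e φ)
  have k4 := L.le_opNorm (u - e φ)
  have k5 : C * ‖u - e φ‖ ≤ |C| * ‖u - e φ‖ :=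
    mul_le_mul_of_nonneg_right (le_abs_self C) (norm_nonneg _)
  have k6 : B * ‖u - e φ‖ < δ / 2 := by
    calc B * ‖u - e φ‖ < B * (δ / (2 * B)) := mul_lt_mul_of_pos_left hφ hB0
      _ = δ / 2 := by field_simp
  calc ‖T ε u - L u‖ ≤ ‖T ε (u - e φ)‖ + ‖T ε (e φ) - L (e φ)‖ + ‖L (u - e φ)‖ := by
        rw [e1]
        exact (norm_sub_le _ _).trans (add_le_add (norm_add_le _ _) le_rfl)
    _ < δ := by
        have : B * ‖u - e φ‖ = |C| * ‖u - e φ‖ + ‖L‖ * ‖u - e φ‖ + ‖u - e φ‖ := by rw [hB]; ring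
        have := norm_nonneg (u - e φ)
        linarith

theorem dense_abs [CompleteSpace H] (e : F →ₗ[ℂ] H) (he : DenseRange e) (D : F →ₗ[ℂ] F)
    (hD : ∀ φ, (⟪e φ, e (D φ)⟫_ℂ).re = 0) (J K : ℝ → F →ₗ[ℂ] F) (C : ℝ)
    (adj : ∀ ε, 0 < ε → ε ≤ 1 → ∀ φ ψ, ⟪e (J ε φ), e ψ⟫_ℂ = ⟪e φ, e (K ε ψ)⟫_ℂ)
    (hK : ∀ ε, 0 < ε → ε ≤ 1 → ∀ φ, ‖e (K ε φ)‖ ≤ C * ‖e φ‖)
    (hC : ∀ ε, 0 < ε → ε ≤ 1 → ∀ φ, ‖e (D (J ε φ) - J ε (D φ))‖ ≤ C * ‖e φ‖)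
    (hDK : ∀ ε, 0 < ε → ε ≤ 1 → ∃ C', ∀ φ, ‖e (D (K ε φ))‖ ≤ C' * ‖e φ‖)
    (lK : ∀ φ, Tendsto (fun ε => e (K ε φ)) (𝓝[>] (0 : ℝ)) (𝓝 (e φ)))
    (lC : ∀ φ, Tendsto (fun ε => e (D (J ε φ) - J ε (D φ))) (𝓝[>] (0 : ℝ)) (𝓝 0))
    {r : ℝ} (hr : r ≠ 0) {w : H} (hw : ∀ φ, ⟪w, e ((r : ℂ) • φ + D φ)⟫_ℂ = 0) : w = 0 := by
  -- the extended operators
  set K' : ℝ → H →L[ℂ] H := fun ε => (e ∘ₗ K ε).extendOfNorm e with hK'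
  set DK' : ℝ → H →L[ℂ] H := fun ε => (e ∘ₗ D ∘ₗ K ε).extendOfNorm e with hDK'
  set CM' : ℝ → H →L[ℂ] H := fun ε => (e ∘ₗ (D ∘ₗ J ε - J ε ∘ₗ D)).extendOfNorm e with hCM'
  have kK : ∀ ε, 0 < ε → ε ≤ 1 → ∀ φ, K' ε (e φ) = e (K ε φ) := fun ε h0 h1 φ =>
    LinearMap.extendOfNorm_eq he ⟨C, hK ε h0 h1⟩ φ
  have kDK : ∀ ε, 0 < ε → ε ≤ 1 → ∀ φ, DK' ε (e φ) = e (D (K ε φ)) := fun ε h0 h1 φ =>
    LinearMap.extendOfNorm_eq he (hDK ε h0 h1) φ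
  have kCM : ∀ ε, 0 < ε → ε ≤ 1 → ∀ φ, CM' ε (e φ) = e (D (J ε φ) - J ε (D φ)) := fun ε h0 h1 φ =>
    LinearMap.extendOfNorm_eq he ⟨C, hC ε h0 h1⟩ φ
  have nK : ∀ ε, 0 < ε → ε ≤ 1 → ∀ u, ‖K' ε u‖ ≤ C * ‖u‖ := fun ε h0 h1 u =>
    LinearMap.norm_extendOfNorm_apply_le he C (hK ε h0 h1) u
  have nCM : ∀ ε, 0 < ε → ε ≤ 1 → ∀ u, ‖CM' ε u‖ ≤ C * ‖u‖ := fun ε h0 h1 u =>
    LinearMap.norm_extendOfNorm_apply_le he C (hC ε h0 h1) u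
  have hev : ∀ᶠ ε in 𝓝[>] (0 : ℝ), 0 < ε ∧ ε ≤ 1 := by
    filter_upwards [Ioc_mem_nhdsGT (show (0 : ℝ) < 1 by norm_num)] with ε hε
    exact hε
  have tK : ∀ u, Tendsto (fun ε => K' ε u) (𝓝[>] (0 : ℝ)) (𝓝 u) := fun u => by
    refine tendsto_dense (C := C) he K' (ContinuousLinearMap.id ℂ H) nK (fun φ => ?_) u
    refine (lK φ).congr' ?_
    filter_upwards [hev] with ε hε
    exact (kK ε hε.1 hε.2 φ).symm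
  have tCM : ∀ u, Tendsto (fun ε => CM' ε u) (𝓝[>] (0 : ℝ)) (𝓝 0) := fun u => by
    refine tendsto_dense (C := C) he CM' 0 nCM (fun φ => ?_) u
    refine (lC φ).congr' ?_
    filter_upwards [hev] with ε hε
    exact (kCM ε hε.1 hε.2 φ).symm
  -- the adjoint relation
  have a1 : ∀ ε, 0 < ε → ε ≤ 1 → ∀ u φ, ⟪u, e (J ε φ)⟫_ℂ = ⟪K' ε u, e φ⟫_ℂ := by
    intro ε h0 h1 u φ
    refine he.induction_on (p := fun u => ⟪u, e (J ε φ)⟫_ℂ = ⟪K' ε u, e φ⟫_ℂ) u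
      (isClosed_eq (by fun_prop) (by fun_prop)) fun ψ => ?_
    rw [kK ε h0 h1, ← inner_conj_symm, adj ε h0 h1, inner_conj_symm]
  have a2 : ∀ ε, 0 < ε → ε ≤ 1 → ∀ u, (r : ℂ) * ⟪K' ε w, K' ε u⟫_ℂ + ⟪K' ε w, DK' ε u⟫_ℂ +
      ⟪w, CM' ε (K' ε u)⟫_ℂ = 0 := by
    intro ε h0 h1 u
    refine he.induction_on (p := fun u => (r : ℂ) * ⟪K' ε w, K' ε u⟫_ℂ + ⟪K' ε w, DK' ε u⟫_ℂ +
      ⟪w, CM' ε (K' ε u)⟫_ℂ = 0) u (isClosed_eq (by fun_prop) (by fun_prop)) fun ψ => ?_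
    rw [kK ε h0 h1, kDK ε h0 h1, kCM ε h0 h1, ← a1 ε h0 h1, ← a1 ε h0 h1]
    have := hw (J ε (K ε ψ))
    rw [map_add, map_smul, inner_add_right, inner_smul_right] at this
    rw [map_sub, inner_sub_right]
    linear_combination this
  have a3 : ∀ ε, 0 < ε → ε ≤ 1 → ∀ u, (⟪K' ε u, DK' ε u⟫_ℂ).re = 0 := by
    intro ε h0 h1 u
    refine he.induction_on (p := fun u => (⟪K' ε u, DK' ε u⟫_ℂ).re = 0) u
      (isClosed_eq (Complex.continuous_re.comp (by fun_prop)) continuous_const) fun ψ => ?_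
    rw [kK ε h0 h1, kDK ε h0 h1]
    exact hD _
  have a4 : ∀ ε, 0 < ε → ε ≤ 1 → |r| * ‖K' ε w‖ ^ 2 ≤ ‖w‖ * ‖CM' ε (K' ε w)‖ := by
    intro ε h0 h1
    have b1 := congrArg Complex.re (a2 ε h0 h1 w)
    rw [Complex.add_re, Complex.add_re, a3 ε h0 h1, Complex.re_ofReal_mul, Complex.zero_re,
      add_zero] at b1
    have b2 : (⟪K' ε w, K' ε w⟫_ℂ).re = ‖K' ε w‖ ^ 2 := inner_self_eq_norm_sq (𝕜 := ℂ) _
    rw [b2] at b1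
    have b3 : |(⟪w, CM' ε (K' ε w)⟫_ℂ).re| ≤ ‖w‖ * ‖CM' ε (K' ε w)‖ :=
      (Complex.abs_re_le_norm _).trans (norm_inner_le_norm _ _)
    have b4 : r * ‖K' ε w‖ ^ 2 = -(⟪w, CM' ε (K' ε w)⟫_ℂ).re := by linarith
    calc |r| * ‖K' ε w‖ ^ 2 = |r * ‖K' ε w‖ ^ 2| := by
          rw [abs_mul, abs_of_nonneg (sq_nonneg ‖K' ε w‖)]
      _ ≤ _ := by rw [b4, abs_neg]; exact b3
  -- the limit
  have l1 : Tendsto (fun ε => CM' ε (K' ε w)) (𝓝[>] (0 : ℝ)) (𝓝 0) := by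
    have c1 : Tendsto (fun ε => CM' ε (K' ε w - w)) (𝓝[>] (0 : ℝ)) (𝓝 0) := by
      refine squeeze_zero_norm' (a := fun ε => C * ‖K' ε w - w‖) ?_ ?_
      · filter_upwards [hev] with ε hε
        exact nCM ε hε.1 hε.2 _
      · have := ((tK w).sub_const w).norm.const_mul C
        rwa [sub_self, norm_zero, mul_zero] at this
    have c2 := c1.add (tCM w)
    rw [add_zero] at c2
    refine c2.congr fun ε => ?_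
    rw [← map_add, sub_add_cancel]
  have l2 : Tendsto (fun ε => |r| * ‖K' ε w‖ ^ 2) (𝓝[>] (0 : ℝ)) (𝓝 (|r| * ‖w‖ ^ 2)) :=
    (((tK w).norm).pow 2).const_mul _
  have l3 : Tendsto (fun ε => ‖w‖ * ‖CM' ε (K' ε w)‖) (𝓝[>] (0 : ℝ)) (𝓝 (‖w‖ * ‖(0 : H)‖)) :=
    l1.norm.const_mul _
  have l4 : |r| * ‖w‖ ^ 2 ≤ ‖w‖ * ‖(0 : H)‖ := by
    refine le_of_tendsto_of_tendsto l2 l3 ?_
    filter_upwards [hev] with ε hε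
    exact a4 ε hε.1 hε.2
  rw [norm_zero, mul_zero] at l4
  have l5 : 0 < |r| := abs_pos.2 hr
  have l6 : ‖w‖ ^ 2 ≤ 0 := by
    by_contra h
    nlinarith [not_le.1 h]
  have l7 : ‖w‖ = 0 := by
    have := sq_nonneg ‖w‖
    nlinarith
  exact norm_eq_zero.1 l7

end Vale.Agent.P223.H191
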