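import Vale.Agent.P223.H191.Moll

/-! The commutator of a mollifier and a first order operator. -/

namespace Vale.Agent.P223.H191

open scoped ContDiff ENNReal Convolution
open MeasureTheory Vale.Agent.P223.H

variable {n : ℕ} {V : Type} [NormedAddCommGroup V] [NormedSpace ℂ V] [CompleteSpace V]

/-- application of operators -/
noncomputable def Bop (V : Type) [NormedAddCommGroup V] [NormedSpace ℂ V] :
    (V →L[ℂ] V) →L[ℝ] V →L[ℝ] V := ContinuousLinearMap.restrictScalarsL ℂ V V ℝ ℝ

omit [CompleteSpace V] in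
theorem Bop_apply (A : V →L[ℂ] V) (v : V) : Bop V A v = A v := rfl

/-- the commutator, before integration by parts -/
theorem comm_eq {ε : ℝ} (hε : 0 < ε) {a : E n → V →L[ℂ] V} (ha : ContDiff ℝ ∞ a) {w : E n → V}
    (hw : ContDiff ℝ ∞ w) (x v : E n) :
    a x (mol ε (fun y => fderiv ℝ w y v) x) - mol ε (fun y => a y (fderiv ℝ w y v)) x =
      ∫ z : E n, ε⁻¹ • (fderiv ℝ (fun z => rho z • (a x - a (x - ε • z))) z v)
        (w (x - ε • z)) := by
  have hsh : ContDiff ℝ ∞ fun z : E n => x - ε • z := by fun_prop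
  have hA : ContDiff ℝ ∞ fun z : E n => rho z • (a x - a (x - ε • z)) :=
    rho_smooth.smul (contDiff_const.sub (ha.comp hsh))
  have hU : ContDiff ℝ ∞ fun z : E n => w (x - ε • z) := hw.comp hsh
  have hAc : HasCompactSupport fun z : E n => rho z • (a x - a (x - ε • z)) :=
    rho_supp.smul_right
  have hdw : Continuous fun y => fderiv ℝ w y v := (hw.continuous_fderiv (by simp)).clm_apply
    continuous_const
  have hdU : ∀ z : E n, fderiv ℝ (fun z : E n => w (x - ε • z)) z v =
      -(ε • fderiv ℝ w (x - ε • z) v) := by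
    intro z
    have h1 : HasFDerivAt (fun z : E n => x - ε • z) (-(ε • ContinuousLinearMap.id ℝ (E n))) z := by
      have := ((hasFDerivAt_id (𝕜 := ℝ) z).const_smul ε).const_sub x
      exact this
    have h2 := ((hw.differentiable (by simp)) (x - ε • z)).hasFDerivAt.comp z h1
    rw [show (fun z : E n => w (x - ε • z)) = w ∘ fun z => x - ε • z from rfl, h2.fderiv]
    simp
  have hcont1 : Continuous fun z : E n => (rho z • (a x - a (x - ε • z)))
      (fderiv ℝ (fun z : E n => w (x - ε • z)) z v) :=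
    hA.continuous.clm_apply ((hU.continuous_fderiv (by simp)).clm_apply continuous_const)
  have hcont2 : Continuous fun z : E n => (fderiv ℝ (fun z => rho z • (a x - a (x - ε • z))) z v)
      (w (x - ε • z)) :=
    ((hA.continuous_fderiv (by simp)).clm_apply continuous_const).clm_apply hU.continuous
  have hcont3 : Continuous fun z : E n => (rho z • (a x - a (x - ε • z))) (w (x - ε • z)) :=
    hA.continuous.clm_apply hU.continuous
  have hs1 : HasCompactSupport fun z : E n => (rho z • (a x - a (x - ε • z)))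
      (fderiv ℝ (fun z : E n => w (x - ε • z)) z v) :=
    hAc.mono fun z hz h => hz (by
      change (rho z • (a x - a (x - ε • z))) _ = 0
      rw [show rho z • (a x - a (x - ε • z)) = 0 from h]; rfl)
  have hs3 : HasCompactSupport fun z : E n => (rho z • (a x - a (x - ε • z))) (w (x - ε • z)) :=
    hAc.mono fun z hz h => hz (by
      change (rho z • (a x - a (x - ε • z))) _ = 0
      rw [show rho z • (a x - a (x - ε • z)) = 0 from h]; rfl)
  have hs2 : HasCompactSupport fun z : E n =>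
      (fderiv ℝ (fun z => rho z • (a x - a (x - ε • z))) z v) (w (x - ε • z)) :=
    (hAc.fderiv ℝ).mono fun z hz h => hz (by
      change (fderiv ℝ (fun z => rho z • (a x - a (x - ε • z))) z v) _ = 0
      rw [show fderiv ℝ (fun z => rho z • (a x - a (x - ε • z))) z = 0 from h]; rfl)
  have key := integral_bilinear_fderiv_right_eq_neg_left_of_integrable (B := Bop V)
    (μ := (volume : Measure (E n))) (v := v)
    (f := fun z : E n => rho z • (a x - a (x - ε • z))) (g := fun z : E n => w (x - ε • z))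
    (hcont2.integrable_of_hasCompactSupport hs2) (hcont1.integrable_of_hasCompactSupport hs1)
    (hcont3.integrable_of_hasCompactSupport hs3)
    (fun z _ => hA.differentiable (by simp) z) (fun z _ => hU.differentiable (by simp) z)
  simp only [Bop_apply] at key
  have hI1 : Integrable fun z : E n => rho z • fderiv ℝ w (x - ε • z) v := by
    refine Continuous.integrable_of_hasCompactSupport ?_ rho_supp.smul_right
    exact rho_smooth.continuous.smul (hdw.comp hsh.continuous)
  have hI2 : Integrable fun z : E n => rho z • a (x - ε • z) (fderiv ℝ w (x - ε • z) v) := by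
    refine Continuous.integrable_of_hasCompactSupport ?_ rho_supp.smul_right
    exact rho_smooth.continuous.smul ((ha.continuous.comp hsh.continuous).clm_apply
      (hdw.comp hsh.continuous))
  have e1 : a x (mol ε (fun y => fderiv ℝ w y v) x) =
      ∫ z : E n, rho z • a x (fderiv ℝ w (x - ε • z) v) := by
    rw [mol, ← ContinuousLinearMap.integral_comp_comm (a x) hI1]
    refine integral_congr_ae (Filter.Eventually.of_forall fun z => ?_)
    exact (a x).map_smul_of_tower _ _
  have hI1' : Integrable fun z : E n => rho z • a x (fderiv ℝ w (x - ε • z) v) := by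
    have := (a x).integrable_comp hI1
    refine this.congr (Filter.Eventually.of_forall fun z => ?_)
    exact (a x).map_smul_of_tower _ _
  rw [e1, mol, ← integral_sub hI1' hI2, integral_smul]
  have e2 : ∀ z : E n, rho z • a x (fderiv ℝ w (x - ε • z) v) -
      rho z • a (x - ε • z) (fderiv ℝ w (x - ε • z) v) = -(ε⁻¹ • ((rho z • (a x - a (x - ε • z)))
      (fderiv ℝ (fun z : E n => w (x - ε • z)) z v))) := by
    intro z
    rw [hdU, ← smul_sub]
    simp only [_root_.smul_apply, map_neg, smul_neg, neg_neg]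
    rw [ContinuousLinearMap.map_smul_of_tower, smul_comm ε⁻¹ (rho z), inv_smul_smul₀ hε.ne']
    rfl
  rw [integral_congr_ae (Filter.Eventually.of_forall e2), integral_neg, integral_smul, key, smul_neg,
    neg_neg]


/-- the kernel which controls the commutator -/
noncomputable def kap (z : E n) : ℝ≥0∞ := ENNReal.ofReal (‖fderiv ℝ (rho : E n → ℝ) z‖ + rho z)

theorem kap_meas : Measurable (kap : E n → ℝ≥0∞) := by
  have h1 : Continuous fun z : E n => ‖fderiv ℝ (rho : E n → ℝ) z‖ + rho z :=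
    (rho_smooth.continuous_fderiv (by simp)).norm.add rho_smooth.continuous
  exact h1.measurable.ennreal_ofReal

theorem kap_lt : ∫⁻ z : E n, kap z < ⊤ := by
  have h1 : Continuous fun z : E n => ‖fderiv ℝ (rho : E n → ℝ) z‖ + rho z :=
    (rho_smooth.continuous_fderiv (by simp)).norm.add rho_smooth.continuous
  have h2 : HasCompactSupport fun z : E n => ‖fderiv ℝ (rho : E n → ℝ) z‖ + rho z :=
    (rho_supp.fderiv ℝ).norm.add rho_supp
  exact (h1.integrable_of_hasCompactSupport h2).lintegral_lt_top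

theorem comm_pt {ε : ℝ} (hε : 0 < ε) (hε1 : ε ≤ 1) {a : E n → V →L[ℂ] V} (ha : ContDiff ℝ ∞ a)
    {w : E n → V} (hw : ContDiff ℝ ∞ w) {R Λ : ℝ} (hΛ : ∀ y, ‖y‖ ≤ R + 1 → ‖fderiv ℝ a y‖ ≤ Λ)
    {x : E n} (hx : ‖x‖ ≤ R) (v : E n) :
    ‖a x (mol ε (fun y => fderiv ℝ w y v) x) - mol ε (fun y => a y (fderiv ℝ w y v)) x‖ₑ ≤
      ∫⁻ z : E n, (ENNReal.ofReal (Λ * ‖v‖) * kap z) * ‖w (x - ε • z)‖ₑ := by
  have hΛ0 : 0 ≤ Λ := le_trans (norm_nonneg (fderiv ℝ a x)) (hΛ x (by linarith))
  rw [comm_eq hε ha hw]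
  refine (enorm_integral_le_lintegral_enorm _).trans (lintegral_mono fun z => ?_)
  rw [enorm_smul]
  have hsh : ContDiff ℝ ∞ fun z : E n => x - ε • z := by fun_prop
  have h1 : HasFDerivAt (fun z : E n => x - ε • z) (-(ε • ContinuousLinearMap.id ℝ (E n))) z := by
    have := ((hasFDerivAt_id (𝕜 := ℝ) z).const_smul ε).const_sub x
    exact this
  have h2 : HasFDerivAt (fun z : E n => a (x - ε • z))
      ((fderiv ℝ a (x - ε • z)).comp (-(ε • ContinuousLinearMap.id ℝ (E n)))) z :=
    ((ha.differentiable (by simp)) (x - ε • z)).hasFDerivAt.comp z h1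
  have h3 := (((rho_smooth (n := n)).differentiable (by simp)) z).hasFDerivAt.smul
    (h2.const_sub (a x))
  have h4 : fderiv ℝ (fun z => rho z • (a x - a (x - ε • z))) z v =
      (fderiv ℝ (rho : E n → ℝ) z v) • (a x - a (x - ε • z)) +
        rho z • (ε • fderiv ℝ a (x - ε • z) v) := by
    rw [show (fun z => rho z • (a x - a (x - ε • z))) =
      (rho : E n → ℝ) • (fun z => a x - a (x - ε • z)) from rfl, h3.fderiv]
    simp [add_comm]
  rw [h4]
  have key : ε⁻¹ * ‖(fderiv ℝ (rho : E n → ℝ) z v) • (a x - a (x - ε • z)) +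
        rho z • (ε • fderiv ℝ a (x - ε • z) v)‖ ≤
      (Λ * ‖v‖) * (‖fderiv ℝ (rho : E n → ℝ) z‖ + rho z) := by
    by_cases hz : ‖z‖ ≤ 1
    · have hb : ‖x - ε • z‖ ≤ R + 1 := by
        have : ‖x - ε • z‖ ≤ ‖x‖ + ‖ε • z‖ := norm_sub_le _ _
        rw [norm_smul, Real.norm_eq_abs, abs_of_pos hε] at this
        nlinarith [norm_nonneg z]
      have hl : ‖a x - a (x - ε • z)‖ ≤ Λ * ε := by
        have h := (convex_closedBall (0 : E n) (R + 1)).norm_image_sub_le_of_norm_fderiv_le
          (𝕜 := ℝ) (f := a) (C := Λ) (x := x - ε • z) (y := x)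
          (fun y _ => ha.differentiable (by simp) y)
          (fun y hy => hΛ y (mem_closedBall_zero_iff.1 hy)) (mem_closedBall_zero_iff.2 hb)
          (mem_closedBall_zero_iff.2 (by linarith))
        refine h.trans ?_
        rw [sub_sub_cancel, norm_smul, Real.norm_eq_abs, abs_of_pos hε]
        nlinarith [mul_nonneg hΛ0 hε.le]
      have hn1 : ‖(fderiv ℝ (rho : E n → ℝ) z v) • (a x - a (x - ε • z))‖ ≤
          (‖fderiv ℝ (rho : E n → ℝ) z‖ * ‖v‖) * (Λ * ε) := by
        rw [norm_smul]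
        exact mul_le_mul ((fderiv ℝ (rho : E n → ℝ) z).le_opNorm v) hl (norm_nonneg _)
          (by positivity)
      have hn2 : ‖rho z • (ε • fderiv ℝ a (x - ε • z) v)‖ ≤ rho z * (ε * (Λ * ‖v‖)) := by
        rw [norm_smul, norm_smul, Real.norm_eq_abs, Real.norm_eq_abs, abs_of_pos hε,
          abs_of_nonneg (rho_nonneg z)]
        refine mul_le_mul_of_nonneg_left (mul_le_mul_of_nonneg_left ?_ hε.le) (rho_nonneg z)
        exact ((fderiv ℝ a (x - ε • z)).le_opNorm v).trans
          (mul_le_mul_of_nonneg_right (hΛ _ hb) (norm_nonneg _))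
      rw [← div_eq_inv_mul, div_le_iff₀ hε]
      calc _ ≤ _ := norm_add_le _ _
        _ ≤ _ := add_le_add hn1 hn2
        _ = _ := by ring
    · have hz' : z ∉ tsupport (rho : E n → ℝ) := by
        rw [rho_tsupp, mem_closedBall_zero_iff]; exact hz
      have h5 : fderiv ℝ (rho : E n → ℝ) z = 0 := by
        by_contra h
        exact hz' (support_fderiv_subset ℝ h)
      rw [h5, rho_zero (not_le.1 hz).le]
      simp
  have hrw : ‖ε⁻¹‖ₑ * ‖((fderiv ℝ (rho : E n → ℝ) z v) • (a x - a (x - ε • z)) +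
        rho z • (ε • fderiv ℝ a (x - ε • z) v)) (w (x - ε • z))‖ₑ ≤
      ENNReal.ofReal (ε⁻¹ * ‖(fderiv ℝ (rho : E n → ℝ) z v) • (a x - a (x - ε • z)) +
        rho z • (ε • fderiv ℝ a (x - ε • z) v)‖) * ‖w (x - ε • z)‖ₑ := by
    rw [ENNReal.ofReal_mul (by positivity), ofReal_norm, mul_assoc]
    rw [← Real.enorm_of_nonneg (by positivity : (0 : ℝ) ≤ ε⁻¹)]
    gcongr
    exact ContinuousLinearMap.le_opENorm _ _
  refine hrw.trans ?_
  gcongr
  rw [kap, ← ENNReal.ofReal_mul (by positivity)]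
  exact ENNReal.ofReal_le_ofReal key

/-- `L²` bound for the commutator -/
theorem comm_L2 {ε : ℝ} (hε : 0 < ε) (hε1 : ε ≤ 1) {a : E n → V →L[ℂ] V} (ha : ContDiff ℝ ∞ a)
    {w : E n → V} (hw : ContDiff ℝ ∞ w) {R Λ : ℝ} (hΛ : ∀ y, ‖y‖ ≤ R + 1 → ‖fderiv ℝ a y‖ ≤ Λ)
    (v : E n) :
    ∫⁻ x in Metric.closedBall (0 : E n) R,
      ‖a x (mol ε (fun y => fderiv ℝ w y v) x) - mol ε (fun y => a y (fderiv ℝ w y v)) x‖ₑ ^ 2 ≤
      (ENNReal.ofReal (Λ * ‖v‖) * ∫⁻ z : E n, kap z) ^ 2 * ∫⁻ x, ‖w x‖ₑ ^ 2 := by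
  calc _ ≤ ∫⁻ x in Metric.closedBall (0 : E n) R,
        (∫⁻ z : E n, (ENNReal.ofReal (Λ * ‖v‖) * kap z) * ‖w (x - ε • z)‖ₑ) ^ 2 := by
        refine setLIntegral_mono' measurableSet_closedBall fun x hx => ?_
        gcongr
        exact comm_pt hε hε1 ha hw hΛ (mem_closedBall_zero_iff.1 hx) v
    _ ≤ ∫⁻ x : E n, (∫⁻ z : E n, (ENNReal.ofReal (Λ * ‖v‖) * kap z) * ‖w (x - ε • z)‖ₑ) ^ 2 :=
        setLIntegral_le_lintegral _ _
    _ ≤ _ := avg_sq_le _ (fun y => ‖w y‖ₑ) (kap_meas.const_mul _).aemeasurable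
        hw.continuous.enorm.measurable ε
    _ = _ := by rw [lintegral_const_mul _ kap_meas]

end Vale.Agent.P223.H191
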