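import Vale.Agent.P223.H191.MaxP
import Vale.Agent.P223.X.LapX
import Vale.Agent.P223.X.ConfX

/-! Supersolutions of the Yamabe equation with small volume, by monotone iteration. -/

namespace Vale.Agent.P223.H191

open scoped ContDiff Topology
open MeasureTheory Vale.Agent.P223.H Vale.Agent.P223.X Filter

/-! ## real inequalities -/

theorem rpow_tangent {q s t : ℝ} (hq : 1 ≤ q) (hs : 0 ≤ s) (ht : 0 < t) :
    t ^ q - s ^ q ≤ q * t ^ (q - 1) * (t - s) := by
  have h1 : 1 + q * (s / t - 1) ≤ (s / t) ^ q := by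
    have := one_add_mul_self_le_rpow_one_add (s := s / t - 1)
      (by have := div_nonneg hs ht.le; linarith) hq
    simpa using this
  have h2 : (s / t) ^ q = s ^ q / t ^ q := Real.div_rpow hs ht.le q
  have h3 : 0 < t ^ q := Real.rpow_pos_of_pos ht q
  have h4 : t ^ (q - 1) = t ^ q / t := by rw [Real.rpow_sub_one ht.ne']
  rw [h2] at h1
  have h5 := mul_le_mul_of_nonneg_right h1 h3.le
  rw [div_mul_cancel₀ _ h3.ne'] at h5
  have h6 : q * (t ^ q / t) * (t - s) = t ^ q * (q * (1 - s / t)) := by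
    field_simp
  rw [h4, h6]
  nlinarith

/-- the function `(K - S) t - t^q` is increasing on `[0, b]` -/
theorem F_mono {q K S b s t : ℝ} (hq : 1 ≤ q) (hs : 0 ≤ s) (hst : s ≤ t) (htb : t ≤ b)
    (hK : S + q * b ^ (q - 1) ≤ K) : (K - S) * s - s ^ q ≤ (K - S) * t - t ^ q := by
  rcases eq_or_lt_of_le hst with rfl | h
  · exact le_rfl
  have ht : 0 < t := lt_of_le_of_lt hs h
  have h1 := rpow_tangent hq hs ht
  have h2 : t ^ (q - 1) ≤ b ^ (q - 1) := Real.rpow_le_rpow ht.le htb (by linarith)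
  have h3 : q * t ^ (q - 1) * (t - s) ≤ (K - S) * (t - s) := by
    refine mul_le_mul_of_nonneg_right ?_ (by linarith)
    nlinarith
  linarith

variable {n : ℕ} {M X Γ I : Type} [TopologicalSpace M] [TopologicalSpace X] [Group Γ]
    [MulAction Γ X] {C : Cov n M X Γ I} {G : I → E n → Matrix (Fin n) (Fin n) ℝ}

/-- invariant functions are bounded -/
theorem exists_bd [Finite I] {u : X → ℝ} (hc : Continuous u)
    (hi : ∀ (γ : Γ) x, u (γ • x) = u x) (C : Cov n M X Γ I) : ∃ B : ℝ, 0 ≤ B ∧ ∀ x, |u x| ≤ B := by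
  rcases isEmpty_or_nonempty X with hX | hX
  · exact ⟨0, le_rfl, fun x => (hX.false x).elim⟩
  obtain ⟨x₀, h0⟩ := exists_min (u := fun x => -|u x|) hc.abs.neg (fun γ x => by
    simp only [hi]) C
  exact ⟨|u x₀|, abs_nonneg _, fun x => by have := h0 x; linarith⟩

/-- supersolutions -/
structure Sup (C : Cov n M X Γ I) (G : I → E n → Matrix (Fin n) (Fin n) ℝ) (S : X → ℝ)
    (K c q b : ℝ) (φ : X → ℝ) : Prop where
  ck : C.Ck 2 φ
  inv : ∀ (γ : Γ) x, φ (γ • x) = φ x
  pos : ∀ x, 0 < φ x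
  le : ∀ x, φ x ≤ b
  sup : ∀ x, (K - S x) * φ x - φ x ^ q ≤ K * φ x - c * lapX C G φ x

section step
variable [Finite I] [Nonempty X] (hG : MetX C G) {S : X → ℝ} (hS : C.Ck 1 S)
  (hSi : ∀ (γ : Γ) x, S (γ • x) = S x) {K c q b : ℝ} (hc : 0 < c) (hq : 1 ≤ q)
  (hK : ∀ x, |S x| + q * b ^ (q - 1) + 1 ≤ K)
  (hlin : ∀ κ : ℝ, 0 < κ → ∀ f : X → ℝ, C.Ck 1 f → (∀ (γ : Γ) x, f (γ • x) = f x) →
    ∃ u : X → ℝ, C.Ck 2 u ∧ (∀ (γ : Γ) x, u (γ • x) = u x) ∧
      ∀ x, κ * u x - lapX C G u x = f x)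

include hG hS hSi hc hq hK hlin in
theorem step {φ : X → ℝ} (h : Sup C G S K c q b φ) : ∃ u : X → ℝ, Sup C G S K c q b u ∧
    (∀ x, u x ≤ φ x) ∧ ∀ x, K * u x - c * lapX C G u x = (K - S x) * φ x - φ x ^ q := by
  obtain ⟨x₁⟩ := ‹Nonempty X›
  have hb : 0 < b := (h.pos x₁).trans_le (h.le x₁)
  have hK0 : 0 < K := by
    have := hK x₁
    have h1 := abs_nonneg (S x₁)
    have h2 : 0 ≤ q * b ^ (q - 1) := by positivity
    linarith
  set f : X → ℝ := fun x => c⁻¹ * ((K - S x) * φ x - φ x ^ q) with hf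
  have hfc : C.Ck 1 f := by
    intro γ i
    have h1 : ContDiff ℝ 1 (C.rep φ γ i) := (h.ck γ i).of_le (by norm_num)
    have h2 : ContDiff ℝ 1 (C.rep S γ i) := hS γ i
    have h3 : ContDiff ℝ 1 fun y => C.rep φ γ i y ^ q := by
      refine contDiff_iff_contDiffAt.2 fun y => ?_
      exact (h1.contDiffAt).rpow_const_of_ne (h.pos _).ne'
    exact contDiff_const.mul (((contDiff_const.sub h2).mul h1).sub h3)
  have hfi : ∀ (γ : Γ) x, f (γ • x) = f x := fun γ x => by
    simp only [hf, hSi, h.inv]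
  obtain ⟨u, u1, u2, u3⟩ := hlin (K / c) (div_pos hK0 hc) f hfc hfi
  have e : ∀ x, K * u x - c * lapX C G u x = (K - S x) * φ x - φ x ^ q := by
    intro x
    have h1 := u3 x
    simp only [hf] at h1
    field_simp at h1
    linarith
  -- comparison with `φ`
  have hdif : C.Ck 2 (fun x => φ x + (-1) * u x) := fun γ i =>
    (h.ck γ i).add (contDiff_const.mul (u1 γ i))
  have hd2 : ∀ x, lapX C G (fun x => φ x + (-1) * u x) x = lapX C G φ x - lapX C G u x := by
    intro x
    rw [H850.lapX_add hG h.ck (w := fun x => (-1) * u x)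
      (fun γ i => contDiff_const.mul (u1 γ i)), H850.lapX_mul hG (-1) u1]
    ring
  have hle : ∀ x, u x ≤ φ x := by
    intro x
    have := max_principle hG hdif (fun γ x => by rw [h.inv, u2]) (K := K / c) (δ := 0)
      (div_pos hK0 hc) (fun x => ?_) x
    · rw [zero_div] at this; linarith
    · rw [hd2]
      have h1 := h.sup x
      rw [← e x] at h1
      have h2 : 0 ≤ c⁻¹ * ((K * φ x - c * lapX C G φ x) - (K * u x - c * lapX C G u x)) :=
        mul_nonneg (inv_pos.2 hc).le (by linarith)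
      have h3 : c⁻¹ * ((K * φ x - c * lapX C G φ x) - (K * u x - c * lapX C G u x)) =
          K / c * (φ x + -1 * u x) - (lapX C G φ x - lapX C G u x) := by
        field_simp
        ring
      linarith
  -- positivity
  have hcφ : Continuous φ := Bas3.Ck_continuous C fun γ i => (h.ck γ i).of_le (by simp)
  have : Nonempty X := ⟨x₁⟩
  obtain ⟨x₀, hx₀⟩ := exists_min hcφ h.inv C
  have hpos : ∀ x, 0 < u x := by
    intro x
    have := max_principle hG u1 u2 (K := K / c) (δ := φ x₀ / c) (div_pos hK0 hc) (fun x => ?_) x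
    · exact lt_of_lt_of_le (div_pos (div_pos (h.pos x₀) hc) (div_pos hK0 hc)) this
    · rw [u3]
      simp only [hf]
      rw [div_eq_inv_mul]
      refine mul_le_mul_of_nonneg_left ?_ (inv_pos.2 hc).le
      have h1 := hx₀ x
      have h2 : φ x ^ q = φ x ^ (q - 1) * φ x := by
        rw [Real.rpow_sub_one (h.pos x).ne', div_mul_cancel₀ _ (h.pos x).ne']
      have h3 : φ x ^ (q - 1) ≤ b ^ (q - 1) := Real.rpow_le_rpow (h.pos x).le (h.le x) (by linarith)
      have h4 := hK x
      have h5 := le_abs_self (S x)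
      have h6 : b ^ (q - 1) ≤ q * b ^ (q - 1) := le_mul_of_one_le_left (by positivity) hq
      have h7 : 1 ≤ K - S x - φ x ^ (q - 1) := by linarith
      have h8 := mul_le_mul_of_nonneg_right h7 (h.pos x).le
      rw [h2]
      nlinarith
  refine ⟨u, ⟨u1, u2, hpos, fun x => (hle x).trans (h.le x), fun x => ?_⟩, hle, e⟩
  rw [e]
  refine F_mono hq (hpos x).le (hle x) (h.le x) ?_
  have := hK x
  have h5 := le_abs_self (S x)
  linarith

include hG hS hSi hc hq hK hlin in
theorem seq {φ₀ : X → ℝ} (h0 : Sup C G S K c q b φ₀) : ∃ φ : ℕ → X → ℝ, φ 0 = φ₀ ∧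
    (∀ k, Sup C G S K c q b (φ k)) ∧ (∀ k x, φ (k + 1) x ≤ φ k x) ∧
    ∀ k x, K * φ (k + 1) x - c * lapX C G (φ (k + 1)) x = (K - S x) * φ k x - φ k x ^ q := by
  choose! f f1 f2 f3 using fun (φ : X → ℝ) (h : Sup C G S K c q b φ) =>
    step hG hS hSi hc hq hK hlin h
  have hsup : ∀ k : ℕ, Sup C G S K c q b (f^[k] φ₀) := by
    intro k
    induction k with
    | zero => exact h0
    | succ k ih =>
      rw [Function.iterate_succ', Function.comp_apply]
      exact f1 _ ih
  refine ⟨fun k => f^[k] φ₀, rfl, hsup, fun k x => ?_, fun k x => ?_⟩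
  · simp only [Function.iterate_succ', Function.comp_apply]
    exact f2 _ (hsup k) x
  · simp only [Function.iterate_succ', Function.comp_apply]
    exact f3 _ (hsup k) x

end step

end Vale.Agent.P223.H191
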