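import Vale.Agent.P223.H191.Iter

/-! Supersolutions of the Yamabe equation with small volume: integrals. -/

namespace Vale.Agent.P223.H191

open scoped ContDiff Topology
open MeasureTheory Vale.Agent.P223.H Vale.Agent.P223.X Filter

variable {n : ℕ} {M X Γ I : Type} [TopologicalSpace M] [TopologicalSpace X] [Group Γ]
    [MulAction Γ X] {C : Cov n M X Γ I} {G : I → E n → Matrix (Fin n) (Fin n) ℝ}

theorem cont_lapX (hG : MetX C G) {u : X → ℝ} (hu : C.Ck 2 u) : Continuous (lapX C G u) := by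
  refine (Bas3.Ck_zero_iff C).1 fun γ i => ?_
  have : C.rep (lapX C G u) γ i = lap (G i) (C.rep u γ i) :=
    funext fun y => Vale.Agent.P223.X.lapX_eq hG hu γ i y
  rw [this]
  exact contDiff_zero.2 (GrdX.continuous_lap (hG.smooth i) (hG.pos i) (hu γ i))

/-- `u Δ u ≤ Δ (u²) / 2` -/
theorem u_lap_le (hG : MetX C G) {u : X → ℝ} (hu : C.Ck 2 u) (x : X) :
    u x * lapX C G u x ≤ 1 / 2 * lapX C G (fun x => u x ^ 2) x := by
  obtain ⟨γ, i, y, -, rfl⟩ := C.cover x
  have hu2 : C.Ck 2 fun x => u x ^ 2 := fun γ i => (hu γ i).pow 2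
  rw [Vale.Agent.P223.X.lapX_eq hG hu, Vale.Agent.P223.X.lapX_eq hG hu2]
  have h := B25c.lap_comp (G := G i) (hu γ i) (φ := fun s => s ^ 2) (φ' := fun s => 2 * s)
    (φ'' := fun _ => 2) (fun s => by simpa using hasDerivAt_pow 2 s)
    (fun s => by simpa using (hasDerivAt_id s).const_mul 2) y
  have h2 : C.rep (fun x => u x ^ 2) γ i = fun y => (C.rep u γ i y) ^ 2 := rfl
  rw [h2, h]
  have h3 := Grad.gradSq_nonneg' (hG.pos i y) (C.rep u γ i)
  have h4 : C.rep u γ i y = u (γ • C.ψ i y) := rfl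
  rw [← h4]
  linarith

section int
variable [Fintype I] [T2Space X] [ConnectedSpace X] [T2Space M] [MeasurableSpace M]
  [BorelSpace M] {ν : Measure M}

omit [T2Space X] [ConnectedSpace X] [T2Space M] in
theorem int_dn (hG : MetX C G) (hV : VolM C G ν) {h : X → ℝ} (hc : Continuous h)
    (hi : ∀ (γ : Γ) x, h (γ • x) = h x) : Integrable (C.dn h) ν := by
  have : IsFiniteMeasure ν := IntM.isFiniteMeasure hG hV
  have hcomp : CompactSpace M := IntM.compactSpace C
  have hcd := IntM.continuous_dn C hi hc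
  exact hcd.integrable_of_hasCompactSupport (HasCompactSupport.of_compactSpace _)

theorem energy (hG : MetX C G) (hV : VolM C G ν) {u : X → ℝ} (hu : C.Ck 2 u)
    (hi : ∀ (γ : Γ) x, u (γ • x) = u x) :
    ∫ m, C.dn (fun x => u x * lapX C G u x) m ∂ν ≤ 0 := by
  have hu2 : C.Ck 2 fun x => u x ^ 2 := fun γ i => (hu γ i).pow 2
  have hi2 : ∀ (γ : Γ) x, (fun x => u x ^ 2) (γ • x) = (fun x => u x ^ 2) x := fun γ x => by
    simp only [hi]
  have h0 := LapX.main PartX.main n M X Γ I C G ν hG hV _ hu2 hi2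
  have hcu : Continuous u := Bas3.Ck_continuous C fun γ i => (hu γ i).of_le (by simp)
  have h1 : ∫ m, C.dn (fun x => u x * lapX C G u x) m ∂ν ≤
      ∫ m, 1 / 2 * C.dn (lapX C G fun x => u x ^ 2) m ∂ν := by
    refine integral_mono (int_dn hG hV (hcu.mul (cont_lapX hG hu)) fun γ x => ?_)
      ((int_dn hG hV (cont_lapX hG hu2) fun γ x => LapX.lapX_inv hG hu2 hi2 γ x).const_mul _)
      fun m => u_lap_le hG hu _
    rw [hi, LapX.lapX_inv hG hu hi]
  rw [integral_const_mul, h0, mul_zero] at h1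
  exact h1

/-- the limit argument -/
theorem limit_le (hG : MetX C G) (hV : VolM C G ν) {S : X → ℝ} (hS : Continuous S)
    (hSi : ∀ (γ : Γ) x, S (γ • x) = S x) {K c q b : ℝ} (hc : 0 < c) (hq : 0 < q)
    (φ : ℕ → X → ℝ) (hφ : ∀ k, Sup C G S K c q b (φ k)) (hle : ∀ k x, φ (k + 1) x ≤ φ k x)
    (heq : ∀ k x, K * φ (k + 1) x - c * lapX C G (φ (k + 1)) x = (K - S x) * φ k x - φ k x ^ q) :
    ∃ φi : M → ℝ, (∀ m, 0 ≤ φi m) ∧ (∀ m, φi m ≤ b) ∧
      (∀ m, Tendsto (fun k => C.dn (φ k) m) atTop (𝓝 (φi m))) ∧ Measurable φi ∧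
      ∫ m, φi m ^ q * φi m ∂ν ≤ ∫ m, -C.dn S m * φi m ^ 2 ∂ν := by
  have : IsFiniteMeasure ν := IntM.isFiniteMeasure hG hV
  have hcφ : ∀ k, Continuous (φ k) := fun k =>
    Bas3.Ck_continuous C fun γ i => ((hφ k).ck γ i).of_le (by simp)
  have hcd : ∀ k, Continuous (C.dn (φ k)) := fun k => IntM.continuous_dn C (hφ k).inv (hcφ k)
  have hcS : Continuous (C.dn S) := IntM.continuous_dn C hSi hS
  have hanti : ∀ m, Antitone fun k => C.dn (φ k) m := fun m => antitone_nat_of_succ_le fun k =>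
    hle k _
  have hbdd : ∀ m, BddBelow (Set.range fun k => C.dn (φ k) m) := fun m =>
    ⟨0, by rintro _ ⟨k, rfl⟩; exact ((hφ k).pos _).le⟩
  set φi : M → ℝ := fun m => ⨅ k, C.dn (φ k) m with hφi
  have ht : ∀ m, Tendsto (fun k => C.dn (φ k) m) atTop (𝓝 (φi m)) := fun m =>
    tendsto_atTop_ciInf (hanti m) (hbdd m)
  have h0 : ∀ m, 0 ≤ φi m := fun m => ge_of_tendsto' (ht m) fun k => ((hφ k).pos _).le
  have hb : ∀ m, φi m ≤ b := fun m => le_of_tendsto' (ht m) fun k => (hφ k).le _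
  have hmeas : Measurable φi :=
    measurable_of_tendsto_metrizable (fun k => (hcd k).measurable) (tendsto_pi_nhds.2 ht)
  obtain ⟨B, hB0, hB⟩ := exists_bd hS hSi C
  have hb0 : 0 ≤ b := by
    obtain ⟨x⟩ : Nonempty X := inferInstance
    exact ((hφ 0).pos x).le.trans ((hφ 0).le x)
  have hrange : ∀ k m, 0 < C.dn (φ k) m ∧ C.dn (φ k) m ≤ b := fun k m =>
    ⟨(hφ k).pos _, (hφ k).le _⟩
  -- the energy inequality
  have hen : ∀ k, ∫ m, K * C.dn (φ (k + 1)) m ^ 2 ∂ν ≤
      ∫ m, ((K - C.dn S m) * C.dn (φ k) m - C.dn (φ k) m ^ q) * C.dn (φ (k + 1)) m ∂ν := by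
    intro k
    have e1 : ∀ m, ((K - C.dn S m) * C.dn (φ k) m - C.dn (φ k) m ^ q) * C.dn (φ (k + 1)) m =
        K * C.dn (φ (k + 1)) m ^ 2 -
          c * C.dn (fun x => φ (k + 1) x * lapX C G (φ (k + 1)) x) m := by
      intro m
      have := heq k (Function.surjInv C.surj m)
      unfold Cov.dn
      rw [← this]; ring
    simp only [e1]
    have i1 : Integrable (fun m => K * C.dn (φ (k + 1)) m ^ 2) ν := by
      have := int_dn hG hV (h := fun x => φ (k + 1) x ^ 2) ((hcφ _).pow 2)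
        (fun γ x => by rw [(hφ (k + 1)).inv])
      exact this.const_mul K
    have i2 : Integrable (fun m => c * C.dn (fun x => φ (k + 1) x * lapX C G (φ (k + 1)) x) m) ν := by
      refine (int_dn hG hV (h := fun x => φ (k + 1) x * lapX C G (φ (k + 1)) x)
        ((hcφ _).mul (cont_lapX hG (hφ (k + 1)).ck)) fun γ x => ?_).const_mul c
      rw [(hφ (k + 1)).inv, LapX.lapX_inv hG (hφ (k + 1)).ck (hφ (k + 1)).inv]
    rw [integral_sub i1 i2, integral_const_mul c]
    have := energy hG hV (hφ (k + 1)).ck (hφ (k + 1)).inv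
    nlinarith
  -- limits
  have ht1 : ∀ m, Tendsto (fun k => C.dn (φ (k + 1)) m) atTop (𝓝 (φi m)) := fun m =>
    (ht m).comp (tendsto_add_atTop_nat 1)
  have hrp : ∀ m, Tendsto (fun k => C.dn (φ k) m ^ q) atTop (𝓝 (φi m ^ q)) := fun m =>
    (ht m).rpow_const (Or.inr hq.le)
  have l1 : Tendsto (fun k => ∫ m, K * C.dn (φ (k + 1)) m ^ 2 ∂ν) atTop
      (𝓝 (∫ m, K * φi m ^ 2 ∂ν)) := by
    refine tendsto_integral_of_dominated_convergence (fun _ => |K| * b ^ 2)
      (fun k => (continuous_const.mul ((hcd _).pow 2)).aestronglyMeasurable)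
      (integrable_const _) (fun k => ae_of_all _ fun m => ?_) (ae_of_all _ fun m => ?_)
    · rw [Real.norm_eq_abs, abs_mul, abs_of_nonneg (sq_nonneg (C.dn (φ (k + 1)) m))]
      have := hrange (k + 1) m
      gcongr
      · exact this.1.le
      · exact this.2
    · exact ((ht1 m).pow 2).const_mul K
  have l2 : Tendsto (fun k => ∫ m, ((K - C.dn S m) * C.dn (φ k) m - C.dn (φ k) m ^ q) *
      C.dn (φ (k + 1)) m ∂ν) atTop
      (𝓝 (∫ m, ((K - C.dn S m) * φi m - φi m ^ q) * φi m ∂ν)) := by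
    refine tendsto_integral_of_dominated_convergence
      (fun _ => ((|K| + B) * b + b ^ q) * b) (fun k => ?_)
      (integrable_const _) (fun k => ae_of_all _ fun m => ?_) (ae_of_all _ fun m => ?_)
    · have h1 : Continuous fun m => C.dn (φ k) m ^ q :=
        (hcd k).rpow_const fun m => Or.inr hq.le
      exact ((((continuous_const.sub hcS).mul (hcd k)).sub h1).mul (hcd _)).aestronglyMeasurable
    · rw [Real.norm_eq_abs, abs_mul]
      have r0 := hrange k m
      have r1 := hrange (k + 1) m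
      rw [abs_of_pos r1.1]
      have a1 : |K - C.dn S m| ≤ |K| + B := (abs_sub _ _).trans (by
        have : |C.dn S m| ≤ B := hB _
        linarith)
      have a2 : |(K - C.dn S m) * C.dn (φ k) m - C.dn (φ k) m ^ q| ≤ (|K| + B) * b + b ^ q := by
        refine (abs_sub _ _).trans ?_
        rw [abs_mul, abs_of_pos r0.1, abs_of_pos (Real.rpow_pos_of_pos r0.1 q)]
        refine add_le_add (mul_le_mul a1 r0.2 r0.1.le (by positivity)) ?_
        exact Real.rpow_le_rpow r0.1.le r0.2 hq.le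
      exact mul_le_mul a2 r1.2 r1.1.le (by positivity)
    · exact (((ht m).const_mul _).sub (hrp m)).mul (ht1 m)
  have l3 := le_of_tendsto_of_tendsto' l1 l2 hen
  -- integrability of the limits
  have hmS : Measurable (C.dn S) := hcS.measurable
  have ib : ∀ {h : M → ℝ} (B : ℝ), Measurable h → (∀ m, |h m| ≤ B) → Integrable h ν :=
    fun {h} B hm hB => Integrable.of_bound hm.aestronglyMeasurable B (ae_of_all _ fun m => by
      rw [Real.norm_eq_abs]; exact hB m)
  have j1 : Integrable (fun m => φi m ^ q * φi m) ν := by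
    refine ib (b ^ q * b) ((hmeas.pow_const q).mul hmeas) fun m => ?_
    rw [abs_of_nonneg (mul_nonneg (Real.rpow_nonneg (h0 m) q) (h0 m))]
    exact mul_le_mul (Real.rpow_le_rpow (h0 m) (hb m) hq.le) (hb m) (h0 m)
      (Real.rpow_nonneg hb0 q)
  have j2 : Integrable (fun m => -C.dn S m * φi m ^ 2) ν := by
    refine ib (B * b ^ 2) (hmS.neg.mul (hmeas.pow_const 2)) fun m => ?_
    rw [abs_mul, abs_neg, abs_of_nonneg (sq_nonneg (φi m))]
    exact mul_le_mul (hB _) (pow_le_pow_left₀ (h0 m) (hb m) 2) (sq_nonneg _) hB0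
  have j3 : Integrable (fun m => K * φi m ^ 2) ν := by
    refine ib (|K| * b ^ 2) (measurable_const.mul (hmeas.pow_const 2)) fun m => ?_
    rw [abs_mul, abs_of_nonneg (sq_nonneg (φi m))]
    exact mul_le_mul le_rfl (pow_le_pow_left₀ (h0 m) (hb m) 2) (sq_nonneg _) (abs_nonneg _)
  refine ⟨φi, h0, hb, ht, hmeas, ?_⟩
  have e2 : ∀ m, ((K - C.dn S m) * φi m - φi m ^ q) * φi m =
      K * φi m ^ 2 + (-C.dn S m * φi m ^ 2 - φi m ^ q * φi m) := fun m => by ring
  simp only [e2] at l3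
  have j21 : Integrable (fun m => -C.dn S m * φi m ^ 2 - φi m ^ q * φi m) ν := j2.sub j1
  rw [integral_add j3 j21, integral_sub j2 j1] at l3
  linarith

end int

end Vale.Agent.P223.H191
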