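import Vale.Agent.P223.H191.Iter2
import Mathlib.Analysis.MeanInequalities

/-! Supersolutions of the Yamabe equation with small volume: conclusion. -/

namespace Vale.Agent.P223.H191

open scoped ContDiff Topology
open MeasureTheory Vale.Agent.P223.H Vale.Agent.P223.X Filter

variable {n : ℕ} {M X Γ I : Type} [TopologicalSpace M] [TopologicalSpace X] [Group Γ]
    [MulAction Γ X] {C : Cov n M X Γ I} {G : I → E n → Matrix (Fin n) (Fin n) ℝ}

/-- Young's inequality for the critical exponents -/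
theorem young_crit {N s t : ℝ} (hN : 2 < N) (ht : 0 ≤ t) :
    -s * t ^ 2 ≤ 2 / N * (max 0 (-s)) ^ (N / 2) + (N - 2) / N * t ^ (2 * N / (N - 2)) := by
  have h1 : -s * t ^ 2 ≤ max 0 (-s) * t ^ 2 :=
    mul_le_mul_of_nonneg_right (le_max_right _ _) (sq_nonneg t)
  have hN2 : 0 < N - 2 := by linarith
  have hN0 : 0 < N := by linarith
  have hc : (N / 2).HolderConjugate (N / (N - 2)) := by
    rw [Real.holderConjugate_iff]
    refine ⟨by linarith, ?_⟩
    rw [inv_div, inv_div]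
    field_simp
    ring
  have h2 := Real.young_inequality_of_nonneg (le_max_left 0 (-s)) (sq_nonneg t) hc
  have h3 : (t ^ 2) ^ (N / (N - 2)) = t ^ (2 * N / (N - 2)) := by
    rw [← Real.rpow_natCast, ← Real.rpow_mul ht]
    congr 1
    push_cast
    ring
  rw [h3] at h2
  refine h1.trans (h2.trans (le_of_eq ?_))
  field_simp

section
variable [Fintype I] [T2Space X] [ConnectedSpace X] [T2Space M] [MeasurableSpace M]
  [BorelSpace M] {ν : Measure M}

/-- supersolutions with small volume -/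
theorem iter_main (hn : 3 ≤ n) (hG : MetX C G) (hV : VolM C G ν) {S : X → ℝ} (hS : C.Ck 1 S)
    (hSi : ∀ (γ : Γ) x, S (γ • x) = S x)
    (hlin : ∀ κ : ℝ, 0 < κ → ∀ f : X → ℝ, C.Ck 1 f → (∀ (γ : Γ) x, f (γ • x) = f x) →
      ∃ u : X → ℝ, C.Ck 2 u ∧ (∀ (γ : Γ) x, u (γ • x) = u x) ∧
        ∀ x, κ * u x - lapX C G u x = f x) {ε : ℝ} (hε : 0 < ε) :
    ∃ φ : X → ℝ, C.Ck 2 φ ∧ (∀ (γ : Γ) x, φ (γ • x) = φ x) ∧ (∀ x, 0 < φ x) ∧
      (∀ x, 0 ≤ -(4 * ((n : ℝ) - 1) / (n - 2)) * lapX C G φ x + S x * φ x +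
        φ x ^ (((n : ℝ) + 2) / (n - 2))) ∧
      ∫ m, C.dn φ m ^ (2 * (n : ℝ) / (n - 2)) ∂ν ≤
        ∫ m, (max 0 (-C.dn S m)) ^ ((n : ℝ) / 2) ∂ν + ε := by
  set N : ℝ := (n : ℝ) with hNdef
  have hN : 3 ≤ N := by rw [hNdef]; exact_mod_cast hn
  set q : ℝ := (N + 2) / (N - 2) with hq
  set c : ℝ := 4 * (N - 1) / (N - 2) with hc
  have hN2 : 0 < N - 2 := by linarith
  have hc0 : 0 < c := div_pos (by linarith) hN2
  have hq1 : 1 < q := by rw [hq, lt_div_iff₀ hN2]; linarith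
  have hcS : Continuous S := Bas3.Ck_continuous C fun γ i => (hS γ i).of_le (by simp)
  obtain ⟨B, hB0, hB⟩ := exists_bd hcS hSi C
  set b : ℝ := (B + 1) ^ (1 / (q - 1)) with hb
  have hb0 : 0 < b := Real.rpow_pos_of_pos (by linarith) _
  have hbq : b ^ (q - 1) = B + 1 := by
    rw [hb, ← Real.rpow_mul (by linarith), one_div, inv_mul_cancel₀ (by linarith), Real.rpow_one]
  set K : ℝ := B + q * b ^ (q - 1) + 1 with hK
  have hK' : ∀ x, |S x| + q * b ^ (q - 1) + 1 ≤ K := fun x => by have := hB x; linarith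
  have hsup0 : Sup C G S K c q b (fun _ => b) := by
    refine ⟨fun γ i => contDiff_const, fun γ x => rfl, fun x => hb0, fun x => le_rfl, fun x => ?_⟩
    rw [H850.lapX_const hG, mul_zero, sub_zero]
    have h1 : b ^ q = (B + 1) * b := by
      rw [← hbq, Real.rpow_sub_one hb0.ne', div_mul_cancel₀ _ hb0.ne']
    rw [h1]
    have h2 := neg_abs_le (S x)
    have h3 := hB x
    nlinarith
  obtain ⟨φ, -, hφ, hle, heq⟩ := seq hG hS hSi hc0 hq1.le hK' hlin hsup0
  obtain ⟨φi, p0, pb, pt, pm, pl⟩ := limit_le hG hV hcS hSi hc0 (by linarith : 0 < q) φ hφ hle heq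
  have hfin : IsFiniteMeasure ν := IntM.isFiniteMeasure hG hV
  set p : ℝ := 2 * N / (N - 2) with hp
  have hp0 : 0 < p := div_pos (by linarith) hN2
  have hpq : p = q + 1 := by rw [hp, hq]; field_simp; ring
  have epq : ∀ m, φi m ^ q * φi m = φi m ^ p := fun m => by
    rw [hpq, Real.rpow_add_one' (p0 m) (by linarith)]
  simp only [epq] at pl
  have ib : ∀ {h : M → ℝ} (B : ℝ), Measurable h → (∀ m, |h m| ≤ B) → Integrable h ν :=
    fun {h} B hm hB => Integrable.of_bound hm.aestronglyMeasurable B (ae_of_all _ fun m => by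
      rw [Real.norm_eq_abs]; exact hB m)
  have hcdS : Continuous (C.dn S) := IntM.continuous_dn C hSi hcS
  have j1 : Integrable (fun m => φi m ^ p) ν := by
    refine ib (b ^ p) (pm.pow_const p) fun m => ?_
    rw [abs_of_nonneg (Real.rpow_nonneg (p0 m) p)]
    exact Real.rpow_le_rpow (p0 m) (pb m) hp0.le
  have j2 : Integrable (fun m => -C.dn S m * φi m ^ 2) ν := by
    refine ib (B * b ^ 2) (hcdS.measurable.neg.mul (pm.pow_const 2)) fun m => ?_
    rw [abs_mul, abs_neg, abs_of_nonneg (sq_nonneg (φi m))]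
    exact mul_le_mul (hB _) (pow_le_pow_left₀ (p0 m) (pb m) 2) (sq_nonneg _) hB0
  have j3 : Integrable (fun m => (max 0 (-C.dn S m)) ^ (N / 2)) ν := by
    refine ib (B ^ (N / 2)) ((measurable_const.max hcdS.measurable.neg).pow_const _) fun m => ?_
    rw [abs_of_nonneg (Real.rpow_nonneg (le_max_left _ _) _)]
    refine Real.rpow_le_rpow (le_max_left _ _) (max_le hB0 ?_) (by linarith)
    have h3 : |C.dn S m| ≤ B := hB _
    linarith [neg_abs_le (C.dn S m)]
  have k1 : ∫ m, -C.dn S m * φi m ^ 2 ∂ν ≤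
      ∫ m, (2 / N * (max 0 (-C.dn S m)) ^ (N / 2) + (N - 2) / N * φi m ^ p) ∂ν :=
    integral_mono j2 ((j3.const_mul _).add (j1.const_mul _)) fun m =>
      young_crit (by linarith) (p0 m)
  rw [integral_add (j3.const_mul _) (j1.const_mul _), integral_const_mul, integral_const_mul] at k1
  set A₁ := ∫ m, φi m ^ p ∂ν with hA1
  set A₂ := ∫ m, (max 0 (-C.dn S m)) ^ (N / 2) ∂ν with hA2
  have k2 : A₁ ≤ A₂ := by
    have h1 : A₁ ≤ 2 / N * A₂ + (N - 2) / N * A₁ := pl.trans k1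
    have h2 : (N - 2) / N * A₁ = A₁ - 2 / N * A₁ := by field_simp
    rw [h2] at h1
    have h3 : 2 / N * A₁ ≤ 2 / N * A₂ := by linarith
    exact le_of_mul_le_mul_left h3 (by positivity)
  have hcd : ∀ k, Continuous (C.dn (φ k)) := fun k => IntM.continuous_dn C (hφ k).inv
    (Bas3.Ck_continuous C fun γ i => ((hφ k).ck γ i).of_le (by simp))
  have l1 : Tendsto (fun k => ∫ m, C.dn (φ k) m ^ p ∂ν) atTop (𝓝 A₁) := by
    refine tendsto_integral_of_dominated_convergence (fun _ => b ^ p)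
      (fun k => ((hcd k).rpow_const fun m => Or.inr hp0.le).aestronglyMeasurable)
      (integrable_const _) (fun k => ae_of_all _ fun m => ?_) (ae_of_all _ fun m => ?_)
    · have h1 : 0 < C.dn (φ k) m := (hφ k).pos _
      rw [Real.norm_eq_abs, abs_of_pos (Real.rpow_pos_of_pos h1 p)]
      exact Real.rpow_le_rpow h1.le ((hφ k).le _) hp0.le
    · exact (pt m).rpow_const (Or.inr hp0.le)
  have l2 : ∀ᶠ k in atTop, ∫ m, C.dn (φ k) m ^ p ∂ν < A₁ + ε :=
    l1.eventually_lt_const (by linarith)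
  obtain ⟨k, hk⟩ := l2.exists
  refine ⟨φ k, (hφ k).ck, (hφ k).inv, (hφ k).pos, fun x => ?_, by linarith⟩
  have := (hφ k).sup x
  linarith

/-- strict supersolutions with small volume -/
theorem iter_strict (hn : 3 ≤ n) (hG : MetX C G) (hV : VolM C G ν) {S : X → ℝ} (hS : C.Ck 1 S)
    (hSi : ∀ (γ : Γ) x, S (γ • x) = S x)
    (hlin : ∀ κ : ℝ, 0 < κ → ∀ f : X → ℝ, C.Ck 1 f → (∀ (γ : Γ) x, f (γ • x) = f x) →
      ∃ u : X → ℝ, C.Ck 2 u ∧ (∀ (γ : Γ) x, u (γ • x) = u x) ∧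
        ∀ x, κ * u x - lapX C G u x = f x) {ε : ℝ} (hε : 0 < ε) :
    ∃ (φ : X → ℝ) (δ : ℝ), C.Ck 2 φ ∧ (∀ (γ : Γ) x, φ (γ • x) = φ x) ∧ 0 < δ ∧
      (∀ x, δ ≤ φ x) ∧
      (∀ x, δ ≤ -(4 * ((n : ℝ) - 1) / (n - 2)) * lapX C G φ x + S x * φ x +
        φ x ^ (((n : ℝ) + 2) / (n - 2))) ∧
      ∫ m, C.dn φ m ^ (2 * (n : ℝ) / (n - 2)) ∂ν ≤
        ∫ m, (max 0 (-C.dn S m)) ^ ((n : ℝ) / 2) ∂ν + ε := by
  obtain ⟨φ, h1, h2, h3, h4, h5⟩ := iter_main hn hG hV hS hSi hlin (half_pos hε)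
  set N : ℝ := (n : ℝ) with hNdef
  have hN : 3 ≤ N := by rw [hNdef]; exact_mod_cast hn
  set q : ℝ := (N + 2) / (N - 2) with hq
  set c : ℝ := 4 * (N - 1) / (N - 2) with hc
  set p : ℝ := 2 * N / (N - 2) with hp
  have hN2 : 0 < N - 2 := by linarith
  have hp0 : 0 < p := div_pos (by linarith) hN2
  have hq1 : 1 < q := by rw [hq, lt_div_iff₀ hN2]; linarith
  set A := ∫ m, (max 0 (-C.dn S m)) ^ (N / 2) ∂ν with hA
  have hA0 : 0 ≤ A := integral_nonneg fun m => Real.rpow_nonneg (le_max_left _ _) _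
  set t : ℝ := ((A + ε) / (A + ε / 2)) ^ (1 / p) with ht
  have hr : 1 < (A + ε) / (A + ε / 2) := by rw [lt_div_iff₀ (by linarith)]; linarith
  have ht1 : 1 < t := Real.one_lt_rpow hr (by positivity)
  have htp : t ^ p = (A + ε) / (A + ε / 2) := by
    rw [ht, ← Real.rpow_mul (by linarith), one_div, inv_mul_cancel₀ hp0.ne', Real.rpow_one]
  have hcφ : Continuous φ := Bas3.Ck_continuous C fun γ i => (h1 γ i).of_le (by simp)
  obtain ⟨x₀, hx₀⟩ := exists_min hcφ h2 C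
  have ht0 : 0 < t := by linarith
  have htq : t < t ^ q := by
    have := Real.rpow_lt_rpow_of_exponent_lt ht1 hq1
    rwa [Real.rpow_one] at this
  have hm := h3 x₀
  have hmq : 0 < φ x₀ ^ q := Real.rpow_pos_of_pos hm q
  refine ⟨fun x => t * φ x, min (φ x₀) ((t ^ q - t) * φ x₀ ^ q),
    fun γ i => contDiff_const.mul (h1 γ i), fun γ x => by simp only [h2],
    lt_min hm (mul_pos (by linarith) hmq), fun x => ?_, fun x => ?_, ?_⟩
  · refine (min_le_left _ _).trans ?_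
    have := hx₀ x
    nlinarith
  · refine (min_le_right _ _).trans ?_
    rw [H850.lapX_mul hG t h1, Real.mul_rpow ht0.le (h3 x).le]
    have e1 := h4 x
    have e2 : φ x₀ ^ q ≤ φ x ^ q := Real.rpow_le_rpow hm.le (hx₀ x) (by linarith)
    have e3 : (t ^ q - t) * φ x₀ ^ q ≤ (t ^ q - t) * φ x ^ q :=
      mul_le_mul_of_nonneg_left e2 (by linarith)
    have e4 : 0 ≤ t * (-c * lapX C G φ x + S x * φ x + φ x ^ q) := mul_nonneg ht0.le e1
    linarith
  · have e1 : ∀ m, C.dn (fun x => t * φ x) m ^ p = t ^ p * C.dn φ m ^ p := fun m =>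
      Real.mul_rpow ht0.le (h3 _).le
    simp only [e1]
    rw [integral_const_mul, htp]
    calc (A + ε) / (A + ε / 2) * ∫ m, C.dn φ m ^ p ∂ν
        ≤ (A + ε) / (A + ε / 2) * (A + ε / 2) :=
          mul_le_mul_of_nonneg_left h5 (by positivity)
      _ = A + ε := div_mul_cancel₀ _ (by linarith)

end

end Vale.Agent.P223.H191
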