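import Vale.Agent.P223.H191.Lift3
import Vale.Agent.P223.H191.AbsD

/-! BLOCK K1 : density of the range of `r + D`. -/

namespace Vale.Agent.P223.H191

open scoped ContDiff ENNReal InnerProductSpace Topology
open MeasureTheory Vale.Agent.P223.H Vale.Agent.P223.X Vale.Agent.P223.H566

variable {n : ℕ} {V : Type} [NormedAddCommGroup V] [InnerProductSpace ℂ V]
    {M X Γ I : Type} [TopologicalSpace M] [TopologicalSpace X] [Group Γ]
    [MulAction Γ X]
    {C : Cov n M X Γ I} {G : I → E n → Matrix (Fin n) (Fin n) ℝ} {K : Cliff n V}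
    {S : SpX C G K}

/-- smooth functions which vanish for `4 ≤ ‖y‖` -/
noncomputable def mkCS (f : E n → V) (hf : ContDiff ℝ ∞ f) (h0 : ∀ y, 4 ≤ ‖y‖ → f y = 0) :
    CS n V := ⟨f, hf, hcs_of (R := 4) h0⟩

theorem unif [Fintype I] {m : I → ℝ → (E n → V) → E n → V}
    (h : ∀ i, ∃ C : ℝ, ∀ ε : ℝ, 0 < ε → ε ≤ 1 → LocOp (m i ε) C) :
    ∃ C : ℝ, ∀ ε : ℝ, 0 < ε → ε ≤ 1 → ∀ i, LocOp (m i ε) C := by
  choose c hc using h
  refine ⟨∑ i, |c i|, fun ε h0 h1 i => (hc i ε h0 h1).mono ?_⟩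
  exact (le_abs_self _).trans (Finset.single_le_sum (f := fun i => |c i|)
    (fun j _ => abs_nonneg _) (Finset.mem_univ i))

theorem dens_smooth (hG : MetX C G) (i : I) : ContDiff ℝ ∞ (dens (G i)) :=
  IBP.contDiff_dens (EqX.metT1 (hG.smooth i) (hG.pos i))

theorem tendsto_of_bound {H : Type} [NormedAddCommGroup H] {f : ℝ → H} {a : H} {L : ℝ}
    (h : ∀ ε : ℝ, 0 < ε → ε ≤ 1 → ‖f ε - a‖ ≤ ε * L) :
    Filter.Tendsto f (𝓝[>] (0 : ℝ)) (𝓝 a) := by
  rw [tendsto_iff_norm_sub_tendsto_zero]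
  have h1 : Filter.Tendsto (fun ε : ℝ => ε * L) (𝓝[>] (0 : ℝ)) (𝓝 0) := by
    have : Filter.Tendsto (fun ε : ℝ => ε * L) (𝓝 (0 : ℝ)) (𝓝 (0 * L)) :=
      Filter.Tendsto.mul_const L Filter.tendsto_id
    rw [zero_mul] at this
    exact this.mono_left nhdsWithin_le_nhds
  refine squeeze_zero' (Filter.Eventually.of_forall fun ε => norm_nonneg _) ?_ h1
  filter_upwards [Ioc_mem_nhdsGT (show (0 : ℝ) < 1 by norm_num)] with ε hε
  exact h ε hε.1 hε.2

section pieces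
variable [T2Space X] [Finite I] {m : I → (E n → V) → E n → V} {c : ℝ}

omit [Finite I] in
theorem D_lpc {m' : I → (E n → V) → E n → V} {c' : ℝ} (hm : ∀ i, LocOp (m i) c)
    (hm' : ∀ i, LocOp (m' i) c')
    (h : ∀ i u, ContDiff ℝ ∞ u → ∀ y, m' i u y = dirF (dA S i) (dB S i) (m i u) y)
    (φ : Core S) (p : Γ × I) : S.DC (lpc hm S φ p) = lpc hm' S φ p :=
  D_lC p.1 p.2 _ _ fun y => h p.2 _ (φ.2.smooth p.1 p.2) y

theorem D_Lift {m' : I → (E n → V) → E n → V} {c' : ℝ} (hm : ∀ i, LocOp (m i) c)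
    (hm' : ∀ i, LocOp (m' i) c')
    (h : ∀ i u, ContDiff ℝ ∞ u → ∀ y, m' i u y = dirF (dA S i) (dB S i) (m i u) y)
    (φ : Core S) : S.DC (Lift hm S φ) = Lift hm' S φ := by
  rw [lift_eq hm (subset_refl _), lift_eq hm' (subset_refl _), map_sum]
  exact Finset.sum_congr rfl fun p _ => D_lpc hm hm' h φ p

theorem comm_Lift {m' : I → (E n → V) → E n → V} {c' : ℝ} (hm : ∀ i, LocOp (m i) c)
    (hm' : ∀ i, LocOp (m' i) c')
    (h : ∀ i u, ContDiff ℝ ∞ u → ∀ y, m' i u y = dirF (dA S i) (dB S i) (m i u) y -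
      m i (dirF (dA S i) (dB S i) u) y)
    (φ : Core S) : S.DC (Lift hm S φ) - Lift hm S (S.DC φ) = Lift hm' S φ := by
  classical
  have s1 : chs φ ⊆ chs φ ∪ chs (S.DC φ) := Finset.subset_union_left
  have s2 : chs (S.DC φ) ⊆ chs φ ∪ chs (S.DC φ) := Finset.subset_union_right
  rw [lift_eq hm s1, lift_eq hm s2, lift_eq hm' s1, map_sum, ← Finset.sum_sub_distrib]
  refine Finset.sum_congr rfl fun p _ => ?_
  rw [sub_eq_iff_eq_add]
  unfold lpc
  rw [← map_add]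
  refine D_lC p.1 p.2 _ _ fun y => ?_
  have e : (S.DC φ : Raw Γ I n V) p.1 p.2 =
      dirF (dA S p.2) (dB S p.2) ((φ : Raw Γ I n V) p.1 p.2) := dir_eq p.2 _
  change m' p.2 _ y + m p.2 ((S.DC φ : Raw Γ I n V) p.1 p.2) y = _
  rw [e, h p.2 _ (φ.2.smooth p.1 p.2)]
  exact sub_add_cancel _ _

end pieces

section norms
variable [MeasurableSpace X] [BorelSpace X] {μ : Measure X} (hμ : VolX C G μ)
  {H : Type} [NormedAddCommGroup H] [InnerProductSpace ℂ H] (Em : Emb S μ H)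
  (hi : ∀ φ : Core S, Integrable (hp C (φ : Raw Γ I n V) (φ : Raw Γ I n V)) μ)

include hμ hi in
theorem lift_norm [Fintype I] [T2Space X] {A B : ℝ} (hA : 0 ≤ A) (hB : 0 ≤ B)
    (hAB : ∀ i y, ‖y‖ ≤ 4 → dens (G i) y ≤ A ∧ 1 ≤ B * dens (G i) y)
    {m : I → (E n → V) → E n → V} {c : ℝ} (hc : 0 ≤ c) (hm : ∀ i, LocOp (m i) c) (φ : Core S) :
    ‖Em.e (Lift hm S φ)‖ ≤ Real.sqrt ((Fintype.card I : ℝ) ^ 2 * (A * c * B)) * ‖Em.e φ‖ := by
  have h1 := N2_lift (S := S) hμ hA hB hAB hm φ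
  rw [← norm_e Em _ (hi _), ← norm_e Em _ (hi _), ← ENNReal.ofReal_mul (by positivity),
    ENNReal.ofReal_le_ofReal_iff (by positivity)] at h1
  have h2 := Real.sqrt_le_sqrt h1
  rwa [Real.sqrt_sq (norm_nonneg _), Real.sqrt_mul (by positivity), Real.sqrt_sq (norm_nonneg _)]
    at h2

include hμ hi in
theorem piece_norm [T2Space X] {A : ℝ} (hA : 0 ≤ A) (γ : Γ) (i : I)
    (hAB : ∀ y, ‖y‖ ≤ 4 → dens (G i) y ≤ A) (b : CS n V) {T : ℝ} (hT : 0 ≤ T)
    (h0 : ∀ y, 4 ≤ ‖y‖ → (b : E n → V) y = 0) (hb : ∀ y, ‖(b : E n → V) y‖ ≤ T) :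
    ‖Em.e (S.lC γ i b)‖ ≤ T * Real.sqrt (A * (volume (Metric.ball (0 : E n) 4)).toReal) := by
  have hv : volume (Metric.ball (0 : E n) 4) ≠ ⊤ := measure_ball_lt_top.ne
  have h1 : N2 C μ (S.lC γ i b : Raw Γ I n V) ≤
      ENNReal.ofReal (T ^ 2 * (A * (volume (Metric.ball (0 : E n) 4)).toReal)) := by
    rw [N2_loc (S := S) hμ]
    calc ∫⁻ y, ‖(b : E n → V) y‖ₑ ^ 2 * ENNReal.ofReal (dens (G i) y)
        ≤ ∫⁻ y, (Metric.ball (0 : E n) 4).indicator (fun _ => ENNReal.ofReal (T ^ 2 * A)) y := by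
          refine lintegral_mono fun y => ?_
          by_cases hy : y ∈ Metric.ball (0 : E n) 4
          · rw [Set.indicator_of_mem hy]
            rw [mem_ball_zero_iff] at hy
            rw [ENNReal.ofReal_mul (by positivity), ENNReal.ofReal_pow hT]
            refine mul_le_mul' ?_ (ENNReal.ofReal_le_ofReal (hAB y hy.le))
            rw [← ofReal_norm]
            exact pow_le_pow_left' (ENNReal.ofReal_le_ofReal (hb y)) 2
          · rw [Set.indicator_of_notMem hy]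
            rw [mem_ball_zero_iff, not_lt] at hy
            simp only [h0 y hy, enorm_zero]
            norm_num
      _ = ENNReal.ofReal (T ^ 2 * A) * volume (Metric.ball (0 : E n) 4) := by
          rw [lintegral_indicator measurableSet_ball, setLIntegral_const]
      _ = _ := by
          rw [← mul_assoc, ENNReal.ofReal_mul (show 0 ≤ T ^ 2 * A by positivity),
            ENNReal.ofReal_toReal hv]
  rw [← norm_e Em _ (hi _), ENNReal.ofReal_le_ofReal_iff (by positivity)] at h1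
  have h2 := Real.sqrt_le_sqrt h1
  rwa [Real.sqrt_sq (norm_nonneg _), Real.sqrt_mul (by positivity), Real.sqrt_sq hT] at h2

include hμ hi in
theorem pieces_norm [T2Space X] {A : ℝ} (hA : 0 ≤ A)
    (hAB : ∀ i y, ‖y‖ ≤ 4 → dens (G i) y ≤ A) (s : Finset (Γ × I)) (b : Γ × I → CS n V)
    (h0 : ∀ p y, 4 ≤ ‖y‖ → (b p : E n → V) y = 0) {L : Γ × I → ℝ} {ε : ℝ}
    (hL : ∀ p y, ‖(b p : E n → V) y‖ ≤ ε * L p) :
    ‖Em.e (∑ p ∈ s, S.lC p.1 p.2 (b p))‖ ≤ ε * ∑ p ∈ s, L p *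
      Real.sqrt (A * (volume (Metric.ball (0 : E n) 4)).toReal) := by
  rw [map_sum, Finset.mul_sum]
  refine (norm_sum_le _ _).trans (Finset.sum_le_sum fun p _ => ?_)
  have := piece_norm hμ Em hi hA p.1 p.2 (hAB p.2) (b p) (T := ε * L p)
    ((norm_nonneg _).trans (hL p 0)) (h0 p) (hL p)
  rwa [mul_assoc] at this

end norms

section adj
variable [CompleteSpace V] [MeasurableSpace X] {μ : Measure X} [T2Space X]

theorem adj_piece (hl : ∀ γ i (b : CS n V) (ψ : Core S),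
      ipr C μ (S.lC γ i b : Raw Γ I n V) (ψ : Raw Γ I n V) =
        ∫ y, (dens (G i) y : ℂ) * ⟪(b : E n → V) y, (ψ : Raw Γ I n V) γ i y⟫_ℂ)
    {q : E n → ℝ} (hq : ContDiff ℝ ∞ q) (h0 : ∀ y, 2 ≤ ‖y‖ → q y = 0) {ε : ℝ} (h1 : 0 < ε)
    (h2 : ε ≤ 1) (γ : Γ) (i : I) (φ ψ : Core S) (bJ bK : CS n V)
    (hJ : ∀ y, (bJ : E n → V) y = mJ q ε ((φ : Raw Γ I n V) γ i) y)
    (hK : ∀ y, (bK : E n → V) y = mK (fun y => q y / dens (G i) y)
      (fun y => dens (G i) y * cut y) ε ((ψ : Raw Γ I n V) γ i) y) :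
    ipr C μ (S.lC γ i bJ : Raw Γ I n V) (ψ : Raw Γ I n V) =
      (starRingEnd ℂ) (ipr C μ (S.lC γ i bK : Raw Γ I n V) (φ : Raw Γ I n V)) := by
  set u := (φ : Raw Γ I n V) γ i with hu
  set w := (ψ : Raw Γ I n V) γ i with hw
  have hus : ContDiff ℝ ∞ u := φ.2.smooth γ i
  have hws : ContDiff ℝ ∞ w := ψ.2.smooth γ i
  have hds : ContDiff ℝ ∞ (dens (G i)) := dens_smooth S.met i
  set a : E n → V := fun y => q y • u y with ha
  set c : E n → V := fun y => (dens (G i) y * cut y) • w y with hc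
  have has : Continuous a := (hq.smul hus).continuous
  have hcs : Continuous c := ((hds.mul cut_smooth).smul hws).continuous
  have ha0 : ∀ y, 2 ≤ ‖y‖ → a y = 0 := fun y hy => by rw [ha]; simp only [h0 y hy, zero_smul]
  have hc0 : ∀ y, 4 ≤ ‖y‖ → c y = 0 := fun y hy => by
    rw [hc]; simp only [cut_zero hy, mul_zero, zero_smul]
  have key := mol_symm has (hcs_of ha0) hcs (hcs_of hc0) ε
  rw [hl, hl, ← integral_conj]
  have e1 : ∫ y, (dens (G i) y : ℂ) * ⟪(bJ : E n → V) y, w y⟫_ℂ = ∫ y, ⟪mol ε a y, c y⟫_ℂ := by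
    refine integral_congr_ae (Filter.Eventually.of_forall fun y => ?_)
    change (dens (G i) y : ℂ) * ⟪(bJ : E n → V) y, w y⟫_ℂ = ⟪mol ε a y, c y⟫_ℂ
    rw [hJ]
    change (dens (G i) y : ℂ) * ⟪mol ε a y, w y⟫_ℂ =
      ⟪mol ε a y, ((dens (G i) y * cut y : ℝ) : ℂ) • w y⟫_ℂ
    rcases le_or_gt ‖y‖ 3 with hy | hy
    · rw [cut_one hy, mul_one, inner_smul_right]
    · have : mol ε a y = 0 := mol_zero h1 ha0 (by linarith)
      rw [this, inner_zero_left, inner_zero_left, mul_zero]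
  rw [e1, key]
  refine integral_congr_ae (Filter.Eventually.of_forall fun y => ?_)
  change ⟪a y, mol ε c y⟫_ℂ =
    (starRingEnd ℂ) ((dens (G i) y : ℂ) * ⟪(bK : E n → V) y, u y⟫_ℂ)
  rw [hK, map_mul, Complex.conj_ofReal, inner_conj_symm]
  change ⟪(q y : ℂ) • u y, mol ε c y⟫_ℂ =
    (dens (G i) y : ℂ) * ⟪u y, ((q y / dens (G i) y : ℝ) : ℂ) • mol ε c y⟫_ℂ
  have hd : (dens (G i) y : ℂ) ≠ 0 := by
    exact_mod_cast (Int.dens_pos S.met i y).ne'
  rw [inner_smul_left, inner_smul_right, Complex.conj_ofReal]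
  push_cast
  field_simp

end adj

section main
variable [CompleteSpace V] [MeasurableSpace X] [BorelSpace X] [T2Space X] [Fintype I]
  {μ : Measure X} (hμ : VolX C G μ) {H : Type} [NormedAddCommGroup H] [InnerProductSpace ℂ H]
  [CompleteSpace H] (Em : Emb S μ H)

include hμ in
theorem dense_core (hi : ∀ φ : Core S, Integrable (hp C (φ : Raw Γ I n V) (φ : Raw Γ I n V)) μ)
    (hsk : ∀ φ ψ : Core S, ipr C μ (S.DC φ : Raw Γ I n V) (ψ : Raw Γ I n V) =
      -ipr C μ (φ : Raw Γ I n V) (S.DC ψ : Raw Γ I n V))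
    (hl : ∀ γ i (b : CS n V) (ψ : Core S),
      ipr C μ (S.lC γ i b : Raw Γ I n V) (ψ : Raw Γ I n V) =
        ∫ y, (dens (G i) y : ℂ) * ⟪(b : E n → V) y, (ψ : Raw Γ I n V) γ i y⟫_ℂ)
    {r : ℝ} (hr : r ≠ 0) {w : H} (hw : ∀ φ : Core S, ⟪w, Em.e ((r : ℂ) • φ + S.DC φ)⟫_ℂ = 0) :
    w = 0 := by
  classical
  obtain ⟨χ, hχ⟩ := PartX.main n M X Γ I C
  obtain ⟨A, B, hA, hB, hAB⟩ := dens_bd (C := C) S.met
  -- functions
  set q : I → E n → ℝ := χ with hq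
  have hqs : ∀ i, ContDiff ℝ ∞ (q i) := hχ.smooth
  have hq0 : ∀ i y, 2 ≤ ‖y‖ → q i y = 0 := hχ.supp
  set g : I → E n → ℝ := fun i y => q i y / dens (G i) y with hg
  set h : I → E n → ℝ := fun i y => dens (G i) y * cut y with hh
  have hds : ∀ i, ContDiff ℝ ∞ (dens (G i)) := dens_smooth S.met
  have hgs : ∀ i, ContDiff ℝ ∞ (g i) := fun i =>
    (hqs i).div (hds i) fun y => (Int.dens_pos S.met i y).ne'
  have hhs : ∀ i, ContDiff ℝ ∞ (h i) := fun i => (hds i).mul cut_smooth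
  have hg0 : ∀ i y, 2 ≤ ‖y‖ → g i y = 0 := fun i y hy => by
    simp only [hg, hq0 i y hy, zero_div]
  have hh0 : ∀ i y, 4 ≤ ‖y‖ → h i y = 0 := fun i y hy => by
    simp only [hh, cut_zero hy, mul_zero]
  have hgh : ∀ i y, g i y * h i y = q i y := by
    intro i y
    simp only [hg, hh]
    have hd := (Int.dens_pos S.met i y).ne'
    rcases le_or_gt ‖y‖ 3 with hy | hy
    · rw [cut_one hy, mul_one]
      exact div_mul_cancel₀ _ hd
    · rw [hq0 i y (by linarith)]; simp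
  -- local operators
  obtain ⟨cJ, hJ⟩ := unif fun i => locJ (V := V) (hqs i) (hq0 i)
  obtain ⟨cK, hK⟩ := unif fun i => locK (V := V) (hgs i) (hhs i) (hg0 i) (hh0 i)
  obtain ⟨cC, hC⟩ := unif fun i => locC (dA_smooth (S := S) i) (dB_smooth (S := S) i) (hqs i)
    (hq0 i)
  have hD : ∀ ε : ℝ, 0 < ε → ε ≤ 1 → ∃ cD : ℝ, ∀ i,
      LocOp (mD (dA S i) (dB S i) (g i) (h i) ε) cD := by
    intro ε h0 h1
    choose c hc using fun i => locD (dA_smooth (S := S) i) (dB_smooth (S := S) i) (hgs i) (hhs i) (hg0 i)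
      (hh0 i) h0 h1
    refine ⟨∑ i, |c i|, fun i => (hc i).mono ?_⟩
    exact (le_abs_self _).trans (Finset.single_le_sum (f := fun i => |c i|)
      (fun j _ => abs_nonneg _) (Finset.mem_univ i))
  -- nonnegative constants
  have hK' : ∀ ε : ℝ, 0 < ε → ε ≤ 1 → ∀ i, LocOp (V := V) (mK (g i) (h i) ε) |cK| :=
    fun ε h0 h1 i => (hK ε h0 h1 i).mono (le_abs_self _)
  have hC' : ∀ ε : ℝ, 0 < ε → ε ≤ 1 → ∀ i, LocOp (mC (dA S i) (dB S i) (q i) ε) |cC| :=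
    fun ε h0 h1 i => (hC ε h0 h1 i).mono (le_abs_self _)
  -- global operators
  set Jm : ℝ → Core S →ₗ[ℂ] Core S := fun ε =>
    if he : 0 < ε ∧ ε ≤ 1 then Lift (hJ ε he.1 he.2) S else 0 with hJm
  set Km : ℝ → Core S →ₗ[ℂ] Core S := fun ε =>
    if he : 0 < ε ∧ ε ≤ 1 then Lift (hK' ε he.1 he.2) S else 0 with hKm
  have eJ : ∀ ε (h0 : 0 < ε) (h1 : ε ≤ 1), Jm ε = Lift (hJ ε h0 h1) S := fun ε h0 h1 =>
    dif_pos ⟨h0, h1⟩
  have eK : ∀ ε (h0 : 0 < ε) (h1 : ε ≤ 1), Km ε = Lift (hK' ε h0 h1) S := fun ε h0 h1 =>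
    dif_pos ⟨h0, h1⟩
  have eC : ∀ ε (h0 : 0 < ε) (h1 : ε ≤ 1) (φ : Core S),
      S.DC (Jm ε φ) - Jm ε (S.DC φ) = Lift (hC' ε h0 h1) S φ := fun ε h0 h1 φ => by
    rw [eJ ε h0 h1]
    exact comm_Lift _ _ (fun i u _ y => rfl) φ
  set CK : ℝ := Real.sqrt ((Fintype.card I : ℝ) ^ 2 * (A * |cK| * B)) with hCK
  set CC : ℝ := Real.sqrt ((Fintype.card I : ℝ) ^ 2 * (A * |cC| * B)) with hCC
  have hskew : ∀ φ : Core S, (⟪Em.e φ, Em.e (S.DC φ)⟫_ℂ).re = 0 := by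
    intro φ
    have e1 := hsk φ φ
    rw [← Em.ip, ← Em.ip, ← inner_conj_symm] at e1
    have e2 := congrArg Complex.re e1
    rw [Complex.conj_re, Complex.neg_re] at e2
    linarith
  refine dense_abs Em.e Em.dense S.DC hskew Jm Km (max CK CC) ?_ ?_ ?_ ?_ ?_ ?_ hr hw
  · -- adjoint
    intro ε h0 h1 φ ψ
    have s1 : chs φ ⊆ chs φ ∪ chs ψ := Finset.subset_union_left
    have s2 : chs ψ ⊆ chs φ ∪ chs ψ := Finset.subset_union_right
    rw [eJ ε h0 h1, eK ε h0 h1, ← inner_conj_symm (Em.e φ), lift_eq _ s1, lift_eq _ s2, map_sum,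
      map_sum, sum_inner, sum_inner, map_sum]
    refine Finset.sum_congr rfl fun p _ => ?_
    rw [Em.ip, Em.ip]
    exact adj_piece hl (hqs p.2) (hq0 p.2) h0 h1 p.1 p.2 φ ψ _ _ (fun y => rfl) (fun y => rfl)
  · intro ε h0 h1 φ
    rw [eK ε h0 h1]
    refine (lift_norm hμ Em hi hA.le hB.le hAB (abs_nonneg _) _ φ).trans ?_
    exact mul_le_mul_of_nonneg_right (le_max_left _ _) (norm_nonneg _)
  · intro ε h0 h1 φ
    rw [eC ε h0 h1]
    refine (lift_norm hμ Em hi hA.le hB.le hAB (abs_nonneg _) _ φ).trans ?_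
    exact mul_le_mul_of_nonneg_right (le_max_right _ _) (norm_nonneg _)
  · intro ε h0 h1
    obtain ⟨cD, hD⟩ := hD ε h0 h1
    have hD' : ∀ i, LocOp (mD (dA S i) (dB S i) (g i) (h i) ε) |cD| := fun i =>
      (hD i).mono (le_abs_self _)
    refine ⟨Real.sqrt ((Fintype.card I : ℝ) ^ 2 * (A * |cD| * B)), fun φ => ?_⟩
    rw [eK ε h0 h1, D_Lift (hK' ε h0 h1) hD' (fun i u _ y => rfl) φ]
    exact lift_norm hμ Em hi hA.le hB.le hAB (abs_nonneg _) _ φ
  · -- convergence of `K`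
    intro φ
    choose L hL using fun p : Γ × I => convK (hgs p.2) (hhs p.2) (hg0 p.2) (hh0 p.2) (hgh p.2)
      (φ.2.smooth p.1 p.2)
    set bQ : Γ × I → CS n V := fun p => mkCS (fun y => q p.2 y • (φ : Raw Γ I n V) p.1 p.2 y)
      ((hqs p.2).smul (φ.2.smooth p.1 p.2)) (fun y hy => by
        rw [hq0 p.2 y (by linarith), zero_smul]) with hbQ
    have e0 : ∑ p ∈ chs φ, S.lC p.1 p.2 (bQ p) = φ :=
      sum_chi hχ φ (subset_refl _) bQ fun p y => rfl
    refine tendsto_of_bound (L := ∑ p ∈ chs φ, L p *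
      Real.sqrt (A * (volume (Metric.ball (0 : E n) 4)).toReal)) fun ε h0 h1 => ?_
    have e1 : Em.e (Km ε φ) - Em.e φ = Em.e (∑ p ∈ chs φ, S.lC p.1 p.2
        (pc (hK' ε h0 h1 p.2) ((φ : Raw Γ I n V) p.1 p.2) (φ.2.smooth p.1 p.2) - bQ p)) := by
      rw [eK ε h0 h1, lift_eq _ (subset_refl _)]
      simp only [map_sub, Finset.sum_sub_distrib]
      rw [e0]
      rfl
    rw [e1]
    refine pieces_norm hμ Em hi hA.le (fun i y hy => (hAB i y hy).1) _ _ (fun p y hy => ?_)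
      fun p y => hL p ε h0 h1 y
    have z1 : mK (g p.2) (h p.2) ε ((φ : Raw Γ I n V) p.1 p.2) y = 0 :=
      (hK' ε h0 h1 p.2).supp _ (φ.2.smooth p.1 p.2) y hy
    have z2 : q p.2 y • (φ : Raw Γ I n V) p.1 p.2 y = 0 := by
      rw [hq0 p.2 y (by linarith), zero_smul]
    change mK (g p.2) (h p.2) ε ((φ : Raw Γ I n V) p.1 p.2) y -
      q p.2 y • (φ : Raw Γ I n V) p.1 p.2 y = 0
    rw [z1, z2, sub_zero]
  · -- convergence of the commutator
    intro φ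
    choose L hL using fun p : Γ × I => convC (dA_smooth (S := S) p.2) (dB_smooth (S := S) p.2) (hqs p.2)
      (hq0 p.2) (φ.2.smooth p.1 p.2)
    set s := chs φ ∪ chs (S.DC φ) with hs
    have s1 : chs φ ⊆ s := Finset.subset_union_left
    have s2 : chs (S.DC φ) ⊆ s := Finset.subset_union_right
    set bQ : Γ × I → CS n V := fun p => mkCS (fun y => q p.2 y • (φ : Raw Γ I n V) p.1 p.2 y)
      ((hqs p.2).smul (φ.2.smooth p.1 p.2)) (fun y hy => by
        rw [hq0 p.2 y (by linarith), zero_smul]) with hbQ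
    set bQ' : Γ × I → CS n V := fun p => mkCS
      (fun y => q p.2 y • (S.DC φ : Raw Γ I n V) p.1 p.2 y)
      ((hqs p.2).smul ((S.DC φ).2.smooth p.1 p.2)) (fun y hy => by
        rw [hq0 p.2 y (by linarith), zero_smul]) with hbQ'
    have hz : ∀ p : Γ × I, ∀ y, 4 ≤ ‖y‖ → mC0 (dA S p.2) (dB S p.2) (q p.2)
        ((φ : Raw Γ I n V) p.1 p.2) y = 0 := by
      intro p y hy
      unfold mC0
      have z3 : (fun y => q p.2 y • (φ : Raw Γ I n V) p.1 p.2 y) =ᶠ[nhds y] fun _ => 0 := by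
        filter_upwards [(isOpen_lt continuous_const continuous_norm).mem_nhds
          (show (3 : ℝ) < ‖y‖ by linarith)] with z hz
        rw [hq0 p.2 z (by linarith [show (3 : ℝ) < ‖z‖ from hz]), zero_smul]
      rw [dirF_zero z3, hq0 p.2 y (by linarith), zero_smul, sub_zero]
    set b0 : Γ × I → CS n V := fun p => mkCS (mC0 (dA S p.2) (dB S p.2) (q p.2)
      ((φ : Raw Γ I n V) p.1 p.2)) (by
        unfold mC0
        exact (contDiff_dirF (dA_smooth p.2) (dB_smooth p.2)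
          ((hqs p.2).smul (φ.2.smooth p.1 p.2))).sub ((hqs p.2).smul
            (contDiff_dirF (dA_smooth p.2) (dB_smooth p.2) (φ.2.smooth p.1 p.2)))) (hz p) with hb0
    have e0 : ∑ p ∈ s, S.lC p.1 p.2 (bQ p) = φ := sum_chi hχ φ s1 bQ fun p y => rfl
    have e0' : ∑ p ∈ s, S.lC p.1 p.2 (bQ' p) = S.DC φ := sum_chi hχ _ s2 bQ' fun p y => rfl
    have e2 : ∑ p ∈ s, S.lC p.1 p.2 (b0 p) = 0 := by
      have e3 : ∑ p ∈ s, S.lC p.1 p.2 (b0 p + bQ' p) = S.DC φ := by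
        conv_rhs => rw [← e0]
        rw [map_sum]
        refine Finset.sum_congr rfl fun p _ => (D_lC p.1 p.2 _ _ fun y => ?_).symm
        have e : (S.DC φ : Raw Γ I n V) p.1 p.2 =
            dirF (dA S p.2) (dB S p.2) ((φ : Raw Γ I n V) p.1 p.2) := dir_eq p.2 _
        change mC0 (dA S p.2) (dB S p.2) (q p.2) ((φ : Raw Γ I n V) p.1 p.2) y +
          q p.2 y • (S.DC φ : Raw Γ I n V) p.1 p.2 y = _
        rw [e]
        unfold mC0
        exact sub_add_cancel _ _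
      simp only [map_add, Finset.sum_add_distrib] at e3
      rw [e0'] at e3
      exact add_eq_right.1 e3
    refine tendsto_of_bound (L := ∑ p ∈ s, L p *
      Real.sqrt (A * (volume (Metric.ball (0 : E n) 4)).toReal)) fun ε h0 h1 => ?_
    have e1 : Em.e (S.DC (Jm ε φ) - Jm ε (S.DC φ)) - 0 = Em.e (∑ p ∈ s, S.lC p.1 p.2
        (pc (hC' ε h0 h1 p.2) ((φ : Raw Γ I n V) p.1 p.2) (φ.2.smooth p.1 p.2) - b0 p)) := by
      rw [eC ε h0 h1, lift_eq _ s1, sub_zero]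
      simp only [map_sub, Finset.sum_sub_distrib]
      rw [e2, map_zero, sub_zero]
      rfl
    rw [e1]
    refine pieces_norm hμ Em hi hA.le (fun i y hy => (hAB i y hy).1) _ _ (fun p y hy => ?_)
      fun p y => hL p ε h0 h1 y
    have z1 : mC (dA S p.2) (dB S p.2) (q p.2) ε ((φ : Raw Γ I n V) p.1 p.2) y = 0 :=
      (hC' ε h0 h1 p.2).supp _ (φ.2.smooth p.1 p.2) y hy
    change mC (dA S p.2) (dB S p.2) (q p.2) ε ((φ : Raw Γ I n V) p.1 p.2) y -
      mC0 (dA S p.2) (dB S p.2) (q p.2) ((φ : Raw Γ I n V) p.1 p.2) y = 0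
    rw [z1, hz p y hy, sub_zero]

end main

/-- BLOCK K1 -/
theorem specDense (hS : SpecIntS) : SpecDense := by
  intro n M X Γ I V H _ _ _ _ _ _ _ _ _ _ _ _ _ _ _ _ c r hr w hw
  have : CompleteSpace V := FiniteDimensional.complete ℂ V
  rcases Nat.eq_zero_or_pos n with hn | hn
  · subst hn
    have hD : ∀ φ : Core c.S, c.S.DC φ = 0 := by
      intro φ
      refine Subtype.ext ?_
      funext γ i y
      change dir c.K (c.G i) (c.S.β i) ((φ : Raw Γ I 0 V) γ i) y = 0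
      unfold dir
      exact Finset.sum_of_isEmpty _
    have h1 : ∀ φ : Core c.S, ⟪w, c.E.e φ⟫_ℂ = 0 := by
      intro φ
      have := hw φ
      rw [hD, add_zero, map_smul, inner_smul_right] at this
      exact (mul_eq_zero.1 this).resolve_left (by exact_mod_cast hr)
    have h2 : ∀ u : H, ⟪w, u⟫_ℂ = 0 := fun u =>
      c.E.dense.induction_on (p := fun u => ⟪w, u⟫_ℂ = 0) u
        (isClosed_eq (by fun_prop) continuous_const) h1
    exact inner_self_eq_zero.1 (h2 w)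
  · obtain ⟨-, h2, h3, h4, -, -⟩ := hS n M X Γ I V c.C c.G c.K c.S c.μ hn c.vol
    exact dense_core c.vol c.E (fun φ => (h2 φ φ).2.2) h3 (fun γ i b ψ => (h4 γ i b ψ).2) hr hw

end Vale.Agent.P223.H191
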