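import Vale.Agent.P223.H191.Loc2

/-! The local operators used for the mollification of spinor fields. -/

namespace Vale.Agent.P223.H191

open scoped ContDiff ENNReal Convolution
open MeasureTheory Vale.Agent.P223.H

variable {n : ℕ} {V : Type} [NormedAddCommGroup V] [NormedSpace ℂ V] [CompleteSpace V]

section ops
variable (A : Fin n → E n → V →L[ℂ] V) (B : E n → V →L[ℂ] V) (q g h : E n → ℝ)

/-- mollified cut off section -/
noncomputable def mJ (ε : ℝ) (u : E n → V) : E n → V := mol ε fun y => q y • u y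

/-- its adjoint -/
noncomputable def mK (ε : ℝ) (u : E n → V) (x : E n) : V := g x • mol ε (fun y => h y • u y) x

/-- commutator with a first order operator -/
noncomputable def mC (ε : ℝ) (u : E n → V) (x : E n) : V :=
  dirF A B (mol ε fun y => q y • u y) x - mol ε (fun y => q y • dirF A B u y) x

/-- first order operator applied to `mK` -/
noncomputable def mD (ε : ℝ) (u : E n → V) : E n → V := dirF A B (mK g h ε u)

/-- limit of the commutator -/
noncomputable def mC0 (u : E n → V) (x : E n) : V :=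
  dirF A B (fun y => q y • u y) x - q x • dirF A B u x

end ops

omit [CompleteSpace V] in
theorem mol_qadd {q : E n → ℝ} {u v : E n → V} (hq : Continuous q) (hu : Continuous u)
    (hv : Continuous v) (ε : ℝ) (x : E n) : mol ε (fun y => q y • (u y + v y)) x =
      mol ε (fun y => q y • u y) x + mol ε (fun y => q y • v y) x := by
  have h1 : Continuous fun y => q y • u y := hq.smul hu
  have h2 : Continuous fun y => q y • v y := hq.smul hv
  rw [← mol_add h1 h2]
  simp only [smul_add]

omit [NormedSpace ℂ V] [CompleteSpace V] in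
theorem meas_kt {u : E n → V} (hu : Continuous u) (R ε : ℝ) (x : E n) :
    Measurable fun z : E n => kap z * trR R u (x - ε • z) :=
  kap_meas.mul ((trR_meas hu).comp (by fun_prop))

omit [NormedSpace ℂ V] [CompleteSpace V] in
theorem int_kt {u : E n → V} (hu : Continuous u) (R ε : ℝ) (x : E n) (c : ℝ≥0∞) :
    ∫⁻ z : E n, (c * kap z) * trR R u (x - ε • z) =
      c * ∫⁻ z : E n, kap z * trR R u (x - ε • z) := by
  rw [← lintegral_const_mul _ (meas_kt hu R ε x)]
  exact lintegral_congr fun z => mul_assoc _ _ _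

omit [CompleteSpace V] in
theorem locJ {q : E n → ℝ} (hq : ContDiff ℝ ∞ q) (h0 : ∀ y, 2 ≤ ‖y‖ → q y = 0) :
    ∃ C : ℝ, ∀ ε : ℝ, 0 < ε → ε ≤ 1 → LocOp (V := V) (mJ q ε) C := by
  obtain ⟨Cq, hCq0, hCq⟩ := bdd_ball hq.continuous 2
  refine ⟨(Cq * kk n) ^ 2, fun ε hε hε1 => ⟨fun u hu => ?_, fun u hu y hy => ?_,
    fun u v hu hv y => ?_, fun c u hu y => ?_, by positivity, fun u hu => ?_⟩⟩
  · exact mol_smooth hε (hq.smul hu).continuous
  · exact mol_zero hε (R := 2) (fun y hy => by rw [h0 y hy, zero_smul]) (by linarith)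
  · exact mol_qadd hq.continuous hu.continuous hv.continuous ε y
  · unfold mJ
    rw [← mol_smul]
    congr 1
    funext z
    exact smul_comm _ _ _
  · refine dom_bound' hu.continuous hCq0 (R := 2) (by norm_num) (ε := ε) fun x => ?_
    have h := mol_le (R := 2) (f := fun y => q y • u y) (u := u) (c := Cq)
      (fun y hy => by rw [h0 y hy, zero_smul]) (fun y hy => by
        rw [norm_smul]; exact mul_le_mul_of_nonneg_right (hCq y hy) (norm_nonneg _)) hCq0 ε x
    exact h.trans (le_of_eq (int_kt hu.continuous _ _ _ _))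

theorem locC {A : Fin n → E n → V →L[ℂ] V} {B : E n → V →L[ℂ] V}
    (hA : ∀ k, ContDiff ℝ ∞ (A k)) (hB : ContDiff ℝ ∞ B) {q : E n → ℝ} (hq : ContDiff ℝ ∞ q)
    (h0 : ∀ y, 2 ≤ ‖y‖ → q y = 0) :
    ∃ C : ℝ, ∀ ε : ℝ, 0 < ε → ε ≤ 1 → LocOp (mC A B q ε) C := by
  obtain ⟨c, hc0, hc⟩ := loc_comm hA hB hq h0
  refine ⟨(c * kk n) ^ 2, fun ε hε hε1 => ⟨fun u hu => ?_, fun u hu y hy => ?_,
    fun u v hu hv y => ?_, fun c u hu y => ?_, by positivity, fun u hu => ?_⟩⟩
  · exact (contDiff_dirF hA hB (mol_smooth hε (hq.smul hu).continuous)).sub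
      (mol_smooth hε (hq.smul (contDiff_dirF hA hB hu)).continuous)
  · unfold mC
    have z1 : mol ε (fun y => q y • dirF A B u y) y = 0 :=
      mol_zero hε (R := 2) (fun y hy => by rw [h0 y hy, zero_smul]) (by linarith)
    have z2 : (mol ε fun y => q y • u y) =ᶠ[nhds y] fun _ => 0 := by
      filter_upwards [(isOpen_lt continuous_const continuous_norm).mem_nhds
        (show (3 : ℝ) < ‖y‖ by linarith)] with z hz
      exact mol_zero hε (R := 2) (fun y hy => by rw [h0 y hy, zero_smul])
        (by linarith [show (3 : ℝ) < ‖z‖ from hz])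
    rw [z1, dirF_zero z2, sub_zero]
  · unfold mC
    have e1 : (mol ε fun y => q y • (u y + v y)) =
        fun y => mol ε (fun y => q y • u y) y + mol ε (fun y => q y • v y) y := by
      funext x
      exact mol_qadd hq.continuous hu.continuous hv.continuous ε x
    have e2 : (fun y => q y • dirF A B (fun y => u y + v y) y) =
        fun y => q y • dirF A B u y + q y • dirF A B v y := by
      funext x
      rw [dirF_add hu hv, smul_add]
    have k1 : Continuous fun y => q y • dirF A B u y :=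
      (hq.smul (contDiff_dirF hA hB hu)).continuous
    have k2 : Continuous fun y => q y • dirF A B v y :=
      (hq.smul (contDiff_dirF hA hB hv)).continuous
    have s1 : ContDiff ℝ ∞ (mol ε fun y => q y • u y) := mol_smooth hε (hq.smul hu).continuous
    have s2 : ContDiff ℝ ∞ (mol ε fun y => q y • v y) := mol_smooth hε (hq.smul hv).continuous
    rw [e1, e2, dirF_add s1 s2, mol_add k1 k2]
    abel
  · unfold mC
    have e1 : (mol ε fun y => q y • (c • u y)) = fun y => c • mol ε (fun y => q y • u y) y := by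
      funext x
      rw [← mol_smul]
      congr 1
      funext z
      exact smul_comm _ _ _
    have e2 : (fun y => q y • dirF A B (fun y => c • u y) y) =
        fun y => c • (q y • dirF A B u y) := by
      funext x
      rw [dirF_smul c hu, smul_comm]
    have s1 : ContDiff ℝ ∞ (mol ε fun y => q y • u y) := mol_smooth hε (hq.smul hu).continuous
    rw [e1, e2, dirF_smul c s1, mol_smul, smul_sub]
  · exact dom_bound' hu.continuous hc0 (R := 2) (by norm_num) (ε := ε) fun x => hc ε hε hε1 u hu x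

/-- a smooth function which vanishes for `2 ≤ ‖y‖` and its derivative are bounded -/
theorem bdd_q {g : E n → ℝ} (hg : ContDiff ℝ ∞ g) (g0 : ∀ y, 2 ≤ ‖y‖ → g y = 0) :
    ∃ C : ℝ, 0 ≤ C ∧ ∀ y, |g y| ≤ C ∧ ∀ k : Fin n, |fderiv ℝ g y (Pi.single k 1)| ≤ C := by
  obtain ⟨C1, hC1, h1⟩ := bdd_ball hg.continuous 2
  have hd : Continuous (fderiv ℝ g) := hg.continuous_fderiv (by simp)
  obtain ⟨C2, hC2, h2⟩ := bdd_ball (F := E n →L[ℝ] ℝ) hd 2
  refine ⟨max C1 C2, le_max_of_le_left hC1, fun y => ⟨?_, fun k => ?_⟩⟩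
  · by_cases hy : ‖y‖ ≤ 2
    · exact (h1 y hy).trans (le_max_left _ _)
    · rw [g0 y (not_le.1 hy).le, abs_zero]
      exact le_max_of_le_left hC1
  · by_cases hy : ‖y‖ ≤ 2
    · refine le_trans ?_ ((h2 y hy).trans (le_max_right _ _))
      have := (fderiv ℝ g y).le_opNorm (Pi.single k 1)
      rwa [norm_single, mul_one] at this
    · rw [fderiv_zero_real hg g0 (not_le.1 hy).le, abs_zero]
      exact le_max_of_le_left hC1

omit [CompleteSpace V] in
theorem locK {g h : E n → ℝ} (hg : ContDiff ℝ ∞ g) (hh : ContDiff ℝ ∞ h)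
    (g0 : ∀ y, 2 ≤ ‖y‖ → g y = 0) (h0 : ∀ y, 4 ≤ ‖y‖ → h y = 0) :
    ∃ C : ℝ, ∀ ε : ℝ, 0 < ε → ε ≤ 1 → LocOp (V := V) (mK g h ε) C := by
  obtain ⟨Cg, hCg0, hCg⟩ := bdd_q hg g0
  obtain ⟨Ch, hCh0, hCh⟩ := bdd_ball hh.continuous 4
  refine ⟨((Cg * Ch) * kk n) ^ 2, fun ε hε hε1 => ⟨fun u hu => ?_, fun u hu y hy => ?_,
    fun u v hu hv y => ?_, fun c u hu y => ?_, by positivity, fun u hu => ?_⟩⟩
  · exact hg.smul (mol_smooth hε (hh.smul hu).continuous)
  · unfold mK
    rw [g0 y (by linarith), zero_smul]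
  · unfold mK
    rw [← smul_add, ← mol_qadd hh.continuous hu.continuous hv.continuous]
  · unfold mK
    rw [smul_comm c, ← mol_smul]
    congr 2
    funext z
    exact smul_comm _ _ _
  · refine dom_bound' hu.continuous (mul_nonneg hCg0 hCh0) (R := 4) le_rfl (ε := ε) fun x => ?_
    have hb := mol_le (R := 4) (f := fun y => h y • u y) (u := u) (c := Ch)
      (fun y hy => by rw [h0 y hy, zero_smul]) (fun y hy => by
        rw [norm_smul]; exact mul_le_mul_of_nonneg_right (hCh y hy) (norm_nonneg _)) hCh0 ε x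
    unfold mK
    rw [enorm_smul, ENNReal.ofReal_mul hCg0, mul_assoc]
    gcongr
    · rw [← ofReal_norm]
      exact ENNReal.ofReal_le_ofReal (hCg x).1
    · exact hb.trans (le_of_eq (int_kt hu.continuous _ _ _ _))

theorem locD {A : Fin n → E n → V →L[ℂ] V} {B : E n → V →L[ℂ] V}
    (hA : ∀ k, ContDiff ℝ ∞ (A k)) (hB : ContDiff ℝ ∞ B) {g h : E n → ℝ} (hg : ContDiff ℝ ∞ g)
    (hh : ContDiff ℝ ∞ h) (g0 : ∀ y, 2 ≤ ‖y‖ → g y = 0) (h0 : ∀ y, 4 ≤ ‖y‖ → h y = 0)
    {ε : ℝ} (hε : 0 < ε) (hε1 : ε ≤ 1) : ∃ C : ℝ, LocOp (mD A B g h ε) C := by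
  obtain ⟨CK, hK⟩ := locK (V := V) hg hh g0 h0
  have hK := hK ε hε hε1
  obtain ⟨Cg, hCg0, hCg⟩ := bdd_q hg g0
  obtain ⟨Ch, hCh0, hCh⟩ := bdd_ball hh.continuous 4
  choose CA hCA0 hCA using fun k => bdd_ball (hA k).continuous 2
  obtain ⟨CB, hCB0, hCB⟩ := bdd_ball hB.continuous 2
  have hs0 : 0 ≤ ∑ k, (Cg * (CA k * (ε⁻¹ * Ch)) + Cg * (CA k * Ch)) :=
    Finset.sum_nonneg fun k _ => by
      have := hCA0 k
      positivity
  have ht0 : 0 ≤ Cg * (CB * Ch) := by positivity
  refine ⟨((∑ k, (Cg * (CA k * (ε⁻¹ * Ch)) + Cg * (CA k * Ch)) + Cg * (CB * Ch)) * kk n) ^ 2,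
    ⟨fun u hu => ?_, fun u hu y hy => ?_,
    fun u v hu hv y => ?_, fun c u hu y => ?_, by positivity, fun u hu => ?_⟩⟩
  · exact contDiff_dirF hA hB (hK.smooth u hu)
  · refine dirF_zero ?_
    filter_upwards [(isOpen_lt continuous_const continuous_norm).mem_nhds
      (show (3 : ℝ) < ‖y‖ by linarith)] with z hz
    unfold mK
    rw [g0 z (by linarith [show (3 : ℝ) < ‖z‖ from hz]), zero_smul]
  · unfold mD
    rw [← dirF_add (hK.smooth u hu) (hK.smooth v hv)]
    congr 1
    funext z
    exact hK.add u v hu hv z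
  · unfold mD
    rw [← dirF_smul c (hK.smooth u hu)]
    congr 1
    funext z
    exact hK.smul c u hu z
  · refine dom_bound' hu.continuous (by positivity) (R := 4) le_rfl (ε := ε) fun x => ?_
    set w : E n → V := fun y => h y • u y with hw
    have hws : ContDiff ℝ ∞ w := hh.smul hu
    have hw0 : ∀ y, 4 ≤ ‖y‖ → w y = 0 := fun y hy => by rw [hw]; simp only [h0 y hy, zero_smul]
    have hwc : HasCompactSupport w := hcs_of hw0
    set J : ℝ≥0∞ := ∫⁻ z : E n, kap z * trR 4 u (x - ε • z) with hJ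
    have hwle : ∀ y, ‖w y‖ₑ ≤ ENNReal.ofReal Ch * trR 4 u y := by
      intro y
      by_cases hy : y ∈ Metric.ball (0 : E n) 4
      · unfold trR
        rw [Set.indicator_of_mem hy, hw, enorm_smul]
        rw [mem_ball_zero_iff] at hy
        gcongr
        rw [← ofReal_norm]
        exact ENNReal.ofReal_le_ofReal (hCh y hy.le)
      · rw [mem_ball_zero_iff, not_lt] at hy
        rw [hw0 y hy]; simp
    have hmeas : Measurable fun z : E n => kap z * trR 4 u (x - ε • z) :=
      meas_kt hu.continuous 4 ε x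
    have hJ1 : ∫⁻ z : E n, kap z * ‖w (x - ε • z)‖ₑ ≤ ENNReal.ofReal Ch * J := by
      rw [hJ, ← lintegral_const_mul _ hmeas]
      refine lintegral_mono fun z => ?_
      calc kap z * ‖w (x - ε • z)‖ₑ ≤ kap z * (ENNReal.ofReal Ch * trR 4 u (x - ε • z)) := by
            gcongr; exact hwle _
        _ = _ := by ring
    have hw1 : ‖mol ε w x‖ₑ ≤ ENNReal.ofReal Ch * J := by
      refine (mol_le (R := 4) (f := w) (u := u) (c := Ch) hw0 (fun y hy => by
        rw [hw, norm_smul]; exact mul_le_mul_of_nonneg_right (hCh y hy) (norm_nonneg _))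
        hCh0 ε x).trans (le_of_eq (int_kt hu.continuous _ _ _ _))
    have hw2 : ∀ k, ‖dk k (mol ε w) x‖ₑ ≤ ENNReal.ofReal (ε⁻¹ * Ch) * J := by
      intro k
      refine (dk_mol_le hε hws hwc k x).trans ?_
      rw [ENNReal.ofReal_mul (by positivity), mul_assoc]
      gcongr
    by_cases hx : ‖x‖ ≤ 2
    · have e : mD A B g h ε u x = ∑ k, (g x • A k x (dk k (mol ε w) x) +
          (fderiv ℝ g x (Pi.single k 1)) • A k x (mol ε w x)) + g x • B x (mol ε w x) := by
        unfold mD dirF mK
        congr 1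
        · refine Finset.sum_congr rfl fun k _ => ?_
          have := dk_smul hg (mol_smooth hε hws.continuous) k x
          rw [this, map_add, ContinuousLinearMap.map_smul_of_tower,
            ContinuousLinearMap.map_smul_of_tower]
        · exact ContinuousLinearMap.map_smul_of_tower _ _ _
      have hg1 : ‖g x‖ₑ ≤ ENNReal.ofReal Cg := by
        rw [← ofReal_norm]; exact ENNReal.ofReal_le_ofReal (hCg x).1
      have hg2 : ∀ k, ‖fderiv ℝ g x (Pi.single k 1)‖ₑ ≤ ENNReal.ofReal Cg := fun k => by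
        rw [← ofReal_norm]; exact ENNReal.ofReal_le_ofReal ((hCg x).2 k)
      have hA1 : ∀ k, ‖A k x‖ₑ ≤ ENNReal.ofReal (CA k) := fun k => by
        rw [← ofReal_norm]; exact ENNReal.ofReal_le_ofReal (hCA k x hx)
      have hB1 : ‖B x‖ₑ ≤ ENNReal.ofReal CB := by
        rw [← ofReal_norm]; exact ENNReal.ofReal_le_ofReal (hCB x hx)
      rw [e, ENNReal.ofReal_add hs0 ht0, add_mul, ENNReal.ofReal_sum_of_nonneg (fun k _ => by
        have := hCA0 k
        positivity), Finset.sum_mul]
      refine (enorm_add_le _ _).trans (add_le_add ?_ ?_)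
      · refine (enorm_sum_le _ _).trans (Finset.sum_le_sum fun k _ => ?_)
        have hk := hCA0 k
        rw [ENNReal.ofReal_add (by positivity) (by positivity), add_mul]
        refine (enorm_add_le _ _).trans (add_le_add ?_ ?_)
        · rw [enorm_smul, ENNReal.ofReal_mul hCg0, ENNReal.ofReal_mul hk, mul_assoc, mul_assoc]
          gcongr
          refine (ContinuousLinearMap.le_opENorm _ _).trans ?_
          gcongr
          · exact hA1 k
          · exact hw2 k
        · rw [enorm_smul, ENNReal.ofReal_mul hCg0, ENNReal.ofReal_mul hk, mul_assoc, mul_assoc]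
          gcongr
          · exact hg2 k
          refine (ContinuousLinearMap.le_opENorm _ _).trans ?_
          gcongr
          exact hA1 k
      · rw [enorm_smul, ENNReal.ofReal_mul hCg0, ENNReal.ofReal_mul hCB0, mul_assoc, mul_assoc]
        gcongr
        refine (ContinuousLinearMap.le_opENorm _ _).trans ?_
        gcongr
    · have : mD A B g h ε u x = 0 := by
        refine dirF_zero ?_
        filter_upwards [(isOpen_lt continuous_const continuous_norm).mem_nhds (not_le.1 hx)] with z hz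
        unfold mK
        rw [g0 z (le_of_lt hz), zero_smul]
      rw [this, enorm_zero]
      exact zero_le

end Vale.Agent.P223.H191
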