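import Vale.Agent.P223.H566.Glob
import Vale.Agent.P223.X.Vol
import Vale.Agent.P223.H191.Loc3
import Mathlib.Algebra.Order.Chebyshev

/-! Sums of local pieces of spinor fields: norm estimates. -/

namespace Vale.Agent.P223.H191

open scoped ContDiff ENNReal InnerProductSpace Topology
open MeasureTheory Vale.Agent.P223.H Vale.Agent.P223.X Vale.Agent.P223.H566

variable {n : ℕ} {M X Γ I : Type} [TopologicalSpace M] [TopologicalSpace X] [Group Γ]
    [MulAction Γ X] {V : Type} [NormedAddCommGroup V] [InnerProductSpace ℂ V]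
    {C : Cov n M X Γ I} {G : I → E n → Matrix (Fin n) (Fin n) ℝ} {K : Cliff n V}
    {S : SpX C G K}

section basic

theorem norm_compat {φ : Raw Γ I n V} (h : IsCore S φ) {γ γ' : Γ} {i j : I} {y y' : E n}
    (hy : γ • C.ψ i y = γ' • C.ψ j y') : ‖φ γ i y‖ = ‖φ γ' j y'‖ := by
  obtain ⟨hd, _⟩ := chart_eq C hy
  rw [h.compat γ γ' i j y y' hy]
  have h1 := S.unit γ i γ' j y hd (φ γ i y) (φ γ i y)
  rw [inner_self_eq_norm_sq_to_K, inner_self_eq_norm_sq_to_K] at h1
  have h2 : ‖S.T γ i γ' j y (φ γ i y)‖ ^ 2 = ‖φ γ i y‖ ^ 2 := by exact_mod_cast h1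
  exact ((sq_eq_sq₀ (norm_nonneg _) (norm_nonneg _)).1 h2).symm

theorem nm_chart {φ : Raw Γ I n V} (h : IsCore S φ) (γ : Γ) (i : I) (y : E n) :
    nm C φ (γ • C.ψ i y) = ‖φ γ i y‖ :=
  norm_compat h (C.cover (γ • C.ψ i y)).choose_spec.choose_spec.choose_spec.2

theorem nm_cont {φ : Raw Γ I n V} (h : IsCore S φ) : Continuous (nm C φ) := by
  refine (Bas3.Ck_zero_iff C).1 fun γ i => contDiff_zero.2 ?_
  have : C.rep (nm C φ) γ i = fun y => ‖φ γ i y‖ := funext fun y => nm_chart h γ i y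
  rw [this]
  exact (h.smooth γ i).continuous.norm

/-- a point is in at most one chart with a given index `i` -/
theorem chart_inj {p p' : Γ × I} (h : p.2 = p'.2) {x : X}
    (h1 : x ∈ Set.range fun y => p.1 • C.ψ p.2 y) (h2 : x ∈ Set.range fun y => p'.1 • C.ψ p'.2 y) :
    p = p' := by
  obtain ⟨y, hy⟩ := h1
  obtain ⟨y', hy'⟩ := h2
  obtain ⟨γ, i⟩ := p
  obtain ⟨γ', i'⟩ := p'
  simp only at h hy hy'
  subst h
  have e : (γ'⁻¹ * γ) • C.ψ i y = C.ψ i y' := by
    rw [mul_smul, hy, ← hy', inv_smul_smul]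
  have := C.inj i _ _ _ e
  rw [inv_mul_eq_one] at this
  rw [this]

theorem card_le [Fintype I] (s : Finset (Γ × I)) (P : Γ × I → Prop) [DecidablePred P] {x : X}
    (hP : ∀ p ∈ s, P p → x ∈ Set.range fun y => p.1 • C.ψ p.2 y) :
    (s.filter P).card ≤ Fintype.card I := by
  refine Finset.card_le_card_of_injOn (fun p => p.2) (fun _ _ => Finset.mem_univ _) ?_
  intro p hp p' hp' h
  rw [Finset.mem_coe, Finset.mem_filter] at hp hp'
  exact chart_inj h (hP p hp.1 hp.2) (hP p' hp'.1 hp'.2)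

end basic

section meas
variable [MeasurableSpace X]

/-- the square of the `L²` norm -/
noncomputable def N2 (C : Cov n M X Γ I) (μ : Measure X) (φ : Raw Γ I n V) : ℝ≥0∞ :=
  ∫⁻ x, ENNReal.ofReal (nm C φ x) ^ 2 ∂μ

variable [BorelSpace X] {μ : Measure X} (hμ : VolX C G μ)

include S hμ in
theorem int_chart (γ : Γ) (i : I) {B : Set (E n)} (hB : MeasurableSet B) (F : X → ℝ≥0∞) :
    ∫⁻ x in (fun y => γ • C.ψ i y) '' B, F x ∂μ =
      ∫⁻ y in B, F (γ • C.ψ i y) * ENNReal.ofReal (dens (G i) y) :=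
  Vol.cvX S.met hμ γ i hB F

include S hμ in
theorem int_range (γ : Γ) (i : I) (F : X → ℝ≥0∞)
    (hF : ∀ x, x ∉ Set.range (fun y => γ • C.ψ i y) → F x = 0) :
    ∫⁻ x, F x ∂μ = ∫⁻ y, F (γ • C.ψ i y) * ENNReal.ofReal (dens (G i) y) := by
  have h := int_chart (S := S) hμ γ i MeasurableSet.univ F
  rw [Set.image_univ, setLIntegral_univ] at h
  rw [← h, ← lintegral_indicator (Int.measurableEmbedding_chart C γ i).measurableSet_range]
  refine lintegral_congr fun x => ?_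
  by_cases hx : x ∈ Set.range (fun y => γ • C.ψ i y)
  · rw [Set.indicator_of_mem hx]
  · rw [Set.indicator_of_notMem hx, hF x hx]

include hμ in
theorem N2_loc [T2Space X] (γ : Γ) (i : I) (b : CS n V) :
    N2 C μ (S.lC γ i b : Raw Γ I n V) =
      ∫⁻ y, ‖(b : E n → V) y‖ₑ ^ 2 * ENNReal.ofReal (dens (G i) y) := by
  unfold N2
  rw [int_range (S := S) hμ γ i]
  · refine lintegral_congr fun y => ?_
    rw [nm_chart (S.lC γ i b).2, ofReal_norm]
    congr 3
    exact S.loc_self γ i y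
  · intro x hx
    have : nm C (S.lC γ i b : Raw Γ I n V) x = 0 := by
      unfold nm
      rw [norm_eq_zero]
      refine S.loc_zero fun z _ h => hx ⟨z, ?_⟩
      exact h.symm.trans (C.cover x).choose_spec.choose_spec.choose_spec.2
    rw [this]; simp

include hμ in
theorem ball_sum [Fintype I] {φ : Raw Γ I n V} (h : IsCore S φ) (s : Finset (Γ × I)) (R : ℝ) :
    ∑ p ∈ s, ∫⁻ y in Metric.ball (0 : E n) R, ‖φ p.1 p.2 y‖ₑ ^ 2 *
      ENNReal.ofReal (dens (G p.2) y) ≤ Fintype.card I * N2 C μ φ := by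
  classical
  have h1 : ∀ p : Γ × I, ∫⁻ y in Metric.ball (0 : E n) R, ‖φ p.1 p.2 y‖ₑ ^ 2 *
      ENNReal.ofReal (dens (G p.2) y) = ∫⁻ x, ((fun y => p.1 • C.ψ p.2 y) ''
        Metric.ball (0 : E n) R).indicator (fun x => ENNReal.ofReal (nm C φ x) ^ 2) x ∂μ := by
    intro p
    rw [lintegral_indicator ((Int.measurableEmbedding_chart C p.1 p.2).measurableSet_image.2
      measurableSet_ball), int_chart (S := S) hμ p.1 p.2 measurableSet_ball]
    refine lintegral_congr fun y => ?_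
    rw [nm_chart h, ofReal_norm]
  have hm : Measurable fun x => ENNReal.ofReal (nm C φ x) ^ 2 :=
    ((nm_cont h).measurable.ennreal_ofReal).pow_const 2
  simp only [h1]
  rw [← lintegral_finsetSum]
  swap
  · intro p _
    exact hm.indicator ((Int.measurableEmbedding_chart C p.1 p.2).measurableSet_image.2
      measurableSet_ball)
  rw [N2, ← lintegral_const_mul _ hm]
  refine lintegral_mono fun x => ?_
  rw [← Finset.sum_filter_add_sum_filter_not s (fun p => x ∈ (fun y => p.1 • C.ψ p.2 y) ''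
    Metric.ball (0 : E n) R)]
  have e1 : ∑ p ∈ s.filter (fun p => ¬ x ∈ (fun y => p.1 • C.ψ p.2 y) ''
      Metric.ball (0 : E n) R), ((fun y => p.1 • C.ψ p.2 y) ''
        Metric.ball (0 : E n) R).indicator (fun x => ENNReal.ofReal (nm C φ x) ^ 2) x = 0 :=
    Finset.sum_eq_zero fun p hp => Set.indicator_of_notMem (Finset.mem_filter.1 hp).2 _
  have e2 : ∀ p ∈ s.filter (fun p => x ∈ (fun y => p.1 • C.ψ p.2 y) ''
      Metric.ball (0 : E n) R), ((fun y => p.1 • C.ψ p.2 y) ''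
        Metric.ball (0 : E n) R).indicator (fun x => ENNReal.ofReal (nm C φ x) ^ 2) x =
        ENNReal.ofReal (nm C φ x) ^ 2 :=
    fun p hp => Set.indicator_of_mem (Finset.mem_filter.1 hp).2 _
  rw [e1, add_zero, Finset.sum_congr rfl e2, Finset.sum_const, nsmul_eq_mul]
  gcongr
  exact_mod_cast card_le (C := C) s _ fun p _ hp => Set.image_subset_range _ _ hp

omit [MeasurableSpace X] [BorelSpace X] in
theorem nm_sum (s : Finset (Γ × I)) (F : Γ × I → Core S) (x : X) :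
    nm C ((∑ p ∈ s, F p : Core S) : Raw Γ I n V) x ≤ ∑ p ∈ s, nm C (F p : Raw Γ I n V) x := by
  unfold nm
  have : ((∑ p ∈ s, F p : Core S) : Raw Γ I n V) (C.pg x) (C.pi x) (C.py x) =
      ∑ p ∈ s, (F p : Raw Γ I n V) (C.pg x) (C.pi x) (C.py x) := by
    rw [Submodule.coe_sum]
    simp only [Finset.sum_apply]
  rw [this]
  exact norm_sum_le _ _

include hμ in
theorem N2_sum [Fintype I] [T2Space X] (s : Finset (Γ × I)) (b : Γ × I → CS n V) :
    N2 C μ ((∑ p ∈ s, S.lC p.1 p.2 (b p) : Core S) : Raw Γ I n V) ≤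
      Fintype.card I * ∑ p ∈ s, ∫⁻ y, ‖(b p : E n → V) y‖ₑ ^ 2 *
        ENNReal.ofReal (dens (G p.2) y) := by
  classical
  have hm : ∀ p : Γ × I, Measurable fun x =>
      ENNReal.ofReal (nm C (S.lC p.1 p.2 (b p) : Raw Γ I n V) x) ^ 2 := fun p =>
    ((nm_cont (S.lC p.1 p.2 (b p)).2).measurable.ennreal_ofReal).pow_const 2
  rw [Finset.sum_congr rfl fun p (_ : p ∈ s) => (N2_loc (S := S) hμ p.1 p.2 (b p)).symm]
  unfold N2
  rw [← lintegral_finsetSum _ fun p _ => hm p, ← lintegral_const_mul _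
    (Finset.measurable_fun_sum _ fun p _ => hm p)]
  refine lintegral_mono fun x => ?_
  set a : Γ × I → ℝ := fun p => nm C (S.lC p.1 p.2 (b p) : Raw Γ I n V) x with ha
  have ha0 : ∀ p, 0 ≤ a p := fun p => norm_nonneg _
  have hz : ∀ p, a p ≠ 0 → x ∈ Set.range fun y => p.1 • C.ψ p.2 y := by
    intro p hp
    by_contra hx
    refine hp ?_
    rw [ha]
    unfold nm
    rw [norm_eq_zero]
    refine S.loc_zero fun z _ h => hx ⟨z, ?_⟩
    exact h.symm.trans (C.cover x).choose_spec.choose_spec.choose_spec.2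
  have h1 : nm C ((∑ p ∈ s, S.lC p.1 p.2 (b p) : Core S) : Raw Γ I n V) x ≤
      ∑ p ∈ s.filter (fun p => a p ≠ 0), a p := by
    rw [Finset.sum_filter_ne_zero]
    exact nm_sum s _ x
  have h2 : (∑ p ∈ s.filter (fun p => a p ≠ 0), a p) ^ 2 ≤ Fintype.card I * ∑ p ∈ s, a p ^ 2 := by
    calc (∑ p ∈ s.filter (fun p => a p ≠ 0), a p) ^ 2
        ≤ (s.filter (fun p => a p ≠ 0)).card * ∑ p ∈ s.filter (fun p => a p ≠ 0), a p ^ 2 :=
          sq_sum_le_card_mul_sum_sq
      _ ≤ Fintype.card I * ∑ p ∈ s, a p ^ 2 := by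
          refine mul_le_mul ?_ ?_ (Finset.sum_nonneg fun _ _ => sq_nonneg _) (Nat.cast_nonneg _)
          · exact_mod_cast card_le (C := C) s _ fun p _ hp => hz p hp
          · exact Finset.sum_le_sum_of_subset_of_nonneg (Finset.filter_subset _ _)
              fun _ _ _ => sq_nonneg _
  have h0 : (0 : ℝ) ≤ nm C ((∑ p ∈ s, S.lC p.1 p.2 (b p) : Core S) : Raw Γ I n V) x :=
    norm_nonneg _
  calc ENNReal.ofReal (nm C ((∑ p ∈ s, S.lC p.1 p.2 (b p) : Core S) : Raw Γ I n V) x) ^ 2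
      = ENNReal.ofReal (nm C ((∑ p ∈ s, S.lC p.1 p.2 (b p) : Core S) : Raw Γ I n V) x ^ 2) :=
        (ENNReal.ofReal_pow h0 2).symm
    _ ≤ ENNReal.ofReal (Fintype.card I * ∑ p ∈ s, a p ^ 2) :=
        ENNReal.ofReal_le_ofReal ((pow_le_pow_left₀ h0 h1 2).trans h2)
    _ = _ := by
        rw [ENNReal.ofReal_mul (Nat.cast_nonneg _), ENNReal.ofReal_natCast,
          ENNReal.ofReal_sum_of_nonneg fun _ _ => sq_nonneg _]
        congr 1
        exact Finset.sum_congr rfl fun p _ => ENNReal.ofReal_pow (ha0 p) 2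

end meas

end Vale.Agent.P223.H191
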