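import Vale.Agent.P223.H191.Lift
import Vale.Agent.P223.H566.Spec

/-! The operator on spinor fields given by local operators. -/

namespace Vale.Agent.P223.H191

open scoped ContDiff ENNReal InnerProductSpace Topology
open MeasureTheory Vale.Agent.P223.H Vale.Agent.P223.X Vale.Agent.P223.H566

variable {n : ℕ} {V : Type} [NormedAddCommGroup V] [InnerProductSpace ℂ V]

theorem LocOp.mono {m : (E n → V) → E n → V} {c c' : ℝ} (h : LocOp m c) (hc : c ≤ c') :
    LocOp m c' :=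
  ⟨h.smooth, h.supp, h.add, h.smul, h.nonneg.trans hc, fun u hu =>
    (h.bound u hu).trans (by gcongr)⟩

theorem LocOp.zero {m : (E n → V) → E n → V} {c : ℝ} (h : LocOp m c) {u : E n → V}
    (hu : ContDiff ℝ ∞ u) (h0 : ∀ y, ‖y‖ ≤ 4 → u y = 0) : m u = 0 := by
  have h1 : ∫⁻ y in Metric.ball (0 : E n) 4, ‖u y‖ₑ ^ 2 = 0 := by
    rw [setLIntegral_congr_fun (g := fun _ => 0) measurableSet_ball fun y hy => ?_]
    · simp
    · rw [mem_ball_zero_iff] at hy
      simp only [h0 y hy.le, enorm_zero]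
      norm_num
  have h2 : ∫⁻ y, ‖m u y‖ₑ ^ 2 = 0 := le_antisymm ((h.bound u hu).trans (by rw [h1, mul_zero]))
    zero_le
  have hc : Continuous (m u) := (h.smooth u hu).continuous
  have h3 : (fun y => ‖m u y‖ₑ ^ 2) =ᵐ[volume] 0 :=
    (lintegral_eq_zero_iff (hc.enorm.measurable.pow_const 2)).1 h2
  have h4 : m u =ᵐ[volume] 0 := by
    filter_upwards [h3] with y hy
    have : ‖m u y‖ₑ = 0 := by
      have : ‖m u y‖ₑ ^ 2 = 0 := hy
      exact pow_eq_zero_iff (two_ne_zero) |>.1 this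
    exact enorm_eq_zero.1 this
  exact (Continuous.ae_eq_iff_eq _ hc continuous_const).1 h4

/-- the local piece -/
noncomputable def pc {m : (E n → V) → E n → V} {c : ℝ} (h : LocOp m c) (u : E n → V)
    (hu : ContDiff ℝ ∞ u) : CS n V :=
  ⟨m u, h.smooth u hu, hcs_of (R := 4) (h.supp u hu)⟩

variable {M X Γ I : Type} [TopologicalSpace M] [TopologicalSpace X] [Group Γ]
    [MulAction Γ X]
    {C : Cov n M X Γ I} {G : I → E n → Matrix (Fin n) (Fin n) ℝ} {K : Cliff n V}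
    {S : SpX C G K}

theorem dens_bd [Fintype I] (hG : MetX C G) : ∃ A B : ℝ, 0 < A ∧ 0 < B ∧
    ∀ i y, ‖y‖ ≤ 4 → dens (G i) y ≤ A ∧ 1 ≤ B * dens (G i) y := by
  have h1 : ∀ i, ∃ A : ℝ, 0 ≤ A ∧ ∀ y : E n, ‖y‖ ≤ 4 → ‖dens (G i) y‖ ≤ A := fun i =>
    bdd_ball (Int.cont_dens hG i) 4
  have h2 : ∀ i, ∃ B : ℝ, 0 ≤ B ∧ ∀ y : E n, ‖y‖ ≤ 4 → ‖(dens (G i) y)⁻¹‖ ≤ B := fun i =>
    bdd_ball ((Int.cont_dens hG i).inv₀ fun y => (Int.dens_pos hG i y).ne') 4
  choose A hA0 hA using h1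
  choose B hB0 hB using h2
  have sA : ∀ i, A i ≤ ∑ j, A j := fun i =>
    Finset.single_le_sum (fun j _ => hA0 j) (Finset.mem_univ i)
  have sB : ∀ i, B i ≤ ∑ j, B j := fun i =>
    Finset.single_le_sum (fun j _ => hB0 j) (Finset.mem_univ i)
  refine ⟨∑ j, A j + 1, ∑ j, B j + 1, by
    have := Finset.sum_nonneg fun j (_ : j ∈ Finset.univ) => hA0 j
    linarith, by
    have := Finset.sum_nonneg fun j (_ : j ∈ Finset.univ) => hB0 j
    linarith, fun i y hy => ⟨?_, ?_⟩⟩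
  · have := (le_abs_self _).trans (hA i y hy)
    linarith [sA i]
  · have hp := Int.dens_pos hG i y
    have := (le_abs_self _).trans (hB i y hy)
    have h3 : (dens (G i) y)⁻¹ ≤ ∑ j, B j + 1 := by linarith [sB i]
    calc (1 : ℝ) = (dens (G i) y)⁻¹ * dens (G i) y := (inv_mul_cancel₀ hp.ne').symm
      _ ≤ _ := mul_le_mul_of_nonneg_right h3 hp.le

theorem fin_charts (C : Cov n M X Γ I) [Finite I] {B : Set X} (hB : IsCompact B) (R : ℝ) :
    {p : Γ × I | ∃ y : E n, ‖y‖ ≤ R ∧ p.1 • C.ψ p.2 y ∈ B}.Finite := by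
  have h := Bas3.properX C (Bas3.isCompact_core C R) hB
  refine (h.prod (Set.finite_univ (α := I))).subset ?_
  rintro ⟨γ, i⟩ ⟨y, hy, hp⟩
  exact ⟨⟨_, Set.mem_iUnion.2 ⟨i, y, hy, rfl⟩, hp⟩, Set.mem_univ _⟩

theorem fin_core [Finite I] (φ : Core S) (R : ℝ) :
    {p : Γ × I | ∃ y : E n, ‖y‖ ≤ R ∧ (φ : Raw Γ I n V) p.1 p.2 y ≠ 0}.Finite := by
  obtain ⟨B, hB, h⟩ := φ.2.supp
  refine (fin_charts C hB R).subset ?_
  rintro p ⟨y, hy, hp⟩
  refine ⟨y, hy, ?_⟩
  by_contra h'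
  exact hp (h p.1 p.2 y h')

/-- charts in which `φ` does not vanish on the ball -/
noncomputable def chs [Finite I] (φ : Core S) : Finset (Γ × I) := (fin_core φ 4).toFinset

theorem chs_zero [Finite I] {φ : Core S} {p : Γ × I} (hp : p ∉ chs φ) {y : E n} (hy : ‖y‖ ≤ 4) :
    (φ : Raw Γ I n V) p.1 p.2 y = 0 := by
  by_contra h
  exact hp ((fin_core φ 4).mem_toFinset.2 ⟨y, hy, h⟩)

section lift
variable [Finite I] [T2Space X] {m : I → (E n → V) → E n → V} {c : ℝ} (hm : ∀ i, LocOp (m i) c)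

/-- pieces of the operator -/
noncomputable def lpc (S : SpX C G K) (φ : Core S) (p : Γ × I) : Core S :=
  S.lC p.1 p.2 (pc (hm p.2) ((φ : Raw Γ I n V) p.1 p.2) (φ.2.smooth p.1 p.2))

theorem lpc_zero {φ : Core S} {p : Γ × I} (hp : p ∉ chs φ) : lpc hm S φ p = 0 := by
  have : pc (hm p.2) ((φ : Raw Γ I n V) p.1 p.2) (φ.2.smooth p.1 p.2) = 0 :=
    Subtype.ext ((hm p.2).zero (φ.2.smooth p.1 p.2) fun y hy => chs_zero hp hy)
  rw [lpc, this, map_zero]

theorem fsum_eq {φ : Core S} {s : Finset (Γ × I)} (hs : chs φ ⊆ s) :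
    ∑ᶠ p, lpc hm S φ p = ∑ p ∈ s, lpc hm S φ p :=
  finsum_eq_sum_of_support_subset _ fun p hp => by
    by_contra h
    exact hp (lpc_zero hm fun h' => h (hs h'))

/-- the operator given by local operators -/
noncomputable def Lift (S : SpX C G K) : Core S →ₗ[ℂ] Core S where
  toFun φ := ∑ᶠ p, lpc hm S φ p
  map_add' φ ψ := by
    classical
    have s1 : chs φ ⊆ chs φ ∪ chs ψ ∪ chs (φ + ψ) :=
      Finset.subset_union_left.trans Finset.subset_union_left
    have s2 : chs ψ ⊆ chs φ ∪ chs ψ ∪ chs (φ + ψ) :=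
      Finset.subset_union_right.trans Finset.subset_union_left
    have s3 : chs (φ + ψ) ⊆ chs φ ∪ chs ψ ∪ chs (φ + ψ) := Finset.subset_union_right
    rw [fsum_eq hm s1, fsum_eq hm s2, fsum_eq hm s3, ← Finset.sum_add_distrib]
    refine Finset.sum_congr rfl fun p _ => ?_
    unfold lpc
    rw [← map_add]
    congr 1
    refine Subtype.ext (funext fun y => ?_)
    exact (hm p.2).add _ _ (φ.2.smooth p.1 p.2) (ψ.2.smooth p.1 p.2) y
  map_smul' a φ := by
    classical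
    have s1 : chs φ ⊆ chs φ ∪ chs (a • φ) := Finset.subset_union_left
    have s3 : chs (a • φ) ⊆ chs φ ∪ chs (a • φ) := Finset.subset_union_right
    rw [fsum_eq hm s1, fsum_eq hm s3, RingHom.id_apply, Finset.smul_sum]
    refine Finset.sum_congr rfl fun p _ => ?_
    unfold lpc
    rw [← map_smul]
    congr 1
    refine Subtype.ext (funext fun y => ?_)
    exact (hm p.2).smul a _ (φ.2.smooth p.1 p.2) y

theorem lift_eq {φ : Core S} {s : Finset (Γ × I)} (hs : chs φ ⊆ s) :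
    Lift hm S φ = ∑ p ∈ s, lpc hm S φ p := fsum_eq hm hs

end lift

section meas
variable [MeasurableSpace X] [BorelSpace X] {μ : Measure X} (hμ : VolX C G μ)

include hμ in
theorem N2_lift [Fintype I] [T2Space X] {A B : ℝ} (hA : 0 ≤ A) (hB : 0 ≤ B)
    (hAB : ∀ i y, ‖y‖ ≤ 4 → dens (G i) y ≤ A ∧ 1 ≤ B * dens (G i) y)
    {m : I → (E n → V) → E n → V} {c : ℝ} (hm : ∀ i, LocOp (m i) c) (φ : Core S) :
    N2 C μ (Lift hm S φ : Raw Γ I n V) ≤
      ENNReal.ofReal ((Fintype.card I : ℝ) ^ 2 * (A * c * B)) * N2 C μ (φ : Raw Γ I n V) := by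
  rcases isEmpty_or_nonempty I with hI | ⟨⟨i₀⟩⟩
  · have : Lift hm S φ = 0 := by
      rw [lift_eq hm (subset_refl _)]
      exact Finset.sum_eq_zero fun p _ => (hI.elim p.2)
    rw [this]
    have h0 : N2 C μ ((0 : Core S) : Raw Γ I n V) = 0 := by
      unfold N2 nm
      simp
    rw [h0]
    exact zero_le
  have hc : 0 ≤ c := (hm i₀).nonneg
  rw [lift_eq hm (subset_refl _)]
  have h1 := N2_sum (S := S) hμ (chs φ) fun p =>
    pc (hm p.2) ((φ : Raw Γ I n V) p.1 p.2) (φ.2.smooth p.1 p.2)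
  refine h1.trans ?_
  have h2 : ∀ p ∈ chs φ, ∫⁻ y, ‖(pc (hm p.2) ((φ : Raw Γ I n V) p.1 p.2) (φ.2.smooth p.1 p.2) :
      E n → V) y‖ₑ ^ 2 * ENNReal.ofReal (dens (G p.2) y) ≤ ENNReal.ofReal (A * c * B) *
      ∫⁻ y in Metric.ball (0 : E n) 4, ‖(φ : Raw Γ I n V) p.1 p.2 y‖ₑ ^ 2 *
        ENNReal.ofReal (dens (G p.2) y) := by
    intro p _
    have hu := φ.2.smooth p.1 p.2
    set u := (φ : Raw Γ I n V) p.1 p.2 with hu'
    have hmu : Continuous (m p.2 u) := ((hm p.2).smooth u hu).continuous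
    calc ∫⁻ y, ‖m p.2 u y‖ₑ ^ 2 * ENNReal.ofReal (dens (G p.2) y)
        ≤ ∫⁻ y, ENNReal.ofReal A * ‖m p.2 u y‖ₑ ^ 2 := by
          refine lintegral_mono fun y => ?_
          rcases le_or_gt 4 ‖y‖ with hy | hy
          · have : m p.2 u y = 0 := (hm p.2).supp u hu y hy
            simp [this]
          · rw [mul_comm]
            gcongr
            exact (hAB p.2 y hy.le).1
      _ = ENNReal.ofReal A * ∫⁻ y, ‖m p.2 u y‖ₑ ^ 2 :=
          lintegral_const_mul _ (hmu.enorm.measurable.pow_const 2)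
      _ ≤ ENNReal.ofReal A * (ENNReal.ofReal c * ∫⁻ y in Metric.ball (0 : E n) 4, ‖u y‖ₑ ^ 2) := by
          gcongr
          exact (hm p.2).bound u hu
      _ ≤ ENNReal.ofReal A * (ENNReal.ofReal c * ∫⁻ y in Metric.ball (0 : E n) 4,
            ENNReal.ofReal B * (‖u y‖ₑ ^ 2 * ENNReal.ofReal (dens (G p.2) y))) := by
          gcongr ENNReal.ofReal A * (ENNReal.ofReal c * ?_)
          refine setLIntegral_mono' measurableSet_ball fun y hy => ?_
          rw [mem_ball_zero_iff] at hy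
          have h3 := (hAB p.2 y hy.le).2
          have h4 : (1 : ℝ≥0∞) ≤ ENNReal.ofReal B * ENNReal.ofReal (dens (G p.2) y) := by
            rw [← ENNReal.ofReal_mul hB, ← ENNReal.ofReal_one]
            exact ENNReal.ofReal_le_ofReal h3
          calc ‖u y‖ₑ ^ 2 = ‖u y‖ₑ ^ 2 * 1 := (mul_one _).symm
            _ ≤ ‖u y‖ₑ ^ 2 * (ENNReal.ofReal B * ENNReal.ofReal (dens (G p.2) y)) := by gcongr
            _ = _ := by ring
      _ = _ := by
          have hme : Measurable fun y => ‖u y‖ₑ ^ 2 * ENNReal.ofReal (dens (G p.2) y) :=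
            (hu.continuous.enorm.measurable.pow_const 2).mul
              (Int.cont_dens S.met p.2).measurable.ennreal_ofReal
          rw [lintegral_const_mul _ hme,
            ENNReal.ofReal_mul (mul_nonneg hA hc), ENNReal.ofReal_mul hA]
          ring
  calc (Fintype.card I : ℝ≥0∞) * ∑ p ∈ chs φ, ∫⁻ y, ‖(pc (hm p.2) ((φ : Raw Γ I n V) p.1 p.2)
          (φ.2.smooth p.1 p.2) : E n → V) y‖ₑ ^ 2 * ENNReal.ofReal (dens (G p.2) y)
      ≤ (Fintype.card I : ℝ≥0∞) * ∑ p ∈ chs φ, ENNReal.ofReal (A * c * B) *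
      ∫⁻ y in Metric.ball (0 : E n) 4, ‖(φ : Raw Γ I n V) p.1 p.2 y‖ₑ ^ 2 *
        ENNReal.ofReal (dens (G p.2) y) := by gcongr with p hp; exact h2 p hp
    _ ≤ (Fintype.card I : ℝ≥0∞) * (ENNReal.ofReal (A * c * B) *
          (Fintype.card I * N2 C μ (φ : Raw Γ I n V))) := by
        rw [← Finset.mul_sum]
        gcongr
        exact ball_sum (S := S) hμ φ.2 (chs φ) 4
    _ = _ := by
        have e : ENNReal.ofReal ((Fintype.card I : ℝ) ^ 2 * (A * c * B)) =
            (Fintype.card I : ℝ≥0∞) ^ 2 * ENNReal.ofReal (A * c * B) := by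
          rw [ENNReal.ofReal_mul (by positivity), ENNReal.ofReal_pow (by positivity),
            ENNReal.ofReal_natCast]
        rw [e]
        ring

end meas

end Vale.Agent.P223.H191
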