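import Vale.Agent.P223.H191.Loc3
import Mathlib.MeasureTheory.Function.L2Space

/-! Local estimates, part 4: symmetry of the mollification, convergence. -/

namespace Vale.Agent.P223.H191

open scoped ContDiff ENNReal Convolution InnerProductSpace
open MeasureTheory Vale.Agent.P223.H

variable {n : ℕ} {V : Type} [NormedAddCommGroup V]

/-- cutoff -/
noncomputable def cuB (n : ℕ) : ContDiffBump (0 : E n) := ⟨3, 4, by norm_num, by norm_num⟩

noncomputable def cut (y : E n) : ℝ := cuB n y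

theorem cut_smooth : ContDiff ℝ ∞ (cut : E n → ℝ) := (cuB n).contDiff

theorem cut_one {y : E n} (hy : ‖y‖ ≤ 3) : cut y = 1 :=
  (cuB n).one_of_mem_closedBall (by rw [mem_closedBall_zero_iff]; exact hy)

theorem cut_zero {y : E n} (hy : 4 ≤ ‖y‖) : cut y = 0 :=
  (cuB n).zero_of_le_dist (by rw [dist_zero_right]; exact hy)

section symm
variable [InnerProductSpace ℂ V] [CompleteSpace V]

omit [CompleteSpace V] in
theorem hcs_F {a c : E n → V} (hcc : HasCompactSupport c) (ε : ℝ) :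
    HasCompactSupport (Function.uncurry fun x z : E n => (rho z : ℂ) * ⟪a (x - ε • z), c x⟫_ℂ) := by
  refine HasCompactSupport.intro (hcc.isCompact.prod (isCompact_closedBall (0 : E n) 1)) ?_
  rintro ⟨x, z⟩ h
  simp only [Function.uncurry]
  by_cases hx : x ∈ tsupport c
  · have hz : z ∉ Metric.closedBall (0 : E n) 1 := fun h' => h ⟨hx, h'⟩
    rw [mem_closedBall_zero_iff, not_le] at hz
    rw [rho_zero hz.le]; simp
  · rw [image_eq_zero_of_notMem_tsupport hx, inner_zero_right, mul_zero]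

omit [CompleteSpace V] in
theorem cont_F {a c : E n → V} (ha : Continuous a) (hc : Continuous c) (ε : ℝ) :
    Continuous (Function.uncurry fun x z : E n => (rho z : ℂ) * ⟪a (x - ε • z), c x⟫_ℂ) := by
  have h1 : Continuous (rho : E n → ℝ) := rho_smooth.continuous
  simp only [Function.uncurry_def]
  refine (Complex.continuous_ofReal.comp (h1.comp continuous_snd)).mul ?_
  exact (ha.comp (by fun_prop)).inner (hc.comp continuous_fst)

theorem inner_mol_right {c : E n → V} (hc : Continuous c) (ε : ℝ) (v : V) (x : E n) :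
    ⟪v, mol ε c x⟫_ℂ = ∫ z : E n, (rho z : ℂ) * ⟪v, c (x - ε • z)⟫_ℂ := by
  rw [mol, ← integral_inner (mol_int hc ε x)]
  refine integral_congr_ae (Filter.Eventually.of_forall fun z => ?_)
  change ⟪v, (rho z : ℂ) • c (x - ε • z)⟫_ℂ = (rho z : ℂ) * ⟪v, c (x - ε • z)⟫_ℂ
  rw [inner_smul_right]

theorem inner_mol_left {a : E n → V} (ha : Continuous a) (ε : ℝ) (v : V) (x : E n) :
    ⟪mol ε a x, v⟫_ℂ = ∫ z : E n, (rho z : ℂ) * ⟪a (x - ε • z), v⟫_ℂ := by
  rw [← inner_conj_symm, inner_mol_right ha, ← integral_conj]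
  refine integral_congr_ae (Filter.Eventually.of_forall fun z => ?_)
  change (starRingEnd ℂ) ((rho z : ℂ) * ⟪v, a (x - ε • z)⟫_ℂ) = _
  rw [map_mul, Complex.conj_ofReal, inner_conj_symm]

theorem mol_symm {a c : E n → V} (ha : Continuous a) (hac : HasCompactSupport a)
    (hc : Continuous c) (hcc : HasCompactSupport c) (ε : ℝ) :
    ∫ x, ⟪mol ε a x, c x⟫_ℂ = ∫ x, ⟪a x, mol ε c x⟫_ℂ := by
  have e1 : ∫ x, ⟪mol ε a x, c x⟫_ℂ =
      ∫ x, ∫ z : E n, (rho z : ℂ) * ⟪a (x - ε • z), c x⟫_ℂ :=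
    integral_congr_ae (Filter.Eventually.of_forall fun x => inner_mol_left ha ε (c x) x)
  have e2 : ∫ x, ⟪a x, mol ε c x⟫_ℂ =
      ∫ x, ∫ z : E n, (rho z : ℂ) * ⟪a x, c (x - ε • z)⟫_ℂ :=
    integral_congr_ae (Filter.Eventually.of_forall fun x => inner_mol_right hc ε (a x) x)
  have s1 := integral_integral_swap_of_hasCompactSupport (μ := (volume : Measure (E n)))
    (ν := (volume : Measure (E n))) (cont_F ha hc ε) (hcs_F (a := a) hcc ε)
  have s2 : ∫ x, ∫ z : E n, (rho z : ℂ) * ⟪a x, c (x - ε • z)⟫_ℂ =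
      ∫ z : E n, ∫ x, (rho z : ℂ) * ⟪a x, c (x - ε • z)⟫_ℂ := by
    refine integral_integral_swap_of_hasCompactSupport (μ := (volume : Measure (E n)))
      (ν := (volume : Measure (E n))) (f := fun x z => (rho z : ℂ) * ⟪a x, c (x - ε • z)⟫_ℂ) ?_ ?_
    · have h1 : Continuous (rho : E n → ℝ) := rho_smooth.continuous
      simp only [Function.uncurry_def]
      refine (Complex.continuous_ofReal.comp (h1.comp continuous_snd)).mul ?_
      exact (ha.comp continuous_fst).inner (hc.comp (by fun_prop))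
    · refine HasCompactSupport.intro (hac.isCompact.prod (isCompact_closedBall (0 : E n) 1)) ?_
      rintro ⟨x, z⟩ h
      simp only [Function.uncurry]
      by_cases hx : x ∈ tsupport a
      · have hz : z ∉ Metric.closedBall (0 : E n) 1 := fun h' => h ⟨hx, h'⟩
        rw [mem_closedBall_zero_iff, not_le] at hz
        rw [rho_zero hz.le]; simp
      · rw [image_eq_zero_of_notMem_tsupport hx, inner_zero_left, mul_zero]
  rw [e1, s1, e2, s2, ← integral_neg_eq_self]
  refine integral_congr_ae (Filter.Eventually.of_forall fun z => ?_)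
  simp only
  rw [← integral_add_right_eq_self _ (ε • (-z))]
  refine integral_congr_ae (Filter.Eventually.of_forall fun x => ?_)
  simp only
  rw [rho_neg, add_sub_cancel_right, smul_neg, ← sub_eq_add_neg]

end symm

section conv
variable [NormedSpace ℂ V] [CompleteSpace V]

theorem convK {g h q : E n → ℝ} (hg : ContDiff ℝ ∞ g) (hh : ContDiff ℝ ∞ h)
    (g0 : ∀ y, 2 ≤ ‖y‖ → g y = 0) (h0 : ∀ y, 4 ≤ ‖y‖ → h y = 0) (hq : ∀ y, g y * h y = q y)
    {u : E n → V} (hu : ContDiff ℝ ∞ u) :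
    ∃ L : ℝ, ∀ ε : ℝ, 0 < ε → ε ≤ 1 → ∀ x, ‖mK g h ε u x - q x • u x‖ ≤ ε * L := by
  obtain ⟨Cg, hCg0, hCg⟩ := bdd_q hg g0
  have hs : ContDiff ℝ ∞ fun y => h y • u y := hh.smul hu
  have hc : HasCompactSupport fun y => h y • u y :=
    hcs_of (R := 4) fun y hy => by rw [h0 y hy, zero_smul]
  obtain ⟨L, hL0, hL⟩ := mol_lip hs hc
  refine ⟨Cg * L, fun ε hε _ x => ?_⟩
  have e : mK g h ε u x - q x • u x = g x • (mol ε (fun y => h y • u y) x - h x • u x) := by
    unfold mK
    rw [smul_sub, smul_smul, hq]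
  rw [e, norm_smul]
  calc ‖g x‖ * ‖mol ε (fun y => h y • u y) x - h x • u x‖ ≤ Cg * (ε * L) :=
        mul_le_mul (hCg x).1 (hL ε hε x) (norm_nonneg _) hCg0
    _ = _ := by ring

theorem convC {A : Fin n → E n → V →L[ℂ] V} {B : E n → V →L[ℂ] V}
    (hA : ∀ k, ContDiff ℝ ∞ (A k)) (hB : ContDiff ℝ ∞ B) {q : E n → ℝ} (hq : ContDiff ℝ ∞ q)
    (h0 : ∀ y, 2 ≤ ‖y‖ → q y = 0) {u : E n → V} (hu : ContDiff ℝ ∞ u) :
    ∃ L : ℝ, ∀ ε : ℝ, 0 < ε → ε ≤ 1 → ∀ x, ‖mC A B q ε u x - mC0 A B q u x‖ ≤ ε * L := by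
  choose CA hCA0 hCA using fun k => bdd_ball (hA k).continuous 4
  obtain ⟨CB, hCB0, hCB⟩ := bdd_ball hB.continuous 4
  set w : E n → V := fun y => q y • u y with hw
  have hws : ContDiff ℝ ∞ w := hq.smul hu
  have hw0 : ∀ y, 2 ≤ ‖y‖ → w y = 0 := fun y hy => by rw [hw]; simp only [h0 y hy, zero_smul]
  have hwc : HasCompactSupport w := hcs_of hw0
  have hdk : ∀ k : Fin n, ContDiff ℝ ∞ (dk k w) := fun k =>
    (hws.fderiv_right (m := ∞) (by simp)).clm_apply contDiff_const
  have hdc : ∀ k : Fin n, HasCompactSupport (dk k w) := fun k =>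
    (hwc.fderiv ℝ).mono fun z hz h => hz (by
      change fderiv ℝ w z _ = 0
      rw [show fderiv ℝ w z = 0 from h]; rfl)
  have hqs : ContDiff ℝ ∞ fun y => q y • dirF A B u y := hq.smul (contDiff_dirF hA hB hu)
  have hqc : HasCompactSupport fun y => q y • dirF A B u y :=
    hcs_of (R := 2) fun y hy => by rw [h0 y hy, zero_smul]
  obtain ⟨L0, hL00, hL0⟩ := mol_lip hws hwc
  choose Lk hLk0 hLk using fun k => mol_lip (hdk k) (hdc k)
  obtain ⟨L1, hL10, hL1⟩ := mol_lip hqs hqc
  refine ⟨∑ k, CA k * Lk k + CB * L0 + L1, fun ε hε hε1 x => ?_⟩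
  have hsum : 0 ≤ ∑ k, CA k * Lk k := Finset.sum_nonneg fun k _ => mul_nonneg (hCA0 k) (hLk0 k)
  by_cases hx : ‖x‖ ≤ 4
  · have e : mC A B q ε u x - mC0 A B q u x =
        ∑ k, A k x (mol ε (dk k w) x - dk k w x) + B x (mol ε w x - w x) -
          (mol ε (fun y => q y • dirF A B u y) x - q x • dirF A B u x) := by
      unfold mC mC0
      have : dirF A B (mol ε w) x = ∑ k, A k x (mol ε (dk k w) x) + B x (mol ε w x) := by
        unfold dirF
        congr 1
        refine Finset.sum_congr rfl fun k _ => ?_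
        congr 1
        exact mol_fderiv hε (hws.of_le (by simp)) hwc x _
      rw [this]
      simp only [map_sub, Finset.sum_sub_distrib]
      unfold dirF
      abel
    rw [e]
    refine (norm_sub_le _ _).trans ?_
    have t1 : ‖∑ k, A k x (mol ε (dk k w) x - dk k w x)‖ ≤ ∑ k, CA k * (ε * Lk k) :=
      (norm_sum_le _ _).trans (Finset.sum_le_sum fun k _ =>
        ((A k x).le_opNorm _).trans (mul_le_mul (hCA k x hx) (hLk k ε hε x) (norm_nonneg _)
          (hCA0 k)))
    have t2 : ‖B x (mol ε w x - w x)‖ ≤ CB * (ε * L0) :=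
      ((B x).le_opNorm _).trans (mul_le_mul (hCB x hx) (hL0 ε hε x) (norm_nonneg _) hCB0)
    have t3 := hL1 ε hε x
    have t4 : ∑ k, CA k * (ε * Lk k) = ε * ∑ k, CA k * Lk k := by
      rw [Finset.mul_sum]
      exact Finset.sum_congr rfl fun k _ => by ring
    calc _ ≤ (∑ k, CA k * (ε * Lk k) + CB * (ε * L0)) + ε * L1 :=
          add_le_add ((norm_add_le _ _).trans (add_le_add t1 t2)) t3
      _ = _ := by rw [t4]; ring
  · have hx' := not_le.1 hx
    have z1 : mol ε (fun y => q y • dirF A B u y) x = 0 :=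
      mol_zero hε (R := 2) (fun y hy => by rw [h0 y hy, zero_smul]) (by linarith)
    have z2 : (mol ε w) =ᶠ[nhds x] fun _ => 0 := by
      filter_upwards [(isOpen_lt continuous_const continuous_norm).mem_nhds
        (show (3 : ℝ) < ‖x‖ by linarith)] with z hz
      exact mol_zero hε (R := 2) hw0 (by linarith [show (3 : ℝ) < ‖z‖ from hz])
    have z3 : w =ᶠ[nhds x] fun _ => 0 := by
      filter_upwards [(isOpen_lt continuous_const continuous_norm).mem_nhds
        (show (3 : ℝ) < ‖x‖ by linarith)] with z hz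
      exact hw0 z (by linarith [show (3 : ℝ) < ‖z‖ from hz])
    have : mC A B q ε u x - mC0 A B q u x = 0 := by
      unfold mC mC0
      rw [z1, dirF_zero z2, dirF_zero z3, h0 x (by linarith), zero_smul]
      simp
    rw [this, norm_zero]
    positivity

end conv

end Vale.Agent.P223.H191
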