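import Vale.Agent.P223.H191.Lift2
import Vale.Agent.P223.H191.Loc4
import Vale.Agent.P223.X.PartX

/-! Local pieces: Dirac operator, partition of unity, norms. -/

namespace Vale.Agent.P223.H191

open scoped ContDiff ENNReal InnerProductSpace Topology
open MeasureTheory Vale.Agent.P223.H Vale.Agent.P223.X Vale.Agent.P223.H566

variable {n : ℕ} {V : Type} [NormedAddCommGroup V] [InnerProductSpace ℂ V]
    {M X Γ I : Type} [TopologicalSpace M] [TopologicalSpace X] [Group Γ]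
    [MulAction Γ X]
    {C : Cov n M X Γ I} {G : I → E n → Matrix (Fin n) (Fin n) ℝ} {K : Cliff n V}
    {S : SpX C G K}

/-- zeroth order part of the Dirac operator -/
noncomputable def dB (S : SpX C G K) (i : I) (y : E n) : V →L[ℂ] V :=
  ∑ k, cl K (S.β i) y k * spc K (G i) (S.β i) y k

/-- first order part of the Dirac operator -/
noncomputable def dA (S : SpX C G K) (i : I) (k : Fin n) (y : E n) : V →L[ℂ] V :=
  cl K (S.β i) y k

theorem dA_smooth (i : I) (k : Fin n) : ContDiff ℝ ∞ (dA S i k) :=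
  contDiff_cl K (S.fr i).smooth k

theorem dB_smooth (i : I) : ContDiff ℝ ∞ (dB S i) := by
  unfold dB
  refine ContDiff.sum fun k _ => ?_
  have h1 := contDiff_cl K (S.fr i).smooth k
  have h2 := contDiff_spc K (S.met.smooth i) (S.met.pos i) (S.fr i).smooth k
  exact h1.mul h2

theorem dir_eq (i : I) (u : E n → V) : dir K (G i) (S.β i) u = dirF (dA S i) (dB S i) u := by
  funext y
  unfold dir dirF dA dB nab dk
  simp only [map_add, Finset.sum_add_distrib]
  congr 1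
  rw [sum_apply]
  rfl

theorem core_ext {φ ψ : Core S} (γ : Γ) (i : I)
    (h1 : ∀ y, (φ : Raw Γ I n V) γ i y = (ψ : Raw Γ I n V) γ i y)
    (h2 : ∀ γ' j y, γ' • C.ψ j y ∉ Set.range (fun z => γ • C.ψ i z) →
      (φ : Raw Γ I n V) γ' j y = 0 ∧ (ψ : Raw Γ I n V) γ' j y = 0) : φ = ψ := by
  refine Subtype.ext ?_
  funext γ' j y
  by_cases h : γ' • C.ψ j y ∈ Set.range (fun z => γ • C.ψ i z)
  · obtain ⟨z, hz⟩ := h
    rw [φ.2.compat γ γ' i j z y hz, ψ.2.compat γ γ' i j z y hz, h1]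
  · rw [(h2 γ' j y h).1, (h2 γ' j y h).2]

theorem lC_self (γ : Γ) (i : I) [T2Space X] (b : CS n V) (y : E n) :
    (S.lC γ i b : Raw Γ I n V) γ i y = (b : E n → V) y := S.loc_self γ i y

theorem lC_out [T2Space X] {γ γ' : Γ} {i j : I} {b : CS n V} {y : E n}
    (h : γ' • C.ψ j y ∉ Set.range (fun z => γ • C.ψ i z)) :
    (S.lC γ i b : Raw Γ I n V) γ' j y = 0 :=
  S.loc_zero fun z _ h' => h ⟨z, h'.symm⟩

/-- Dirac operator on local pieces -/
theorem D_lC [T2Space X] (γ : Γ) (i : I) (b b' : CS n V)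
    (h : ∀ y, (b' : E n → V) y = dirF (dA S i) (dB S i) (b : E n → V) y) :
    S.DC (S.lC γ i b) = S.lC γ i b' := by
  have hb : HasCompactSupport (b : E n → V) := b.2.2
  have hB : IsCompact ((fun z => γ • C.ψ i z) '' tsupport (b : E n → V)) :=
    hb.isCompact.image (Bas3.chart_emb C γ i).continuous
  refine core_ext γ i (fun y => ?_) fun γ' j y hy => ⟨?_, lC_out hy⟩
  · rw [lC_self, h]
    change dir K (G i) (S.β i) ((S.lC γ i b : Raw Γ I n V) γ i) y = _
    have e : (S.lC γ i b : Raw Γ I n V) γ i = (b : E n → V) := funext fun y => lC_self γ i b y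
    rw [e, dir_eq]
  · change dir K (G j) (S.β j) ((S.lC γ i b : Raw Γ I n V) γ' j) y = _
    have h3 : ∀ γ' j y, γ' • C.ψ j y ∉ (fun z => γ • C.ψ i z) '' tsupport (b : E n → V) →
        (S.lC γ i b : Raw Γ I n V) γ' j y = 0 := fun γ' j y hy =>
      S.loc_zero fun z hz h => hy ⟨z, subset_tsupport _ hz, h.symm⟩
    have hy' : γ' • C.ψ j y ∉ (fun z => γ • C.ψ i z) '' tsupport (b : E n → V) :=
      fun ⟨z, _, hz⟩ => hy ⟨z, hz⟩
    have h4 := (S.lC γ i b).2.ev hB h3 hy'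
    rw [dir_eq]
    exact dirF_zero h4

theorem hx_fin [Fintype I] {χ : I → E n → ℝ} (hχ : Part C χ) (x : X) :
    {p : Γ × I | C.ex p.2 (χ p.2) (p.1⁻¹ • x) ≠ 0}.Finite := by
  refine (fin_charts C (isCompact_singleton (x := x)) 2).subset ?_
  rintro ⟨γ, i⟩ hp
  by_cases hr : γ⁻¹ • x ∈ Set.range (C.ψ i)
  · obtain ⟨y, hy⟩ := hr
    refine ⟨y, ?_, ?_⟩
    · by_contra h
      refine hp ?_
      simp only
      rw [← hy, Bas3.ex_ψ, hχ.supp i y (not_le.1 h).le]
    · simp only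
      rw [hy, smul_inv_smul]; rfl
  · refine absurd ?_ hp
    simp only
    unfold Cov.ex
    rw [if_neg hr]

theorem hx_sum [Fintype I] {χ : I → E n → ℝ} (hχ : Part C χ) (x : X) (s : Finset (Γ × I))
    (hs : ∀ p : Γ × I, C.ex p.2 (χ p.2) (p.1⁻¹ • x) ≠ 0 → p ∈ s) :
    ∑ p ∈ s, C.ex p.2 (χ p.2) (p.1⁻¹ • x) = 1 := by
  classical
  have h1 : ∑ p ∈ s, C.ex p.2 (χ p.2) (p.1⁻¹ • x) =
      ∑ p ∈ (s.image Prod.fst) ×ˢ Finset.univ, C.ex p.2 (χ p.2) (p.1⁻¹ • x) := by
    refine Finset.sum_subset ?_ ?_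
    · intro p hp
      exact Finset.mem_product.2 ⟨Finset.mem_image_of_mem _ hp, Finset.mem_univ _⟩
    · intro p _ hp
      by_contra h
      exact hp (hs p h)
  rw [h1, Finset.sum_product_right, ← hχ.sum x]
  refine Finset.sum_congr rfl fun i _ => ?_
  have h2 : ∑ᶠ γ : Γ, C.ex i (χ i) (γ • x) = ∑ᶠ γ : Γ, C.ex i (χ i) (γ⁻¹ • x) := by
    refine finsum_eq_of_bijective (fun γ : Γ => γ⁻¹) inv_involutive.bijective fun γ => ?_
    rw [inv_inv]
  rw [h2]
  refine (finsum_eq_sum_of_support_subset _ fun γ hγ => ?_).symm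
  exact Finset.mem_coe.2 (Finset.mem_image.2 ⟨(γ, i), hs (γ, i) hγ, rfl⟩)

/-- decomposition into local pieces -/
theorem sum_chi [Fintype I] [T2Space X] {χ : I → E n → ℝ} (hχ : Part C χ) (φ : Core S)
    {s : Finset (Γ × I)} (hs : chs φ ⊆ s) (b : Γ × I → CS n V)
    (hb : ∀ p y, (b p : E n → V) y = χ p.2 y • (φ : Raw Γ I n V) p.1 p.2 y) :
    ∑ p ∈ s, S.lC p.1 p.2 (b p) = φ := by
  classical
  refine Subtype.ext ?_
  rw [Submodule.coe_sum]
  funext γ' j y
  simp only [Finset.sum_apply]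
  set x : X := γ' • C.ψ j y with hx
  set v : V := (φ : Raw Γ I n V) γ' j y with hv
  have h1 : ∀ p : Γ × I, (S.lC p.1 p.2 (b p) : Raw Γ I n V) γ' j y =
      C.ex p.2 (χ p.2) (p.1⁻¹ • x) • v := by
    rintro ⟨γ, i⟩
    by_cases h : x ∈ Set.range (fun z => γ • C.ψ i z)
    · obtain ⟨z, hz⟩ := h
      change γ • C.ψ i z = x at hz
      have e1 : (S.lC γ i (b (γ, i)) : Raw Γ I n V) γ' j y =
          S.T γ i γ' j z ((b (γ, i) : E n → V) z) := S.loc_of hz.symm
      have e2 : C.ex i (χ i) (γ⁻¹ • x) = χ i z := by rw [← hz, inv_smul_smul, Bas3.ex_ψ]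
      simp only
      rw [e1, e2, hb, hv, φ.2.compat γ γ' i j z y hz]
      exact ContinuousLinearMap.map_smul_of_tower _ _ _
    · have e1 : (S.lC γ i (b (γ, i)) : Raw Γ I n V) γ' j y = 0 := lC_out h
      have e2 : C.ex i (χ i) (γ⁻¹ • x) = 0 := by
        unfold Cov.ex
        rw [if_neg]
        rintro ⟨z, hz⟩
        exact h ⟨z, by simp only; rw [hz, smul_inv_smul]⟩
      simp only
      rw [e1, e2, zero_smul]
  simp only [h1]
  rw [← Finset.sum_smul]
  by_cases hv0 : v = 0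
  · rw [hv0, smul_zero]
  · rw [hx_sum hχ x s fun p hp => hs ?_, one_smul]
    by_contra hps
    by_cases h : p.1⁻¹ • x ∈ Set.range (C.ψ p.2)
    · obtain ⟨z, hz⟩ := h
      have hz' : p.1 • C.ψ p.2 z = γ' • C.ψ j y := by rw [hz, smul_inv_smul]
      rcases le_or_gt ‖z‖ 4 with h4 | h4
      · have := chs_zero hps h4
        refine hv0 ?_
        rw [hv, φ.2.compat p.1 γ' p.2 j z y hz', this, map_zero]
      · rw [← hz, Bas3.ex_ψ, hχ.supp p.2 z (by linarith)] at hp
        exact hp rfl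
    · refine hp ?_
      unfold Cov.ex
      rw [if_neg h]

section norm
variable [MeasurableSpace X] {μ : Measure X} {H : Type} [NormedAddCommGroup H]
    [InnerProductSpace ℂ H]

theorem norm_e (Em : Emb S μ H) (φ : Core S)
    (hi : Integrable (hp C (φ : Raw Γ I n V) (φ : Raw Γ I n V)) μ) :
    ENNReal.ofReal (‖Em.e φ‖ ^ 2) = N2 C μ (φ : Raw Γ I n V) := by
  have h1 : ∀ x, hp C (φ : Raw Γ I n V) (φ : Raw Γ I n V) x =
      ((nm C (φ : Raw Γ I n V) x ^ 2 : ℝ) : ℂ) := by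
    intro x
    unfold hp nm
    rw [inner_self_eq_norm_sq_to_K]
    norm_cast
  have h2 : Integrable (fun x => nm C (φ : Raw Γ I n V) x ^ 2) μ := by
    have := hi.re
    refine this.congr (Filter.Eventually.of_forall fun x => ?_)
    simp only [h1]
    exact Complex.ofReal_re _
  have h3 : ‖Em.e φ‖ ^ 2 = ∫ x, nm C (φ : Raw Γ I n V) x ^ 2 ∂μ := by
    have e1 : ((‖Em.e φ‖ ^ 2 : ℝ) : ℂ) = ipr C μ (φ : Raw Γ I n V) (φ : Raw Γ I n V) := by
      rw [← Em.ip, inner_self_eq_norm_sq_to_K]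
      norm_cast
    unfold ipr at e1
    simp only [h1] at e1
    rw [integral_complex_ofReal] at e1
    exact_mod_cast e1
  rw [h3, ofReal_integral_eq_lintegral_ofReal h2 (Filter.Eventually.of_forall fun x => sq_nonneg _),
    N2]
  refine lintegral_congr fun x => ?_
  exact ENNReal.ofReal_pow (norm_nonneg _) 2

end norm

end Vale.Agent.P223.H191
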