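import Vale.Agent.P223.H191.Fried

/-! Local estimates for mollified first order operators. -/

namespace Vale.Agent.P223.H191

open scoped ContDiff ENNReal Convolution
open MeasureTheory Vale.Agent.P223.H

variable {n : ℕ} {V : Type} [NormedAddCommGroup V] [NormedSpace ℂ V] [CompleteSpace V]

/-- the partial derivative -/
noncomputable def dk (k : Fin n) (u : E n → V) (y : E n) : V := fderiv ℝ u y (Pi.single k 1)

/-- first order operators -/
noncomputable def dirF (A : Fin n → E n → V →L[ℂ] V) (B : E n → V →L[ℂ] V) (u : E n → V)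
    (y : E n) : V := ∑ k, A k y (dk k u y) + B y (u y)

/-- `‖u‖` on the ball of radius `R` -/
noncomputable def trR (R : ℝ) (u : E n → V) (y : E n) : ℝ≥0∞ :=
  (Metric.ball (0 : E n) R).indicator (fun y => ‖u y‖ₑ) y

omit [NormedSpace ℂ V] [CompleteSpace V] in
theorem trR_meas {R : ℝ} {u : E n → V} (hu : Continuous u) : Measurable (trR R u) :=
  hu.enorm.measurable.indicator measurableSet_ball

omit [NormedSpace ℂ V] [CompleteSpace V] in
theorem trR_int (R : ℝ) (u : E n → V) :
    ∫⁻ y, trR R u y ^ 2 = ∫⁻ y in Metric.ball (0 : E n) R, ‖u y‖ₑ ^ 2 := by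
  rw [← lintegral_indicator measurableSet_ball]
  refine lintegral_congr fun y => ?_
  unfold trR
  by_cases h : y ∈ Metric.ball (0 : E n) R
  · rw [Set.indicator_of_mem h, Set.indicator_of_mem h]
  · rw [Set.indicator_of_notMem h, Set.indicator_of_notMem h]; simp

theorem bdd_ball {F : Type} [NormedAddCommGroup F] {f : E n → F} (hf : Continuous f) (R : ℝ) :
    ∃ C : ℝ, 0 ≤ C ∧ ∀ y, ‖y‖ ≤ R → ‖f y‖ ≤ C := by
  obtain ⟨C, hC⟩ := (isCompact_closedBall (0 : E n) R).exists_bound_of_continuousOn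
    hf.continuousOn
  exact ⟨max C 0, le_max_right _ _, fun y hy =>
    (hC y (mem_closedBall_zero_iff.2 hy)).trans (le_max_left _ _)⟩

omit [CompleteSpace V] in
/-- averages of a function with `‖f‖ ≤ c ‖u‖`, supported in the ball of radius `R` -/
theorem mol_le {R : ℝ} {f u : E n → V} {c : ℝ} (h0 : ∀ y, R ≤ ‖y‖ → f y = 0)
    (h1 : ∀ y, ‖y‖ ≤ R → ‖f y‖ ≤ c * ‖u y‖) (hc : 0 ≤ c) (ε : ℝ) (x : E n) :
    ‖mol ε f x‖ₑ ≤ ∫⁻ z : E n, (ENNReal.ofReal c * kap z) * trR R u (x - ε • z) := by
  refine (enorm_integral_le_lintegral_enorm _).trans (lintegral_mono fun z => ?_)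
  rw [enorm_smul]
  by_cases h : x - ε • z ∈ Metric.ball (0 : E n) R
  · unfold trR
    rw [Set.indicator_of_mem h, mul_comm (ENNReal.ofReal c), mul_assoc]
    rw [mem_ball_zero_iff] at h
    have h2 := h1 _ h.le
    gcongr
    · rw [Real.enorm_of_nonneg (rho_nonneg z), kap]
      exact ENNReal.ofReal_le_ofReal (le_add_of_nonneg_left (norm_nonneg _))
    · rw [← ofReal_norm, ← ofReal_norm (u _), ← ENNReal.ofReal_mul hc]
      exact ENNReal.ofReal_le_ofReal h2
  · rw [mem_ball_zero_iff, not_lt] at h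
    rw [h0 _ h]
    simp


theorem fderiv_zero_real {q : E n → ℝ} (hq : ContDiff ℝ ∞ q) (h0 : ∀ y, 2 ≤ ‖y‖ → q y = 0)
    {y : E n} (hy : 2 ≤ ‖y‖) (v : E n) : fderiv ℝ q y v = 0 := by
  have hcont : Continuous fun y => fderiv ℝ q y v :=
    (hq.continuous_fderiv (by simp)).clm_apply continuous_const
  have h1 : ∀ z, 2 < ‖z‖ → fderiv ℝ q z v = 0 := by
    intro z hz
    have : q =ᶠ[nhds z] fun _ => 0 := by
      filter_upwards [(isOpen_lt continuous_const continuous_norm).mem_nhds hz] with w hw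
      exact h0 w (le_of_lt hw)
    rw [this.fderiv_eq]; simp
  rcases hy.lt_or_eq with h | h
  · exact h1 y h
  · have ht : Filter.Tendsto (fun t : ℝ => fderiv ℝ q (t • y) v) (nhdsWithin 1 (Set.Ioi 1))
        (nhds (fderiv ℝ q y v)) := by
      have h2 : Continuous fun t : ℝ => fderiv ℝ q (t • y) v := hcont.comp (by fun_prop)
      have := h2.continuousAt (x := (1 : ℝ))
      rw [ContinuousAt, one_smul] at this
      exact this.mono_left nhdsWithin_le_nhds
    refine tendsto_nhds_unique ht (tendsto_const_nhds.congr' ?_)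
    filter_upwards [self_mem_nhdsWithin] with t ht
    rw [h1 (t • y)]
    rw [norm_smul, ← h, Real.norm_eq_abs, abs_of_pos (lt_trans one_pos ht)]
    have : (1 : ℝ) < t := ht
    linarith

omit [CompleteSpace V] in
theorem fderiv_zero_out {q : E n → V} (hq : ContDiff ℝ ∞ q) (h0 : ∀ y, 2 ≤ ‖y‖ → q y = 0)
    {y : E n} (hy : 2 ≤ ‖y‖) (v : E n) : fderiv ℝ q y v = 0 := by
  have hcont : Continuous fun y => fderiv ℝ q y v :=
    (hq.continuous_fderiv (by simp)).clm_apply continuous_const
  have h1 : ∀ z, 2 < ‖z‖ → fderiv ℝ q z v = 0 := by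
    intro z hz
    have : q =ᶠ[nhds z] fun _ => 0 := by
      filter_upwards [(isOpen_lt continuous_const continuous_norm).mem_nhds hz] with w hw
      exact h0 w (le_of_lt hw)
    rw [this.fderiv_eq]; simp
  rcases hy.lt_or_eq with h | h
  · exact h1 y h
  · -- `y` is a limit of `t y`, `t > 1`
    have ht : Filter.Tendsto (fun t : ℝ => fderiv ℝ q (t • y) v) (nhdsWithin 1 (Set.Ioi 1))
        (nhds (fderiv ℝ q y v)) := by
      have h2 : Continuous fun t : ℝ => fderiv ℝ q (t • y) v := hcont.comp (by fun_prop)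
      have := h2.continuousAt (x := (1 : ℝ))
      rw [ContinuousAt, one_smul] at this
      exact this.mono_left nhdsWithin_le_nhds
    refine tendsto_nhds_unique ht (tendsto_const_nhds.congr' ?_)
    filter_upwards [self_mem_nhdsWithin] with t ht
    rw [h1 (t • y)]
    rw [norm_smul, ← h, Real.norm_eq_abs, abs_of_pos (lt_trans one_pos ht)]
    have : (1 : ℝ) < t := ht
    linarith

omit [CompleteSpace V] in
theorem mol_int {f : E n → V} (hf : Continuous f) (ε : ℝ) (x : E n) :
    Integrable fun z : E n => rho z • f (x - ε • z) := by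
  refine Continuous.integrable_of_hasCompactSupport ?_ rho_supp.smul_right
  exact rho_smooth.continuous.smul (hf.comp (by fun_prop))

omit [CompleteSpace V] in
theorem mol_add {f g : E n → V} (hf : Continuous f) (hg : Continuous g) (ε : ℝ) (x : E n) :
    mol ε (fun y => f y + g y) x = mol ε f x + mol ε g x := by
  unfold mol
  rw [← integral_add (mol_int hf ε x) (mol_int hg ε x)]
  exact integral_congr_ae (Filter.Eventually.of_forall fun z => smul_add _ _ _)

omit [CompleteSpace V] in
theorem mol_sub {f g : E n → V} (hf : Continuous f) (hg : Continuous g) (ε : ℝ) (x : E n) :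
    mol ε (fun y => f y - g y) x = mol ε f x - mol ε g x := by
  unfold mol
  rw [← integral_sub (mol_int hf ε x) (mol_int hg ε x)]
  exact integral_congr_ae (Filter.Eventually.of_forall fun z => smul_sub _ _ _)

omit [CompleteSpace V] in
theorem mol_sum {ι : Type} (s : Finset ι) {f : ι → E n → V} (hf : ∀ k, Continuous (f k)) (ε : ℝ)
    (x : E n) : mol ε (fun y => ∑ k ∈ s, f k y) x = ∑ k ∈ s, mol ε (f k) x := by
  classical
  induction s using Finset.induction_on with
  | empty => simp [mol]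
  | insert a s ha ih =>
    simp only [Finset.sum_insert ha]
    rw [mol_add (hf a) (continuous_finsetSum s fun k _ => hf k), ih]

omit [CompleteSpace V] in
theorem dk_smul {q : E n → ℝ} {u : E n → V} (hq : ContDiff ℝ ∞ q) (hu : ContDiff ℝ ∞ u)
    (k : Fin n) (y : E n) : dk k (fun y => q y • u y) y =
      q y • dk k u y + (fderiv ℝ q y (Pi.single k 1)) • u y := by
  unfold dk
  have h := (hq.differentiable (by simp) y).hasFDerivAt.smul
    (hu.differentiable (by simp) y).hasFDerivAt
  have h2 : fderiv ℝ (fun y => q y • u y) y = _ := h.fderiv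
  rw [h2]
  simp

theorem norm_single (k : Fin n) : ‖(Pi.single k (1 : ℝ) : E n)‖ = 1 := by
  rw [Pi.norm_single, norm_one]

/-- the mollified cut off section is close to commuting with first order operators -/
theorem loc_comm {A : Fin n → E n → V →L[ℂ] V} {B : E n → V →L[ℂ] V}
    (hA : ∀ k, ContDiff ℝ ∞ (A k)) (hB : ContDiff ℝ ∞ B) {q : E n → ℝ} (hq : ContDiff ℝ ∞ q)
    (h0 : ∀ y, 2 ≤ ‖y‖ → q y = 0) :
    ∃ c : ℝ, 0 ≤ c ∧ ∀ ε : ℝ, 0 < ε → ε ≤ 1 → ∀ u : E n → V, ContDiff ℝ ∞ u → ∀ x,
      ‖dirF A B (mol ε fun y => q y • u y) x - mol ε (fun y => q y • dirF A B u y) x‖ₑ ≤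
        ENNReal.ofReal c * ∫⁻ z : E n, kap z * trR 2 u (x - ε • z) := by
  have hAd : ∀ k, Continuous (fderiv ℝ (A k)) := fun k => (hA k).continuous_fderiv (by simp)
  have hAb : ∀ k, ∃ C : ℝ, 0 ≤ C ∧ ∀ y, ‖y‖ ≤ 4 → ‖fderiv ℝ (A k) y‖ ≤ C :=
    fun k => bdd_ball (F := E n →L[ℝ] V →L[ℂ] V) (hAd k) 4
  choose Λ hΛ0 hΛ using hAb
  obtain ⟨Cq, hCq0, hCq⟩ := bdd_ball hq.continuous 2
  obtain ⟨CB, hCB0, hCB⟩ := bdd_ball hB.continuous 4
  have hcf : ∀ k, Continuous fun y => (fderiv ℝ q y (Pi.single k 1)) • A k y := fun k =>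
    ((hq.continuous_fderiv (by simp)).clm_apply continuous_const).smul (hA k).continuous
  choose Ck hCk0 hCk using fun k => bdd_ball (hcf k) 2
  have hsum0 : 0 ≤ ∑ k, (Λ k * Cq + Ck k) :=
    Finset.sum_nonneg fun k _ => add_nonneg (mul_nonneg (hΛ0 k) hCq0) (hCk0 k)
  have hB0 : 0 ≤ CB * Cq + CB * Cq := by positivity
  refine ⟨∑ k, (Λ k * Cq + Ck k) + (CB * Cq + CB * Cq), by positivity, fun ε hε hε1 u hu x => ?_⟩
  set w : E n → V := fun y => q y • u y with hw
  have hws : ContDiff ℝ ∞ w := hq.smul hu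
  have hw0 : ∀ y, 2 ≤ ‖y‖ → w y = 0 := fun y hy => by rw [hw]; simp only [h0 y hy, zero_smul]
  have hwc : HasCompactSupport w := HasCompactSupport.of_support_subset_isCompact
    (isCompact_closedBall (0 : E n) 2) fun y hy => by
      rw [mem_closedBall_zero_iff]
      by_contra h
      exact hy (hw0 y (not_le.1 h).le)
  set J : ℝ≥0∞ := ∫⁻ z : E n, kap z * trR 2 u (x - ε • z) with hJ
  have hdkc : ∀ k, Continuous (dk k w) := fun k =>
    (hws.continuous_fderiv (by simp)).clm_apply continuous_const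
  have hduc : ∀ k, Continuous (dk k u) := fun k =>
    (hu.continuous_fderiv (by simp)).clm_apply continuous_const
  have e1 : ∀ k, dk k (mol ε w) x = mol ε (dk k w) x := fun k =>
    mol_fderiv hε (hws.of_le (by simp)) hwc x _
  have hfk : ∀ k, Continuous fun y => (fderiv ℝ q y (Pi.single k 1)) • A k y (u y) := fun k =>
    ((hq.continuous_fderiv (by simp)).clm_apply continuous_const).smul
      ((hA k).continuous.clm_apply hu.continuous)
  have e2 : mol ε (fun y => q y • dirF A B u y) x = ∑ k, mol ε (fun y => A k y (dk k w y)) x -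
      ∑ k, mol ε (fun y => (fderiv ℝ q y (Pi.single k 1)) • A k y (u y)) x +
      mol ε (fun y => B y (w y)) x := by
    have k1 : Continuous fun y => ∑ k, A k y (dk k w y) :=
      continuous_finsetSum _ fun k _ => (hA k).continuous.clm_apply (hdkc k)
    have k2 : Continuous fun y => ∑ k, (fderiv ℝ q y (Pi.single k 1)) • A k y (u y) :=
      continuous_finsetSum _ fun k _ => hfk k
    have k3 : Continuous fun y => ∑ k, A k y (dk k w y) -
        ∑ k, (fderiv ℝ q y (Pi.single k 1)) • A k y (u y) := k1.sub k2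
    have k4 : Continuous fun y => B y (w y) := hB.continuous.clm_apply hws.continuous
    rw [← mol_sum _ fun k => (hA k).continuous.clm_apply (hdkc k), ← mol_sum _ hfk, ← mol_sub k1 k2,
      ← mol_add k3 k4]
    congr 1
    funext y
    unfold dirF
    rw [smul_add, Finset.smul_sum, ← Finset.sum_sub_distrib]
    congr 1
    · refine Finset.sum_congr rfl fun k _ => ?_
      rw [hw, dk_smul hq hu, map_add, ContinuousLinearMap.map_smul_of_tower,
        ContinuousLinearMap.map_smul_of_tower, add_sub_cancel_right]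
    · exact ((B y).map_smul_of_tower _ _).symm
  have e3 : dirF A B (mol ε w) x - mol ε (fun y => q y • dirF A B u y) x =
      ∑ k, ((A k x (mol ε (dk k w) x) - mol ε (fun y => A k y (dk k w y)) x) +
        mol ε (fun y => (fderiv ℝ q y (Pi.single k 1)) • A k y (u y)) x) +
      (B x (mol ε w x) - mol ε (fun y => B y (w y)) x) := by
    rw [e2]
    unfold dirF
    simp only [e1]
    rw [Finset.sum_add_distrib, Finset.sum_sub_distrib]
    abel
  have hwle : ∀ y, ‖w y‖ₑ ≤ ENNReal.ofReal Cq * trR 2 u y := by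
    intro y
    by_cases hy : y ∈ Metric.ball (0 : E n) 2
    · unfold trR
      rw [Set.indicator_of_mem hy, hw, enorm_smul]
      rw [mem_ball_zero_iff] at hy
      gcongr
      rw [← ofReal_norm]
      exact ENNReal.ofReal_le_ofReal (hCq y hy.le)
    · rw [mem_ball_zero_iff, not_lt] at hy
      rw [hw0 y hy]; simp
  have hmeas : Measurable fun z : E n => kap z * trR 2 u (x - ε • z) :=
    kap_meas.mul ((trR_meas hu.continuous).comp (by fun_prop))
  have b1 : ∀ (f : E n → V) (c : ℝ), (∀ y, 2 ≤ ‖y‖ → f y = 0) →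
      (∀ y, ‖y‖ ≤ 2 → ‖f y‖ ≤ c * ‖u y‖) → 0 ≤ c → ‖mol ε f x‖ₑ ≤ ENNReal.ofReal c * J := by
    intro f c hf0 hf1 hc
    refine (mol_le hf0 hf1 hc ε x).trans (le_of_eq ?_)
    rw [hJ, ← lintegral_const_mul _ hmeas]
    exact lintegral_congr fun z => mul_assoc _ _ _
  by_cases hx : ‖x‖ ≤ 3
  · rw [e3]
    have c1 : ∀ k, ‖A k x (mol ε (dk k w) x) - mol ε (fun y => A k y (dk k w y)) x‖ₑ ≤
        ENNReal.ofReal (Λ k * Cq) * J := by
      intro k
      have h := comm_pt hε hε1 (hA k) hws (R := 3) (Λ := Λ k)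
        (fun y hy => hΛ k y (by linarith)) hx (Pi.single k 1)
      refine h.trans ?_
      rw [norm_single, mul_one, ENNReal.ofReal_mul (hΛ0 k), hJ, ← lintegral_const_mul _ hmeas]
      refine lintegral_mono fun z => ?_
      calc ENNReal.ofReal (Λ k) * kap z * ‖w (x - ε • z)‖ₑ
          ≤ ENNReal.ofReal (Λ k) * kap z * (ENNReal.ofReal Cq * trR 2 u (x - ε • z)) := by
            gcongr; exact hwle _
        _ = _ := by ring
    have c2 : ∀ k, ‖mol ε (fun y => (fderiv ℝ q y (Pi.single k 1)) • A k y (u y)) x‖ₑ ≤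
        ENNReal.ofReal (Ck k) * J := by
      intro k
      refine b1 _ _ (fun y hy => ?_) (fun y hy => ?_) (hCk0 k)
      · rw [fderiv_zero_real hq h0 hy, zero_smul]
      · have h1 := ((fderiv ℝ q y (Pi.single k 1)) • A k y).le_opNorm (u y)
        exact h1.trans (mul_le_mul_of_nonneg_right (hCk k y hy) (norm_nonneg _))
    have c3 : ‖B x (mol ε w x)‖ₑ ≤ ENNReal.ofReal (CB * Cq) * J := by
      refine (ContinuousLinearMap.le_opENorm _ _).trans ?_
      rw [ENNReal.ofReal_mul hCB0, mul_assoc]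
      gcongr
      · rw [← ofReal_norm]
        exact ENNReal.ofReal_le_ofReal (hCB x (by linarith))
      · refine b1 _ _ hw0 (fun y hy => ?_) hCq0
        rw [hw, norm_smul]
        exact mul_le_mul_of_nonneg_right (hCq y hy) (norm_nonneg _)
    have c4 : ‖mol ε (fun y => B y (w y)) x‖ₑ ≤ ENNReal.ofReal (CB * Cq) * J := by
      refine b1 _ _ (fun y hy => by rw [hw0 y hy, map_zero]) (fun y hy => ?_)
        (mul_nonneg hCB0 hCq0)
      refine ((B y).le_opNorm _).trans ?_
      rw [mul_assoc]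
      refine mul_le_mul (hCB y (by linarith)) ?_ (norm_nonneg _) hCB0
      rw [hw, norm_smul]
      exact mul_le_mul_of_nonneg_right (hCq y hy) (norm_nonneg _)
    refine (enorm_add_le _ _).trans ?_
    rw [ENNReal.ofReal_add hsum0 hB0, ENNReal.ofReal_sum_of_nonneg
      (fun k _ => add_nonneg (mul_nonneg (hΛ0 k) hCq0) (hCk0 k)), add_mul, Finset.sum_mul]
    refine add_le_add ?_ ?_
    · refine (enorm_sum_le _ _).trans (Finset.sum_le_sum fun k _ => ?_)
      refine (enorm_add_le _ _).trans ?_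
      rw [ENNReal.ofReal_add (mul_nonneg (hΛ0 k) hCq0) (hCk0 k), add_mul]
      exact add_le_add (c1 k) (c2 k)
    · refine enorm_sub_le.trans ?_
      rw [ENNReal.ofReal_add (by positivity) (by positivity), add_mul]
      exact add_le_add c3 c4
  · have hx3 : 2 + ε ≤ ‖x‖ := by linarith [not_le.1 hx]
    have z1 : ∀ k, mol ε (dk k w) x = 0 := fun k =>
      mol_zero hε (fun y hy => fderiv_zero_out hws hw0 hy _) hx3
    have z2 : mol ε w x = 0 := mol_zero hε hw0 hx3
    have z3 : mol ε (fun y => q y • dirF A B u y) x = 0 :=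
      mol_zero hε (fun y hy => by rw [h0 y hy, zero_smul]) hx3
    rw [z3]
    unfold dirF
    simp only [e1, z1, z2, map_zero, Finset.sum_const_zero, add_zero, sub_zero, enorm_zero]
    exact zero_le

end Vale.Agent.P223.H191
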