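import Vale.Agent.P223.H191.Loc1

/-! Local estimates, part 2: derivatives and convergence. -/

namespace Vale.Agent.P223.H191

open scoped ContDiff ENNReal Convolution
open MeasureTheory Vale.Agent.P223.H

variable {n : ℕ} {V : Type} [NormedAddCommGroup V] [NormedSpace ℂ V] [CompleteSpace V]

omit [NormedSpace ℂ V] [CompleteSpace V] in
theorem hcs_of {R : ℝ} {w : E n → V} (h0 : ∀ y, R ≤ ‖y‖ → w y = 0) : HasCompactSupport w :=
  HasCompactSupport.of_support_subset_isCompact
    (isCompact_closedBall (0 : E n) R) fun y hy => by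
      rw [mem_closedBall_zero_iff]
      by_contra h
      exact hy (h0 y (not_le.1 h).le)

omit [CompleteSpace V] in
theorem dk_mol_eq {ε : ℝ} (hε : 0 < ε) {f : E n → V} (hf : ContDiff ℝ ∞ f) (k : Fin n) (x : E n) :
    mol ε (dk k f) x = ∫ z : E n, ε⁻¹ • ((fderiv ℝ (rho : E n → ℝ) z (Pi.single k 1)) •
      f (x - ε • z)) := by
  have hsh : ContDiff ℝ ∞ fun z : E n => x - ε • z := by fun_prop
  have hU : ContDiff ℝ ∞ fun z : E n => f (x - ε • z) := hf.comp hsh
  have hdU : ∀ z : E n, fderiv ℝ (fun z : E n => f (x - ε • z)) z (Pi.single k 1) =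
      -(ε • dk k f (x - ε • z)) := by
    intro z
    have h1 : HasFDerivAt (fun z : E n => x - ε • z) (-(ε • ContinuousLinearMap.id ℝ (E n))) z :=
      ((hasFDerivAt_id (𝕜 := ℝ) z).const_smul ε).const_sub x
    have h2 := ((hf.differentiable (by simp)) (x - ε • z)).hasFDerivAt.comp z h1
    rw [show (fun z : E n => f (x - ε • z)) = f ∘ fun z => x - ε • z from rfl, h2.fderiv]
    simp [dk]
  have hs : ∀ g : E n → V, HasCompactSupport fun z => rho z • g z := fun g => rho_supp.smul_right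
  have hs2 : ∀ g : E n → V, HasCompactSupport fun z =>
      (fderiv ℝ (rho : E n → ℝ) z (Pi.single k 1)) • g z := fun g =>
    (rho_supp.fderiv ℝ).mono fun z hz h => hz (by
      change (fderiv ℝ (rho : E n → ℝ) z _) • _ = 0
      rw [show fderiv ℝ (rho : E n → ℝ) z = 0 from h]; exact zero_smul _ _)
  have hr : Continuous fun z : E n => fderiv ℝ (rho : E n → ℝ) z (Pi.single k 1) :=
    (rho_smooth.continuous_fderiv (by simp)).clm_apply continuous_const
  have hdk : Continuous fun z : E n => fderiv ℝ (fun z : E n => f (x - ε • z)) z (Pi.single k 1) :=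
    (hU.continuous_fderiv (by simp)).clm_apply continuous_const
  have key := integral_smul_fderiv_eq_neg_fderiv_smul_of_integrable
    (μ := (volume : Measure (E n))) (v := Pi.single k 1)
    (f := (rho : E n → ℝ)) (g := fun z : E n => f (x - ε • z))
    ((hr.smul hU.continuous).integrable_of_hasCompactSupport (hs2 _))
    ((rho_smooth.continuous.smul hdk).integrable_of_hasCompactSupport (hs _))
    ((rho_smooth.continuous.smul hU.continuous).integrable_of_hasCompactSupport (hs _))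
    (fun z _ => rho_smooth.differentiable (by simp) z)
    (fun z _ => hU.differentiable (by simp) z)
  simp only [hdU] at key
  have e : mol ε (dk k f) x = -(ε⁻¹ • ∫ z : E n, rho z • -(ε • dk k f (x - ε • z))) := by
    rw [mol, ← integral_smul, ← integral_neg]
    refine integral_congr_ae (Filter.Eventually.of_forall fun z => ?_)
    simp only [smul_neg, neg_neg]
    rw [smul_comm ε⁻¹ (rho z), inv_smul_smul₀ hε.ne']
  rw [e, key, smul_neg, neg_neg, ← integral_smul]

omit [CompleteSpace V] in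
theorem dk_mol_le {ε : ℝ} (hε : 0 < ε) {f : E n → V} (hf : ContDiff ℝ ∞ f)
    (hc : HasCompactSupport f) (k : Fin n) (x : E n) :
    ‖dk k (mol ε f) x‖ₑ ≤ ENNReal.ofReal ε⁻¹ * ∫⁻ z : E n, kap z * ‖f (x - ε • z)‖ₑ := by
  have h1 : dk k (mol ε f) x = mol ε (dk k f) x := mol_fderiv hε (hf.of_le (by simp)) hc x _
  rw [h1, dk_mol_eq hε hf]
  refine (enorm_integral_le_lintegral_enorm _).trans ?_
  have hm : Measurable fun z : E n => kap z * ‖f (x - ε • z)‖ₑ := kap_meas.mul
    (hf.continuous.comp (f := fun z : E n => x - ε • z) (by fun_prop)).enorm.measurable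
  rw [← lintegral_const_mul _ hm]
  refine lintegral_mono fun z => ?_
  rw [enorm_smul, enorm_smul, Real.enorm_of_nonneg (inv_pos.2 hε).le]
  gcongr
  rw [← ofReal_norm, kap]
  refine ENNReal.ofReal_le_ofReal ?_
  refine ((fderiv ℝ (rho : E n → ℝ) z).le_opNorm _).trans ?_
  rw [norm_single, mul_one]
  exact le_add_of_nonneg_right (rho_nonneg z)

/-- mollification converges uniformly -/
theorem mol_lip {f : E n → V} (hf : ContDiff ℝ ∞ f) (hc : HasCompactSupport f) :
    ∃ L : ℝ, 0 ≤ L ∧ ∀ ε : ℝ, 0 < ε → ∀ x, ‖mol ε f x - f x‖ ≤ ε * L := by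
  obtain ⟨L, hL⟩ := ContDiff.lipschitzWith_of_hasCompactSupport hc hf (by simp)
  refine ⟨L, L.2, fun ε hε x => ?_⟩
  have e : mol ε f x - f x = ∫ z : E n, rho z • (f (x - ε • z) - f x) := by
    have h1 : f x = ∫ z : E n, rho z • f x := by
      rw [integral_smul_const, rho_int, one_smul]
    conv_lhs => rw [h1]
    rw [mol, ← integral_sub (mol_int hf.continuous ε x) (rho_integrable.smul_const _)]
    exact integral_congr_ae (Filter.Eventually.of_forall fun z => (smul_sub _ _ _).symm)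
  rw [e]
  refine (norm_integral_le_of_norm_le (rho_integrable.mul_const (ε * L))
    (Filter.Eventually.of_forall fun z => ?_)).trans ?_
  · rw [norm_smul, Real.norm_eq_abs, abs_of_nonneg (rho_nonneg z)]
    by_cases hz : 1 ≤ ‖z‖
    · rw [rho_zero hz]; simp
    · refine mul_le_mul_of_nonneg_left ?_ (rho_nonneg z)
      have := hL.dist_le_mul (x - ε • z) x
      rw [dist_eq_norm, dist_eq_norm] at this
      refine this.trans ?_
      have h2 : ‖x - ε • z - x‖ = ε * ‖z‖ := by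
        rw [sub_sub_cancel_left, norm_neg, norm_smul, Real.norm_eq_abs, abs_of_pos hε]
      rw [h2]
      have h3 : ε * ‖z‖ ≤ ε := by nlinarith [not_le.1 hz]
      calc (L : ℝ) * (ε * ‖z‖) ≤ L * ε := mul_le_mul_of_nonneg_left h3 L.2
        _ = _ := mul_comm _ _
  · rw [integral_mul_const, rho_int, one_mul]


omit [NormedSpace ℂ V] [CompleteSpace V] in
theorem dom_bound {f u : E n → V} (hu : Continuous u) {R c ε : ℝ}
    (h : ∀ x, ‖f x‖ₑ ≤ ENNReal.ofReal c * ∫⁻ z : E n, kap z * trR R u (x - ε • z)) :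
    ∫⁻ x, ‖f x‖ₑ ^ 2 ≤ (ENNReal.ofReal c * ∫⁻ z : E n, kap z) ^ 2 *
      ∫⁻ y in Metric.ball (0 : E n) R, ‖u y‖ₑ ^ 2 := by
  calc ∫⁻ x, ‖f x‖ₑ ^ 2
      ≤ ∫⁻ x, ENNReal.ofReal c ^ 2 * (∫⁻ z : E n, kap z * trR R u (x - ε • z)) ^ 2 := by
        refine lintegral_mono fun x => ?_
        rw [← mul_pow]
        exact pow_le_pow_left' (h x) 2
    _ = ENNReal.ofReal c ^ 2 * ∫⁻ x, (∫⁻ z : E n, kap z * trR R u (x - ε • z)) ^ 2 := by
        refine lintegral_const_mul _ (Measurable.pow_const ?_ 2)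
        exact Measurable.lintegral_prod_right' (f := fun p : E n × E n =>
          kap p.2 * trR R u (p.1 - ε • p.2))
          ((kap_meas.comp measurable_snd).mul ((trR_meas hu).comp (by fun_prop)))
    _ ≤ ENNReal.ofReal c ^ 2 * ((∫⁻ z : E n, kap z) ^ 2 * ∫⁻ y, trR R u y ^ 2) := by
        gcongr
        exact avg_sq_le _ _ kap_meas.aemeasurable (trR_meas hu) ε
    _ = _ := by rw [trR_int]; ring

/-- local operators on smooth sections -/
structure LocOp (m : (E n → V) → E n → V) (C : ℝ) : Prop where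
  smooth : ∀ u, ContDiff ℝ ∞ u → ContDiff ℝ ∞ (m u)
  supp : ∀ u, ContDiff ℝ ∞ u → ∀ y, 4 ≤ ‖y‖ → m u y = 0
  add : ∀ u v, ContDiff ℝ ∞ u → ContDiff ℝ ∞ v → ∀ y,
    m (fun y => u y + v y) y = m u y + m v y
  smul : ∀ (c : ℂ) u, ContDiff ℝ ∞ u → ∀ y, m (fun y => c • u y) y = c • m u y
  nonneg : 0 ≤ C
  bound : ∀ u, ContDiff ℝ ∞ u → ∫⁻ y, ‖m u y‖ₑ ^ 2 ≤
    ENNReal.ofReal C * ∫⁻ y in Metric.ball (0 : E n) 4, ‖u y‖ₑ ^ 2

/-- `∫ kap` -/
noncomputable def kk (n : ℕ) : ℝ := (∫⁻ z : E n, kap z).toReal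

theorem ofReal_kk (c : ℝ) (hc : 0 ≤ c) : (ENNReal.ofReal c * ∫⁻ z : E n, kap z) ^ 2 =
    ENNReal.ofReal ((c * kk n) ^ 2) := by
  rw [kk, ENNReal.ofReal_pow (by positivity), ENNReal.ofReal_mul hc,
    ENNReal.ofReal_toReal kap_lt.ne]

omit [NormedSpace ℂ V] [CompleteSpace V] in
theorem dom_bound' {f u : E n → V} (hu : Continuous u) {R c ε : ℝ} (hc : 0 ≤ c) (hR : R ≤ 4)
    (h : ∀ x, ‖f x‖ₑ ≤ ENNReal.ofReal c * ∫⁻ z : E n, kap z * trR R u (x - ε • z)) :
    ∫⁻ x, ‖f x‖ₑ ^ 2 ≤ ENNReal.ofReal ((c * kk n) ^ 2) *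
      ∫⁻ y in Metric.ball (0 : E n) 4, ‖u y‖ₑ ^ 2 := by
  refine (dom_bound hu h).trans ?_
  rw [ofReal_kk c hc]
  gcongr

omit [CompleteSpace V] in
theorem mol_smul (c : ℂ) (f : E n → V) (ε : ℝ) (x : E n) :
    mol ε (fun y => c • f y) x = c • mol ε f x := by
  unfold mol
  rw [← integral_smul]
  exact integral_congr_ae (Filter.Eventually.of_forall fun z => smul_comm _ _ _)

omit [CompleteSpace V] in
theorem contDiff_ap {A : E n → V →L[ℂ] V} {f : E n → V} (hA : ContDiff ℝ ∞ A)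
    (hf : ContDiff ℝ ∞ f) : ContDiff ℝ ∞ fun y => A y (f y) :=
  ((Bop V).contDiff.comp hA).clm_apply hf

omit [CompleteSpace V] in
theorem contDiff_dirF {A : Fin n → E n → V →L[ℂ] V} {B : E n → V →L[ℂ] V}
    (hA : ∀ k, ContDiff ℝ ∞ (A k)) (hB : ContDiff ℝ ∞ B) {u : E n → V} (hu : ContDiff ℝ ∞ u) :
    ContDiff ℝ ∞ (dirF A B u) := by
  unfold dirF
  refine (ContDiff.sum fun k _ => ?_).add (contDiff_ap hB hu)
  refine contDiff_ap (hA k) ?_
  exact (hu.fderiv_right (m := ∞) (by simp)).clm_apply contDiff_const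

omit [CompleteSpace V] in
theorem dk_add {u v : E n → V} (hu : ContDiff ℝ ∞ u) (hv : ContDiff ℝ ∞ v) (k : Fin n) (y : E n) :
    dk k (fun y => u y + v y) y = dk k u y + dk k v y := by
  unfold dk
  have : fderiv ℝ (fun y => u y + v y) y = fderiv ℝ u y + fderiv ℝ v y :=
    fderiv_add (hu.differentiable (by simp) y) (hv.differentiable (by simp) y)
  rw [this]; rfl

omit [CompleteSpace V] in
theorem dk_csmul (c : ℂ) {u : E n → V} (hu : ContDiff ℝ ∞ u) (k : Fin n) (y : E n) :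
    dk k (fun y => c • u y) y = c • dk k u y := by
  unfold dk
  have : fderiv ℝ (fun y => c • u y) y = c • fderiv ℝ u y :=
    fderiv_const_smul (hu.differentiable (by simp) y) c
  rw [this]; rfl

omit [CompleteSpace V] in
theorem dirF_add {A : Fin n → E n → V →L[ℂ] V} {B : E n → V →L[ℂ] V} {u v : E n → V}
    (hu : ContDiff ℝ ∞ u) (hv : ContDiff ℝ ∞ v) (y : E n) :
    dirF A B (fun y => u y + v y) y = dirF A B u y + dirF A B v y := by
  unfold dirF
  simp only [dk_add hu hv, map_add, Finset.sum_add_distrib]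
  abel

omit [CompleteSpace V] in
theorem dirF_smul {A : Fin n → E n → V →L[ℂ] V} {B : E n → V →L[ℂ] V} (c : ℂ) {u : E n → V}
    (hu : ContDiff ℝ ∞ u) (y : E n) :
    dirF A B (fun y => c • u y) y = c • dirF A B u y := by
  unfold dirF
  simp only [dk_csmul c hu, map_smul, smul_add, Finset.smul_sum]

omit [CompleteSpace V] in
theorem dirF_zero {A : Fin n → E n → V →L[ℂ] V} {B : E n → V →L[ℂ] V} {u : E n → V} {y : E n}
    (h : u =ᶠ[nhds y] fun _ => 0) : dirF A B u y = 0 := by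
  unfold dirF dk
  rw [h.fderiv_eq, h.self_of_nhds]
  simp

end Vale.Agent.P223.H191
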