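import Vale.Agent.P223.H850.W
import Mathlib.Analysis.Calculus.DerivativeTest
import Vale.Agent.P223.H850.Sqrt

/-! The maximum principle for invariant functions on `X`. -/

namespace Vale.Agent.P223.H191

open scoped ContDiff Topology
open MeasureTheory Vale.Agent.P223.H Vale.Agent.P223.X

theorem deriv2_min {f : ℝ → ℝ} (hf : ContinuousAt f 0) (h : IsLocalMin f 0) :
    0 ≤ deriv (deriv f) 0 := by
  by_contra hc
  have h1 : IsLocalMax f 0 :=
    isLocalMax_of_deriv_deriv_neg (not_le.1 hc) h.deriv_eq_zero hf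
  have h2 : f =ᶠ[𝓝 0] fun _ => f 0 := by
    filter_upwards [h, h1] with x hx hx'
    exact le_antisymm hx' hx
  have h3 : deriv f =ᶠ[𝓝 0] fun _ => 0 := by
    have := h2.deriv
    filter_upwards [this] with x hx
    rw [hx, deriv_const]
  have h4 : deriv (deriv f) 0 = 0 := by
    rw [h3.deriv_eq, deriv_const]
  exact hc h4.ge

variable {n : ℕ}

theorem hess_min {f : E n → ℝ} (hf : ContDiff ℝ 2 f) {y : E n} (h : IsLocalMin f y) (v : E n) :
    0 ≤ ∑ i, ∑ j, v i * v j * H.pd i (fun z => H.pd j f z) y := by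
  have hline : ∀ t : ℝ, HasDerivAt (fun t : ℝ => y + t • v) v t := fun t => by
    simpa using ((hasDerivAt_id t).smul_const v).const_add y
  have hd : Differentiable ℝ f := hf.differentiable (by simp)
  have hv : ∀ (F : E n → ℝ) (z : E n), fderiv ℝ F z v = ∑ j, v j * H.pd j F z := by
    intro F z
    conv_lhs => rw [← Finset.univ_sum_single v]
    rw [map_sum]
    refine Finset.sum_congr rfl fun j _ => ?_
    have : (Pi.single j (v j) : E n) = v j • Pi.single j (1 : ℝ) := by
      rw [← Pi.single_smul, smul_eq_mul, mul_one]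
    rw [this, map_smul, smul_eq_mul]
    rfl
  have h1 : ∀ t : ℝ, HasDerivAt (fun t : ℝ => f (y + t • v)) (fderiv ℝ f (y + t • v) v) t :=
    fun t => ((hd (y + t • v)).hasFDerivAt.comp_hasDerivAt t (hline t))
  have e1 : deriv (fun t : ℝ => f (y + t • v)) = fun t => ∑ j, v j * H.pd j f (y + t • v) := by
    funext t
    rw [(h1 t).deriv, hv]
  have hpd : ∀ j, Differentiable ℝ (fun z => H.pd j f z) := fun j =>
    (Bridge.contDiff_pd hf (k := 1) (by norm_num) j).differentiable one_ne_zero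
  have h2 : HasDerivAt (fun t : ℝ => ∑ j, v j * H.pd j f (y + t • v))
      (∑ j, v j * fderiv ℝ (fun z => H.pd j f z) (y + (0 : ℝ) • v) v) 0 := by
    refine HasDerivAt.fun_sum fun j _ => ?_
    exact ((hpd j (y + (0 : ℝ) • v)).hasFDerivAt.comp_hasDerivAt (0 : ℝ) (hline 0)).const_mul _
  have e2 : deriv (deriv (fun t : ℝ => f (y + t • v))) 0 =
      ∑ i, ∑ j, v i * v j * H.pd i (fun z => H.pd j f z) y := by
    rw [e1, h2.deriv, Finset.sum_comm]
    refine Finset.sum_congr rfl fun j _ => ?_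
    rw [zero_smul, add_zero, hv, Finset.mul_sum]
    exact Finset.sum_congr rfl fun i _ => by ring
  rw [← e2]
  refine deriv2_min ?_ ?_
  · exact (h1 0).continuousAt
  · have hc : ContinuousAt (fun t : ℝ => y + t • v) 0 := (hline 0).continuousAt
    have : Filter.Tendsto (fun t : ℝ => y + t • v) (𝓝 0) (𝓝 y) := by
      have := hc.tendsto
      simpa using this
    have h3 := this.eventually h
    filter_upwards [h3] with t ht
    simpa using ht

/-- the Laplacian is nonnegative at a local minimum -/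
theorem lap_min {G : E n → Matrix (Fin n) (Fin n) ℝ} (hp : ∀ x, (G x).PosDef) {f : E n → ℝ}
    (hf : ContDiff ℝ 2 f) {y : E n} (h : IsLocalMin f y) : 0 ≤ lap G f y := by
  have h0 : ∀ k, H.pd k f y = 0 := by
    intro k
    change fderiv ℝ f y _ = 0
    rw [h.fderiv_eq_zero]; rfl
  have hP := (hp y).inv
  set B := H850.rt (G y)⁻¹ with hB
  have hBB : B * B = (G y)⁻¹ := H850.rt_mul hP
  have hBt : Matrix.transpose B = B := H850.rt_symm hP
  unfold lap
  simp only [h0, mul_zero, Finset.sum_const_zero, sub_zero]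
  have e : ∀ i j, (G y)⁻¹ i j = ∑ a, B a i * B a j := by
    intro i j
    rw [← hBB]
    conv_lhs => rw [← hBt]
    rw [hBt, Matrix.mul_apply]
    refine Finset.sum_congr rfl fun a _ => ?_
    rw [show B a i = Matrix.transpose B i a from rfl, hBt]
  simp only [e]
  have e2 : ∑ i, ∑ j, (∑ a, B a i * B a j) * H.pd i (fun y => H.pd j f y) y =
      ∑ a, ∑ i, ∑ j, B a i * B a j * H.pd i (fun y => H.pd j f y) y := by
    simp only [Finset.sum_mul]
    calc ∑ i, ∑ j, ∑ a, B a i * B a j * H.pd i (fun y => H.pd j f y) y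
        = ∑ i, ∑ a, ∑ j, B a i * B a j * H.pd i (fun y => H.pd j f y) y :=
          Finset.sum_congr rfl fun i _ => Finset.sum_comm
      _ = _ := Finset.sum_comm
  rw [e2]
  exact Finset.sum_nonneg fun a _ => hess_min hf h fun i => B a i

variable {M X Γ I : Type} [TopologicalSpace M] [TopologicalSpace X] [Group Γ]
    [MulAction Γ X] {C : Cov n M X Γ I} {G : I → E n → Matrix (Fin n) (Fin n) ℝ}

/-- invariant continuous functions attain their minimum -/
theorem exists_min [Finite I] [Nonempty X] {u : X → ℝ} (hc : Continuous u)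
    (hi : ∀ (γ : Γ) x, u (γ • x) = u x) (C : Cov n M X Γ I) : ∃ x₀, ∀ x, u x₀ ≤ u x := by
  have hK := Bas3.isCompact_core C 1
  have hne : (⋃ i, C.ψ i '' {y : E n | ‖y‖ ≤ 1}).Nonempty := by
    obtain ⟨x⟩ := ‹Nonempty X›
    obtain ⟨γ, i, y, hy, -⟩ := C.cover x
    exact ⟨C.ψ i y, Set.mem_iUnion.2 ⟨i, y, (pi_norm_le_iff_of_nonneg zero_le_one).2 fun k =>
      (hy k).le, rfl⟩⟩
  obtain ⟨x₀, -, h⟩ := hK.exists_isMinOn hne hc.continuousOn
  refine ⟨x₀, fun x => ?_⟩
  obtain ⟨γ, i, y, hy, rfl⟩ := C.cover x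
  rw [hi]
  exact h (Set.mem_iUnion.2 ⟨i, y, (pi_norm_le_iff_of_nonneg zero_le_one).2 fun k =>
      (hy k).le, rfl⟩)

theorem lapX_min (hG : MetX C G) {u : X → ℝ} (hu : C.Ck 2 u) {x₀ : X} (h : ∀ x, u x₀ ≤ u x) :
    0 ≤ lapX C G u x₀ := by
  obtain ⟨γ, i, y, -, rfl⟩ := C.cover x₀
  rw [Vale.Agent.P223.X.lapX_eq hG hu]
  refine lap_min (hG.pos i) (hu γ i) ?_
  exact Filter.Eventually.of_forall fun z => h _

/-- maximum principle -/
theorem max_principle [Finite I] [Nonempty X] (hG : MetX C G) {u : X → ℝ} (hu : C.Ck 2 u)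
    (hi : ∀ (γ : Γ) x, u (γ • x) = u x) {K δ : ℝ} (hK : 0 < K)
    (h : ∀ x, δ ≤ K * u x - lapX C G u x) (x : X) : δ / K ≤ u x := by
  have hc : Continuous u := Bas3.Ck_continuous C fun γ i => (hu γ i).of_le (by simp)
  obtain ⟨x₀, h0⟩ := exists_min hc hi C
  have h1 := lapX_min hG hu h0
  have h2 := h x₀
  refine le_trans ?_ (h0 x)
  rw [div_le_iff₀ hK]
  linarith

end Vale.Agent.P223.H191
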