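import Vale.Agent.P223.H566.Def
import Mathlib.Analysis.Calculus.ContDiff.Convolution
import Mathlib.Analysis.Calculus.BumpFunction.Convolution
import Mathlib.Analysis.Calculus.BumpFunction.FiniteDimension
import Mathlib.MeasureTheory.Integral.MeanInequalities

/-! Mollifiers on `ℝ^n`. -/

namespace Vale.Agent.P223.H191

open scoped ContDiff ENNReal Convolution
open MeasureTheory Vale.Agent.P223.H

variable {n : ℕ}

/-- Schur test for averages of translates. -/
theorem avg_sq_le (κ f : E n → ℝ≥0∞) (hκ : AEMeasurable κ) (hf : Measurable f) (ε : ℝ) :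
    ∫⁻ x : E n, (∫⁻ z : E n, κ z * f (x - ε • z)) ^ 2 ≤
      (∫⁻ z : E n, κ z) ^ 2 * ∫⁻ x : E n, f x ^ 2 := by
  have hm : Measurable fun p : E n × E n => f (p.1 - ε • p.2) := by fun_prop
  have h1 : ∀ x : E n, (∫⁻ z : E n, κ z * f (x - ε • z)) ^ 2 ≤
      (∫⁻ z : E n, κ z) * ∫⁻ z : E n, κ z * f (x - ε • z) ^ 2 := by
    intro x
    have hg : AEMeasurable (fun z : E n => κ z ^ (1 / 2 : ℝ)) := hκ.pow_const _
    have hh : AEMeasurable (fun z : E n => κ z ^ (1 / 2 : ℝ) * f (x - ε • z)) :=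
      hg.mul (by fun_prop)
    have h := ENNReal.lintegral_mul_le_Lp_mul_Lq (volume : Measure (E n))
      Real.HolderConjugate.two_two hg hh
    have e1 : ∀ z : E n, ((fun z : E n => κ z ^ (1 / 2 : ℝ)) *
        (fun z : E n => κ z ^ (1 / 2 : ℝ) * f (x - ε • z))) z = κ z * f (x - ε • z) := by
      intro z
      rw [Pi.mul_apply, ← mul_assoc, ← ENNReal.rpow_add_of_nonneg _ _ (by norm_num) (by norm_num)]
      norm_num
    have e2 : ∀ z : E n, (κ z ^ (1 / 2 : ℝ)) ^ (2 : ℝ) = κ z := by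
      intro z; rw [← ENNReal.rpow_mul]; norm_num
    have e3 : ∀ z : E n, (κ z ^ (1 / 2 : ℝ) * f (x - ε • z)) ^ (2 : ℝ) =
        κ z * f (x - ε • z) ^ 2 := by
      intro z
      rw [ENNReal.mul_rpow_of_nonneg _ _ (by norm_num), e2, ENNReal.rpow_two]
    simp only [e1, e2, e3] at h
    calc (∫⁻ z : E n, κ z * f (x - ε • z)) ^ 2
        ≤ ((∫⁻ z : E n, κ z) ^ (1 / 2 : ℝ) *
          (∫⁻ z : E n, κ z * f (x - ε • z) ^ 2) ^ (1 / 2 : ℝ)) ^ 2 := by gcongr
      _ = _ := by
        rw [mul_pow, ← ENNReal.rpow_natCast, ← ENNReal.rpow_natCast, ← ENNReal.rpow_mul,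
          ← ENNReal.rpow_mul]
        norm_num
  calc ∫⁻ x : E n, (∫⁻ z : E n, κ z * f (x - ε • z)) ^ 2
      ≤ ∫⁻ x : E n, (∫⁻ z : E n, κ z) * ∫⁻ z : E n, κ z * f (x - ε • z) ^ 2 :=
        lintegral_mono h1
    _ ≤ (∫⁻ z : E n, κ z) * ∫⁻ x : E n, ∫⁻ z : E n, κ z * f (x - ε • z) ^ 2 := by
        rw [lintegral_const_mul'']
        exact (AEMeasurable.lintegral_prod_right' (f := fun p : E n × E n =>
          κ p.2 * f (p.1 - ε • p.2) ^ 2)
          ((hκ.comp_quasiMeasurePreserving Measure.quasiMeasurePreserving_snd).mul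
            (hm.pow_const 2).aemeasurable))
    _ = (∫⁻ z : E n, κ z) * ∫⁻ z : E n, ∫⁻ x : E n, κ z * f (x - ε • z) ^ 2 := by
        rw [lintegral_lintegral_swap]
        exact ((hκ.comp_quasiMeasurePreserving Measure.quasiMeasurePreserving_snd).mul
            (hm.pow_const 2).aemeasurable)
    _ = (∫⁻ z : E n, κ z) * ∫⁻ z : E n, κ z * ∫⁻ x : E n, f x ^ 2 := by
        congr 1
        refine lintegral_congr fun z => ?_
        rw [lintegral_const_mul _ (by fun_prop),
          lintegral_sub_right_eq_self (fun x => f x ^ 2) (ε • z)]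
    _ = _ := by
        rw [lintegral_mul_const'' _ hκ, sq, mul_assoc]


/-! ## the kernel -/

/-- a bump function -/
noncomputable def bmp (n : ℕ) : ContDiffBump (0 : E n) := ⟨1 / 2, 1, by norm_num, by norm_num⟩

/-- the mollification kernel -/
noncomputable def rho (z : E n) : ℝ := (bmp n).normed volume z

theorem rho_smooth : ContDiff ℝ ∞ (rho : E n → ℝ) := (bmp n).contDiff_normed

theorem rho_nonneg (z : E n) : 0 ≤ rho z := (bmp n).nonneg_normed z

theorem rho_neg (z : E n) : rho (-z) = rho z := (bmp n).normed_neg z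

theorem rho_int : ∫ z : E n, rho z = 1 := (bmp n).integral_normed

theorem rho_supp : HasCompactSupport (rho : E n → ℝ) := (bmp n).hasCompactSupport_normed

theorem rho_tsupp : tsupport (rho : E n → ℝ) = Metric.closedBall 0 1 := (bmp n).tsupport_normed_eq

theorem rho_zero {z : E n} (h : 1 ≤ ‖z‖) : rho z = 0 := by
  by_contra h'
  have : z ∈ Function.support (rho : E n → ℝ) := h'
  have h2 : Function.support (rho : E n → ℝ) = Metric.ball 0 1 := (bmp n).support_normed_eq
  rw [h2, mem_ball_zero_iff] at this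
  linarith

theorem rho_integrable : Integrable (rho : E n → ℝ) := (bmp n).integrable_normed

section mol
variable {V : Type} [NormedAddCommGroup V] [NormedSpace ℝ V]

/-- mollification at the scale `ε` -/
noncomputable def mol (ε : ℝ) (u : E n → V) (x : E n) : V := ∫ z, rho z • u (x - ε • z)

/-- the scaled kernel -/
noncomputable def rhoe (ε : ℝ) (z : E n) : ℝ := |(ε ^ n)⁻¹| * rho (ε⁻¹ • z)

theorem rhoe_smooth (ε : ℝ) : ContDiff ℝ ∞ (rhoe ε : E n → ℝ) :=
  contDiff_const.mul (rho_smooth.comp (contDiff_id.const_smul ε⁻¹))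

theorem rhoe_supp {ε : ℝ} (hε : 0 < ε) : HasCompactSupport (rhoe ε : E n → ℝ) := by
  refine HasCompactSupport.of_support_subset_isCompact
    (isCompact_closedBall (0 : E n) ε) fun z hz => ?_
  rw [mem_closedBall_zero_iff]
  by_contra h
  refine hz ?_
  have : rho (ε⁻¹ • z) = 0 := by
    refine rho_zero ?_
    rw [norm_smul, norm_inv, Real.norm_eq_abs, abs_of_pos hε, ← div_eq_inv_mul, one_le_div hε]
    exact (not_le.1 h).le
  rw [rhoe, this, mul_zero]

theorem mol_eq_conv {ε : ℝ} (hε : 0 < ε) (u : E n → V) :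
    mol ε u = (rhoe ε) ⋆[ContinuousLinearMap.lsmul ℝ ℝ, volume] u := by
  funext x
  rw [mol, convolution_def]
  have h := Measure.integral_comp_smul (volume : Measure (E n))
    (fun w => rho (ε⁻¹ • w) • u (x - w)) ε
  have h2 : ∀ z : E n, rho z • u (x - ε • z) = rho (ε⁻¹ • (ε • z)) • u (x - ε • z) := by
    intro z; rw [inv_smul_smul₀ hε.ne']
  rw [integral_congr_ae (Filter.Eventually.of_forall h2)]
  rw [h, ← integral_smul]
  refine integral_congr_ae (Filter.Eventually.of_forall fun w => ?_)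
  simp only [ContinuousLinearMap.lsmul_apply, rhoe, smul_smul]
  rw [Module.finrank_fin_fun]

theorem mol_smooth {ε : ℝ} (hε : 0 < ε) {u : E n → V} (hu : Continuous u) :
    ContDiff ℝ ∞ (mol ε u) := by
  rw [mol_eq_conv hε]
  exact (rhoe_supp hε).contDiff_convolution_left _ (rhoe_smooth ε) hu.locallyIntegrable

theorem mol_fderiv {ε : ℝ} (hε : 0 < ε) {u : E n → V} (hu : ContDiff ℝ 1 u)
    (hc : HasCompactSupport u) (x v : E n) :
    fderiv ℝ (mol ε u) x v = mol ε (fun y => fderiv ℝ u y v) x := by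
  have h1 := hc.hasFDerivAt_convolution_right (ContinuousLinearMap.lsmul ℝ ℝ)
    (μ := (volume : Measure (E n))) (rhoe_smooth ε).continuous.locallyIntegrable hu x
  rw [mol_eq_conv hε, h1.fderiv, mol_eq_conv hε]
  exact convolution_precompR_apply (L := ContinuousLinearMap.lsmul ℝ ℝ)
    (rhoe_smooth ε).continuous.locallyIntegrable (hc.fderiv ℝ) (hu.continuous_fderiv one_ne_zero) x v

theorem mol_zero {ε R : ℝ} (hε : 0 < ε) {u : E n → V} (hu : ∀ y, R ≤ ‖y‖ → u y = 0) {x : E n}
    (hx : R + ε ≤ ‖x‖) : mol ε u x = 0 := by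
  rw [mol, ← integral_zero (E n) V]
  refine integral_congr_ae (Filter.Eventually.of_forall fun z => ?_)
  by_cases hz : 1 ≤ ‖z‖
  · change rho z • _ = 0
    rw [rho_zero hz, zero_smul]
  · change rho z • u (x - ε • z) = 0
    rw [hu (x - ε • z), smul_zero]
    have h1 : ‖x‖ - ‖ε • z‖ ≤ ‖x - ε • z‖ := norm_sub_norm_le _ _
    rw [norm_smul, Real.norm_eq_abs, abs_of_pos hε] at h1
    nlinarith [not_le.1 hz]

omit [NormedSpace ℝ V] in
theorem shift_tsupport {ε : ℝ} {x z : E n} (u : E n → V)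
    (h : z ∈ tsupport fun z => u (x - ε • z)) : x - ε • z ∈ tsupport u := by
  have hc : Continuous fun z : E n => x - ε • z := by fun_prop
  exact (tsupport_comp_subset_preimage u hc) h

end mol

end Vale.Agent.P223.H191
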