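import Vale.Agent.P223.H66.S3
import Vale.Agent.P223.X.ConfX

/-! Stage 2 : scaling of the metric. -/

namespace Vale.Agent.P223.H191

open scoped ContDiff
open MeasureTheory Vale.Agent.P223.H Vale.Agent.P223.X Vale.Agent.P223.H66

section
variable {n : ℕ}

theorem smul_eq_confm {κ : ℝ} (hκ : 0 < κ) (G : E n → Matrix (Fin n) (Fin n) ℝ) :
    (fun z => κ • G z) = confm (fun _ => Real.log κ / 2) G := by
  funext z
  unfold confm
  rw [show 2 * (Real.log κ / 2) = Real.log κ by ring, Real.exp_log hκ]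

theorem exp_half_log {κ : ℝ} (hκ : 0 < κ) (n : ℕ) :
    Real.exp (n * (Real.log κ / 2)) = κ ^ ((n : ℝ) / 2) := by
  rw [Real.rpow_def_of_pos hκ]
  congr 1
  ring

theorem dens_smul {κ : ℝ} (hκ : 0 < κ) (G : E n → Matrix (Fin n) (Fin n) ℝ) (z : E n) :
    Vale.Agent.P223.H.dens (fun z => κ • G z) z =
      κ ^ ((n : ℝ) / 2) * Vale.Agent.P223.H.dens G z := by
  rw [smul_eq_confm hκ, Conf.confm_dens, exp_half_log hκ]

theorem gradSq_smul {κ : ℝ} (hκ : 0 < κ) {G : E n → Matrix (Fin n) (Fin n) ℝ} {z : E n}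
    (hp : (G z).PosDef) (u : E n → ℝ) :
    gradSq (fun z => κ • G z) u z = κ⁻¹ * gradSq G u z := by
  unfold gradSq gradIp
  have h : (κ • G z)⁻¹ = κ⁻¹ • (G z)⁻¹ := by
    have hd : IsUnit (G z).det := (hp.det_pos.ne').isUnit
    refine Matrix.inv_eq_left_inv ?_
    rw [Matrix.smul_mul, Matrix.mul_smul, Matrix.nonsing_inv_mul _ hd, smul_smul,
      inv_mul_cancel₀ hκ.ne', one_smul]
  simp only [h, Matrix.smul_apply, smul_eq_mul, Finset.mul_sum]
  exact Finset.sum_congr rfl fun i _ => Finset.sum_congr rfl fun j _ => by ring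

theorem scal_smul {κ : ℝ} (hκ : 0 < κ) {G : E n → Matrix (Fin n) (Fin n) ℝ}
    (hs : ∀ i j, ContDiff ℝ ∞ (fun x => G x i j)) (hp : ∀ x, (G x).PosDef) (z : E n) :
    Vale.Agent.P223.H.scal (fun z => κ • G z) z = κ⁻¹ * Vale.Agent.P223.H.scal G z := by
  have h0 := ConfScal.main n G hs hp (fun _ => Real.log κ / 2) contDiff_const z
  have h1 : ∀ (i : Fin n) (c : ℝ) (x : E n), Vale.Agent.P223.H.pd i (fun _ : E n => c) x = 0 := by
    intro i c x
    unfold Vale.Agent.P223.H.pd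
    simp
  have h2 : lap G (fun _ => Real.log κ / 2) z = 0 := by
    unfold lap
    simp [h1]
  have h3 : gradSq G (fun _ => Real.log κ / 2) z = 0 := by
    unfold gradSq gradIp
    simp [h1]
  rw [h2, h3, show 2 * (Real.log κ / 2) = Real.log κ by ring, Real.exp_log hκ,
    ← smul_eq_confm hκ] at h0
  rw [eq_inv_mul_iff_mul_eq₀ hκ.ne', h0]
  ring

end

section
variable {n : ℕ} {M X Γ I : Type} [TopologicalSpace M] [TopologicalSpace X] [Group Γ]
    [MulAction Γ X] {C : Cov n M X Γ I} {G : I → E n → Matrix (Fin n) (Fin n) ℝ}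

theorem met_smul (hG : MetX C G) {κ : ℝ} (hκ : 0 < κ) : MetX C (fun i z => κ • G i z) := by
  have h : (fun i z => κ • G i z) =
      fun i => confm (C.rep (fun _ => Real.log κ / 2) 1 i) (G i) := by
    funext i
    exact smul_eq_confm hκ (G i)
  rw [h]
  exact ConfX.confm_met hG (fun _ _ => contDiff_const) fun _ _ => rfl

theorem gsX_smul (hG : MetX C G) {κ : ℝ} (hκ : 0 < κ) (u : X → ℝ) (x : X) :
    gsX C (fun i z => κ • G i z) u x = κ⁻¹ * gsX C G u x := by
  unfold gsX Cov.gl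
  exact gradSq_smul hκ (hG.pos _ _) _

theorem scX_smul (hG : MetX C G) {κ : ℝ} (hκ : 0 < κ) (x : X) :
    scX C (fun i z => κ • G i z) x = κ⁻¹ * scX C G x :=
  scal_smul hκ (hG.smooth _) (hG.pos _) _

end

theorem specScl : SpecScl := by
  intro n M X Γ I _ _ _ _ _ _ _ _ _ _ C G χ μ κ y hn hG hV hκ hs hy
  have hn' : (3 : ℝ) ≤ n := by exact_mod_cast hn
  have hp0 : (0 : ℝ) < κ ^ ((n : ℝ) / 2) := Real.rpow_pos_of_pos hκ _
  refine ⟨ENNReal.ofReal (κ ^ ((n : ℝ) / 2)) • μ, met_smul hG hκ, ?_, ?_, ?_, ?_⟩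
  · intro γ i B hB
    rw [Measure.smul_apply, hV γ i B hB, smul_eq_mul,
      ← lintegral_const_mul' _ _ ENNReal.ofReal_ne_top]
    refine lintegral_congr fun z => ?_
    rw [dens_smul hκ, ENNReal.ofReal_mul hp0.le]
  · intro i z
    rw [scal_smul hκ (hG.smooth i) (hG.pos i)]
    have := mul_le_mul_of_nonneg_left (hs i z) (inv_nonneg.2 hκ.le)
    rwa [mul_neg, inv_mul_cancel₀ hκ.ne'] at this
  · intro f hf
    have h := hy f hf
    rw [integral_smul_measure, integral_smul_measure, ENNReal.toReal_ofReal hp0.le, smul_eq_mul,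
      smul_eq_mul]
    have e1 : ∀ x, gsX C (fun i z => κ • G i z) f x +
        (1 / 4 * scX C (fun i z => κ • G i z) x + 1 / 4) * f x ^ 2 =
        κ⁻¹ * (gsX C G f x + (1 / 4 * scX C G x + κ / 4) * f x ^ 2) := fun x => by
      rw [gsX_smul hG hκ, scX_smul hG hκ]
      field_simp
    simp only [e1]
    rw [integral_const_mul]
    have hi0 : 0 ≤ ∫ x, |f x| ^ (2 * (n : ℝ) / (n - 2)) ∂μ :=
      integral_nonneg fun x => Real.rpow_nonneg (abs_nonneg _) _
    rw [Real.mul_rpow hp0.le hi0, ← Real.rpow_mul hκ.le,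
      show (n : ℝ) / 2 * ((n - 2) / n) = n / 2 - 1 by field_simp,
      Real.rpow_sub_one hκ.ne']
    calc y * (κ ^ ((n : ℝ) / 2) / κ *
          (∫ x, |f x| ^ (2 * (n : ℝ) / (n - 2)) ∂μ) ^ (((n : ℝ) - 2) / n))
        = κ ^ ((n : ℝ) / 2) / κ *
          (y * (∫ x, |f x| ^ (2 * (n : ℝ) / (n - 2)) ∂μ) ^ (((n : ℝ) - 2) / n)) := by ring
      _ ≤ κ ^ ((n : ℝ) / 2) / κ *
          ∫ x, (gsX C G f x + (1 / 4 * scX C G x + κ / 4) * f x ^ 2) ∂μ :=
        mul_le_mul_of_nonneg_left h (by positivity)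
      _ = _ := by
        rw [div_eq_mul_inv]
        ring
  · unfold Vl
    rw [Finset.mul_sum]
    refine Finset.sum_congr rfl fun i _ => ?_
    rw [← integral_const_mul]
    refine integral_congr_ae (Filter.Eventually.of_forall fun z => ?_)
    simp only [dens_smul hκ]
    ring

end Vale.Agent.P223.H191
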